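import Mathlib

/-! Singular chains, cochains and an eigenvector criterion. -/

namespace Vale.Agent.P103

open CategoryTheory Limits AlgebraicTopology HomologicalComplex

abbrev RR : ModuleCat.{0} ℝ := ModuleCat.of ℝ ℝ

abbrev Dl (n : ℕ) : Type := stdSimplex ℝ (Fin (n + 1))

noncomputable abbrev CC (X : TopCat.{0}) : ChainComplex (ModuleCat.{0} ℝ) ℕ :=
  (TopCat.toSSet.obj X).chainComplex RR

noncomputable abbrev CM {X Y : TopCat.{0}} (f : X ⟶ Y) : CC X ⟶ CC Y :=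
  SSet.chainComplexMap (TopCat.toSSet.map f) RR

noncomputable def sx {X : TopCat.{0}} {n : ℕ} (σ : C(Dl n, X)) : RR ⟶ (CC X).X n :=
  (TopCat.toSSet.obj X).ιChainComplex ((X.toSSetObjEquiv (Opposite.op (SimplexCategory.mk n))).symm σ)

noncomputable def face {n : ℕ} (i : Fin (n + 2)) : C(Dl n, Dl (n + 1)) :=
  ⟨stdSimplex.map i.succAbove, stdSimplex.continuous_map _⟩

lemma sx_d {X : TopCat.{0}} {n : ℕ} (σ : C(Dl (n + 1), X)) :
    sx σ ≫ (CC X).d (n + 1) n = ∑ i : Fin (n + 2), (-1) ^ i.val • sx (σ.comp (face i)) :=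
  SSet.ιChainComplex_d _ _ _

lemma sx_d2 {X : TopCat.{0}} (σ : C(Dl 2, X)) : sx σ ≫ (CC X).d 2 1 =
    sx (σ.comp (face 0)) - sx (σ.comp (face 1)) + sx (σ.comp (face 2)) := by
  refine (sx_d σ).trans ((Fin.sum_univ_three _).trans ?_)
  simp [sub_eq_add_neg]

lemma sx_d3 {X : TopCat.{0}} (σ : C(Dl 3, X)) : sx σ ≫ (CC X).d 3 2 =
    sx (σ.comp (face 0)) - sx (σ.comp (face 1)) + sx (σ.comp (face 2)) - sx (σ.comp (face 3)) := by
  refine (sx_d σ).trans ((Fin.sum_univ_four _).trans ?_)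
  simp [sub_eq_add_neg]

lemma sx_map {X Y : TopCat.{0}} (f : X ⟶ Y) {n : ℕ} (σ : C(Dl n, X)) :
    sx σ ≫ (CM f).f n = sx (f.hom.comp σ) :=
  SSet.ι_chainComplexMap_f _ _ _ _ _

lemma cc_ext {X : TopCat.{0}} {n : ℕ} {T : ModuleCat.{0} ℝ} {a b : (CC X).X n ⟶ T}
    (h : ∀ σ, sx σ ≫ a = sx σ ≫ b) : a = b :=
  SSet.chainComplex_hom_ext fun x => by
    have := h (X.toSSetObjEquiv _ x)
    rwa [sx, Equiv.symm_apply_apply] at this

noncomputable def coch {X : TopCat.{0}} {n : ℕ} (a : C(Dl n, X) → ℝ) : (CC X).X n ⟶ RR :=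
  Cofan.IsColimit.desc ((TopCat.toSSet.obj X).isColimitChainComplexXCofan RR n)
    fun x => a (X.toSSetObjEquiv _ x) • 𝟙 RR

lemma sx_coch {X : TopCat.{0}} {n : ℕ} (a : C(Dl n, X) → ℝ) (σ : C(Dl n, X)) :
    sx σ ≫ coch a = a σ • 𝟙 RR := by
  have := Cofan.IsColimit.fac ((TopCat.toSSet.obj X).isColimitChainComplexXCofan RR n)
    (fun x => a (X.toSSetObjEquiv _ x) • 𝟙 RR)
    ((X.toSSetObjEquiv (Opposite.op (SimplexCategory.mk n))).symm σ)
  rw [Equiv.apply_symm_apply] at this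
  exact this

lemma eig_chain {K : ChainComplex (ModuleCat.{0} ℝ) ℕ} (φ : K ⟶ K) (c : RR ⟶ K.X 2)
    (hc : c ≫ K.d 2 1 = 0) (b : RR ⟶ K.X 3) (hb : c ≫ φ.f 2 - (c + c) = b ≫ K.d 3 2)
    (e : K.X 2 ⟶ RR) (he : K.d 3 2 ≫ e = 0) (hce : c ≫ e ≠ 0) :
    ∃ h : RR ⟶ K.homology 2, h ≠ 0 ∧ h ≫ homologyMap φ 2 = h + h := by
  have hn : (ComplexShape.down ℕ).next 2 = 1 := ChainComplex.next_nat_succ 1
  have hp : (ComplexShape.down ℕ).prev 2 = 3 := ChainComplex.prev ℕ 2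
  refine ⟨K.liftCycles c 1 hn hc ≫ K.homologyπ 2, fun h0 => hce ?_, ?_⟩
  · have := congrArg (· ≫ K.homologyι 2 ≫ K.descOpcycles e 3 hp he) h0
    simpa using this
  · have h1 := K.liftCycles_homologyπ_eq_zero_of_boundary _ 1 hn b hb
    rw [Category.assoc, homologyπ_naturality, ← Category.assoc, ← sub_eq_zero, ← h1,
      ← Preadditive.add_comp, ← Preadditive.sub_comp]
    congr 1
    rw [← cancel_mono (K.iCycles 2)]
    simp

/-- The map induced on singular homology with real coefficients. -/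
noncomputable abbrev HM (k : ℕ) {X Y : TopCat.{0}} (f : X ⟶ Y) :=
  ((singularHomologyFunctor (ModuleCat.{0} ℝ) k).obj RR).map f

lemma eig_transfer {S X : TopCat.{0}} (g : S ⟶ S) (f : X ⟶ X) (ι : S ⟶ X) (pr : X ⟶ S)
    (h1 : ι ≫ pr = 𝟙 S) (h2 : ContinuousMap.Homotopic (ι ≫ f).hom (g ≫ ι).hom)
    (h : RR ⟶ (CC S).homology 2) (h0 : h ≠ 0) (hg : h ≫ homologyMap (CM g) 2 = h + h) :
    Module.End.HasEigenvalue (HM 2 f).hom 2 := by
  obtain ⟨H⟩ := h2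
  have e1 : HM 2 (ι ≫ f) = HM 2 (g ≫ ι) :=
    TopCat.Homotopy.congr_homologyMap_singularChainComplexFunctor H RR 2
  let h' : RR ⟶ ((singularHomologyFunctor (ModuleCat.{0} ℝ) 2).obj RR).obj S := h
  have hg' : h' ≫ HM 2 g = h' + h' := hg
  have e2 : (h' ≫ HM 2 ι) ≫ HM 2 f = h' ≫ HM 2 ι + h' ≫ HM 2 ι := by
    unfold HM at *
    rw [Category.assoc, ← Functor.map_comp, e1, Functor.map_comp, ← Category.assoc, hg',
      Preadditive.add_comp]
  have e3 : (h' ≫ HM 2 ι) ≫ HM 2 pr = h' := by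
    rw [Category.assoc, ← Functor.map_comp, h1, CategoryTheory.Functor.map_id, Category.comp_id]
  generalize h' ≫ HM 2 ι = u at e2 e3
  refine Module.End.hasEigenvalue_of_hasEigenvector (x := u.hom 1) ⟨?_, fun hu => h0 ?_⟩
  · rw [Module.End.mem_eigenspace_iff, two_smul]
    exact congrArg (fun a => a.hom (1 : ℝ)) e2
  · have : u = 0 := ModuleCat.hom_ext (LinearMap.ext_ring hu)
    rw [this, zero_comp] at e3
    exact e3.symm

end Vale.Agent.P103
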