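import Vale.Agent.P103.Hopf

/-! The suspension of the doubling map doubles a nonzero class in `H₂(S²)`. -/

namespace Vale.Agent.P103

open CategoryTheory Limits Complex Finset ComplexConjugate Filter Topology
open scoped Real

lemma cont_of_norm {X : Type} [TopologicalSpace X] {f : X → ℂ} {a : X → ℝ} (ha : Continuous a)
    (h1 : ∀ x, ‖f x‖ = a x) (h2 : ∀ x, a x ≠ 0 → ContinuousAt f x) : Continuous f := by
  refine continuous_iff_continuousAt.2 fun x => ?_
  by_cases h : a x = 0
  · have h0 : f x = 0 := by rw [← norm_eq_zero, h1, h]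
    rw [ContinuousAt, h0, tendsto_zero_iff_norm_tendsto_zero, funext h1, ← h]
    exact ha.continuousAt
  · exact h2 x h

@[fun_prop] lemma continuous_E : Continuous E := by unfold E; fun_prop

noncomputable def psi (q : ℝ × ℝ) : ℂ := (|Real.sin (π / 2 * q.1)| : ℝ) * E (2 * π * (q.2 / q.1))

lemma norm_psi (q : ℝ × ℝ) : ‖psi q‖ = |Real.sin (π / 2 * q.1)| := by simp [psi, norm_E]

lemma continuous_psi : Continuous psi :=
  cont_of_norm (by fun_prop) norm_psi fun q h => by
    have hq : q.1 ≠ 0 := fun h0 => h (by simp [h0])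
    unfold psi
    fun_prop (disch := exact hq)

noncomputable def th (ε : Bool) : C(ℝ × ℝ, S2) :=
  ⟨fun q => ⟨mk3 (psi q) ((if ε then 1 else -1) * Real.cos (π / 2 * q.1)), mk3_mem (by
    rw [norm_psi]; cases ε <;> simp)⟩,
    Continuous.subtype_mk (continuous_mk3 continuous_psi (by fun_prop)) _⟩

lemma norm_dbl (z : ℂ) : ‖z ^ 2 / ‖z‖‖ = ‖z‖ := by
  by_cases h : z = 0
  · simp [h]
  · simp only [norm_div, norm_pow, norm_real, norm_norm]; field_simp

/-- The suspension of the doubling map. -/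
noncomputable def dbl : C(S2, S2) :=
  ⟨fun p => ⟨mk3 (zc p ^ 2 / ‖zc p‖) (p.1 2), mk3_mem (by rw [norm_dbl, sph])⟩,
    Continuous.subtype_mk (continuous_mk3 (cont_of_norm (a := fun p : S2 => ‖zc p‖) (by fun_prop)
      (fun _ => norm_dbl _) fun p h => by fun_prop (disch := exact_mod_cast h)) (by fun_prop)) _⟩

lemma dbl_th (ε : Bool) (s a : ℝ) : dbl (th ε (s, a)) = th ε (s, 2 * a) := by
  refine Subtype.ext (e3_ext ?_ (by simp [dbl, th]))
  simp only [dbl, th, ContinuousMap.coe_mk, zc_mk3, norm_psi]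
  simp only [psi]
  by_cases h : |Real.sin (π / 2 * s)| = 0
  · simp [h]
  · have h' : ((|Real.sin (π / 2 * s)| : ℝ) : ℂ) ≠ 0 := by exact_mod_cast h
    rw [mul_pow, E_pow, div_eq_iff h']
    ring_nf

lemma th_shear (ε : Bool) (s a : ℝ) : th ε (s, a + s) = th ε (s, a) := by
  refine Subtype.ext (e3_ext ?_ (by simp [th]))
  simp only [th, ContinuousMap.coe_mk, zc_mk3, psi]
  by_cases h : s = 0
  · simp [h]
  · have := E_int 1
    rw [add_div, div_self h, mul_add, E_add]
    simp only [Int.cast_one] at this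
    rw [this, mul_one]

lemma th_one (ε : Bool) (a : ℝ) : (th ε (1, a)).1 = mk3 (E (2 * π * a)) 0 := by
  simp [th, psi]

noncomputable def aff {n : ℕ} (q : Fin (n + 1) → ℝ × ℝ) : C(Dl n, ℝ × ℝ) :=
  ⟨fun x => (∑ i, x.1 i * (q i).1, ∑ i, x.1 i * (q i).2),
    have h : ∀ c : Fin (n + 1) → ℝ, Continuous fun x : Dl n => ∑ i, x.1 i * c i := fun _ =>
      continuous_finsetSum _ fun i _ =>
        ((continuous_apply i).comp continuous_subtype_val).mul continuous_const
    (h _).prodMk (h _)⟩

lemma sum_face {n : ℕ} (i : Fin (n + 2)) (x : Dl n) (c : Fin (n + 2) → ℝ) :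
    ∑ j, (face i x).1 j * c j = ∑ j, x.1 j * c (i.succAbove j) := by
  have : ∀ j, (face i x).1 j = ∑ k with i.succAbove k = j, x.1 k := fun j =>
    FunOnFinite.linearMap_apply_apply _ _ _ _ _
  simp only [this, sum_mul]
  rw [← sum_fiberwise univ i.succAbove]
  refine sum_congr rfl fun j _ => sum_congr rfl fun k hk => ?_
  rw [(mem_filter.1 hk).2]

noncomputable def cone (ε : Bool) {n : ℕ} (q : Fin (n + 1) → ℝ × ℝ) : C(Dl n, S2) :=
  (th ε).comp (aff q)

lemma cone_face (ε : Bool) {n : ℕ} (q : Fin (n + 2) → ℝ × ℝ) (i : Fin (n + 2)) :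
    (cone ε q).comp (face i) = cone ε fun j => q (i.succAbove j) := by
  ext1 x
  simp only [cone, aff, ContinuousMap.comp_apply, ContinuousMap.coe_mk, sum_face]

lemma cone_shear (ε : Bool) {n : ℕ} {q q' : Fin (n + 1) → ℝ × ℝ}
    (h : ∀ i, q i = ((q' i).1, (q' i).2 + (q' i).1)) : cone ε q = cone ε q' := by
  ext1 x
  simp only [cone, aff, ContinuousMap.comp_apply, ContinuousMap.coe_mk, h, mul_add,
    sum_add_distrib, th_shear]

lemma cone_dbl (ε : Bool) {n : ℕ} {q q' : Fin (n + 1) → ℝ × ℝ}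
    (h : ∀ i, q i = ((q' i).1, 2 * (q' i).2)) : dbl.comp (cone ε q') = cone ε q := by
  ext1 x
  simp only [cone, aff, ContinuousMap.comp_apply, ContinuousMap.coe_mk, h, dbl_th, mul_sum,
    mul_left_comm]

lemma cone_one (ε : Bool) {n : ℕ} {q : Fin (n + 1) → ℝ × ℝ} (h : ∀ i, (q i).1 = 1) (x : Dl n) :
    (cone ε q x).1 = mk3 (E (2 * π * (aff q x).2)) 0 := by
  simp only [cone, aff, ContinuousMap.comp_apply, ContinuousMap.coe_mk, h, mul_one, x.2.2, th_one]

lemma cone_eq {n : ℕ} {q : Fin (n + 1) → ℝ × ℝ} (h : ∀ i, (q i).1 = 1) :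
    cone true q = cone false q := by
  ext1 x
  exact Subtype.ext ((cone_one _ h x).trans (cone_one _ h x).symm)

def q2 (a b : ℝ) : Fin 3 → ℝ × ℝ := ![(0, 0), (1, a), (1, b)]

def q3 : Fin 4 → ℝ × ℝ := ![(0, 0), (1, 0), (1, 1), (1, 2)]

lemma face_12 (ε : Bool) : (cone ε (q2 0 1)).comp (face 1) = (cone ε (q2 0 1)).comp (face 2) := by
  rw [cone_face, cone_face]
  exact cone_shear ε fun i => by fin_cases i <;> simp [q2, Fin.succAbove]

lemma face_0 : (cone true (q2 0 1)).comp (face 0) = (cone false (q2 0 1)).comp (face 0) := by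
  rw [cone_face, cone_face]
  exact cone_eq fun i => by fin_cases i <;> simp [q2]

lemma cone_two (ε : Bool) (x : Dl 2) :
    ∃ c : ℝ, 0 ≤ c ∧ (cone ε (q2 0 1) x).1 2 = (if ε then 1 else -1) * c := by
  refine ⟨Real.cos (π / 2 * (aff (q2 0 1) x).1), Real.cos_nonneg_of_mem_Icc ?_, by simp [cone, th]⟩
  have h1 := x.2.2
  have h2 := x.2.1
  have h3 : (aff (q2 0 1) x).1 = x.1 1 + x.1 2 := by simp [aff, q2, Fin.sum_univ_succ]
  rw [Fin.sum_univ_three] at h1
  rw [h3]
  constructor <;> nlinarith [h2 0, h2 1, h2 2, Real.pi_pos]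

theorem eig_sphere : ∃ h : RR ⟶ (CC (TopCat.of S2)).homology 2, h ≠ 0 ∧
    h ≫ HomologicalComplex.homologyMap (CM (TopCat.ofHom dbl)) 2 = h + h := by
  refine eig_chain _ (sx (X := TopCat.of S2) (cone true (q2 0 1)) - sx (cone false (q2 0 1))) ?_
    (sx (X := TopCat.of S2) (cone true q3) - sx (cone false q3)) ?_ chern chern_closed ?_
  · rw [Preadditive.sub_comp, sx_d2, sx_d2, face_12, face_12, face_0]; abel
  · have a0 : (cone true q3).comp (face 0) = (cone false q3).comp (face 0) := by
      rw [cone_face, cone_face]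
      exact cone_eq fun i => by fin_cases i <;> simp [q3]
    have a1 : ∀ ε, (cone ε q3).comp (face 1) = cone ε (q2 0 1) := fun ε => by
      rw [cone_face]
      exact cone_shear ε fun i => by fin_cases i <;> simp [q2, q3, Fin.succAbove]; norm_num
    have a2 : ∀ ε, (cone ε q3).comp (face 2) = dbl.comp (cone ε (q2 0 1)) := fun ε => by
      rw [cone_face]
      exact (cone_dbl ε fun i => by fin_cases i <;> simp [q2, q3, Fin.succAbove]).symm
    have a3 : ∀ ε, (cone ε q3).comp (face 3) = cone ε (q2 0 1) := fun ε => by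
      rw [cone_face]
      congr 1
      ext1 i
      fin_cases i <;> rfl
    rw [Preadditive.sub_comp, Preadditive.sub_comp, sx_d3, sx_d3, sx_map, sx_map, a0, a1, a1, a2,
      a2, a3, a3, TopCat.hom_ofHom]
    abel
  · have hN : ∀ x, (cone true (q2 0 1) x).1 2 ≠ -1 := fun x => by
      obtain ⟨c, h0, h⟩ := cone_two true x
      rw [h]; simp; linarith
    have hS : ∀ x, (cone false (q2 0 1) x).1 2 ≠ 1 := fun x => by
      obtain ⟨c, h0, h⟩ := cone_two false x
      rw [h]; simp; linarith
    have b1 := sx_chern (liftN _ hN)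
    have b2 := sx_chern (liftS _ hS)
    have b3 : (liftN _ hN).comp (face 1) = (liftN _ hN).comp (face 2) := by
      ext1 x
      have := DFunLike.congr_fun (face_12 true) x
      simp only [ContinuousMap.comp_apply] at this
      simp only [liftN, ContinuousMap.comp_apply, ContinuousMap.coe_mk, this]
    have b4 : (liftS _ hS).comp (face 1) = (liftS _ hS).comp (face 2) := by
      ext1 x
      have := DFunLike.congr_fun (face_12 false) x
      simp only [ContinuousMap.comp_apply] at this
      simp only [liftS, ContinuousMap.comp_apply, ContinuousMap.coe_mk, this]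
    have b5 := con_mul (α := (liftN _ hN).comp (face 0)) (β := (liftS _ hS).comp (face 0)) face_0
      ⟨fun x => I * (2 * π * (aff (fun j => q2 0 1 ((0 : Fin 3).succAbove j)) x).2 : ℝ),
        continuous_const.mul (continuous_ofReal.comp
          (continuous_const.mul (aff _).continuous.snd))⟩ fun x => by
      have c1 := fun ε => (congrArg Subtype.val (DFunLike.congr_fun (cone_face ε (q2 0 1) 0) x)).trans
        (cone_one ε (fun i => by fin_cases i <;> simp [q2]) x)
      simp only [ContinuousMap.comp_apply] at c1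
      simp only [liftN, liftS, ContinuousMap.comp_apply, ContinuousMap.coe_mk, c1, zc_mk3, mk3_two]
      rw [← E]
      ext
      · simp
      · simp [mul_conj', norm_E]
    rw [dcon, b3] at b1
    rw [dcon, b4] at b2
    rw [Preadditive.sub_comp]
    refine fun h => ?_
    have h1 := (congrArg₂ (· - ·) b1 b2).symm.trans h
    rw [← sub_smul, b5] at h1
    have h2 := congrArg (fun a => a.hom (1 : ℝ)) h1
    simp [aff, q2, Fin.succAbove] at h2

end Vale.Agent.P103
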