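import Vale.Agent.P103.Dyn
import Vale.Agent.P103.Cone

/-! Coordinates: stereographic projection and the register chart. -/

namespace Vale.Agent.P103

open Complex Finset

noncomputable def sig (Z : ℂ) : E3 :=
  mk3 ((2 / (1 + ‖Z‖ ^ 2) : ℝ) * Z) ((1 - ‖Z‖ ^ 2) / (1 + ‖Z‖ ^ 2))

noncomputable def ste (p : E3) : ℂ := ((1 + p 2)⁻¹ : ℝ) * zc p

noncomputable def gS (p : E3) : E3 :=
  mk3 (((1 + p 2 ^ 2)⁻¹ : ℝ) * zc p ^ 2) (2 * p 2 * (1 + p 2 ^ 2)⁻¹)

lemma sig_mem (Z : ℂ) : sig Z ∈ Metric.sphere (0 : E3) 1 := mk3_mem (by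
  rw [norm_mul, norm_real, mul_pow, Real.norm_eq_abs, sq_abs]
  field_simp; ring)

lemma gS_mem (p : S2) : gS p ∈ Metric.sphere (0 : E3) 1 := mk3_mem (by
  rw [norm_mul, norm_real, mul_pow, Real.norm_eq_abs, sq_abs, norm_pow,
    eq_sub_of_add_eq (sph p)]
  field_simp; ring)

lemma sig_two (Z : ℂ) : sig Z 2 + 1 = 2 / (1 + ‖Z‖ ^ 2) := by
  simp only [sig, mk3_two]; field_simp; ring

lemma sig_ne (Z : ℂ) : sig Z 2 ≠ -1 := fun h => by
  have h1 := sig_two Z
  have : 0 < 2 / (1 + ‖Z‖ ^ 2) := by positivity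
  linarith

lemma ste_sig (Z : ℂ) : ste (sig Z) = Z := by
  rw [ste, add_comm, sig_two, sig, zc_mk3, ← mul_assoc, ← ofReal_mul,
    inv_mul_cancel₀ (by positivity), ofReal_one, one_mul]

lemma one_add_pos {p : S2} (h : p.1 2 ≠ -1) : 0 < 1 + p.1 2 := by
  have : -1 ≤ p.1 2 := by nlinarith [sph p, sq_nonneg ‖zc p‖]
  have := lt_of_le_of_ne this (Ne.symm h)
  linarith

lemma norm_ste {p : S2} (h : p.1 2 ≠ -1) : ‖ste p‖ ^ 2 * (1 + p.1 2) = 1 - p.1 2 := by
  have := one_add_pos h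
  rw [ste, norm_mul, norm_real, mul_pow, Real.norm_eq_abs, sq_abs, eq_sub_of_add_eq (sph p)]
  field_simp; ring

lemma sig_sq {p : S2} (h : p.1 2 ≠ -1) : sig (ste p ^ 2) = gS p := by
  have h0 := one_add_pos h
  have h1 : ‖ste p ^ 2‖ = (1 - p.1 2) / (1 + p.1 2) := by
    rw [norm_pow, eq_div_iff h0.ne', norm_ste h]
  rw [sig, gS, h1, ste, mul_pow, ← mul_assoc, ← ofReal_pow, ← ofReal_mul]
  congr 1
  · congr 2
    field_simp; ring
  · field_simp; ring

lemma contDiff_sig : ContDiff ℝ 1 sig := by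
  have h : ContDiff ℝ 1 fun Z : ℂ => ‖Z‖ ^ 2 := contDiff_norm_sq ℂ
  have h' : ∀ Z : ℂ, 1 + ‖Z‖ ^ 2 ≠ 0 := fun Z => by positivity
  exact contDiff_mk3.comp (((contDiff_ofReal (contDiff_const.div (contDiff_const.add h) h')).mul
    contDiff_id).prodMk ((contDiff_const.sub h).div (contDiff_const.add h) h'))

lemma contDiff_gS : ContDiff ℝ 1 gS := by
  have h : ContDiff ℝ 1 fun p : E3 => p 2 := contDiff_piLp_apply 2
  have h' : ContDiff ℝ 1 fun p : E3 => (1 + p 2 ^ 2)⁻¹ :=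
    (contDiff_const.add (h.pow 2)).inv fun p => by positivity
  exact contDiff_mk3.comp (((contDiff_ofReal h').mul (contDiff_zc.pow 2)).prodMk
    ((contDiff_const.mul h).mul h'))

lemma contDiffAt_ste {p : E3} (hp : 1 + p 2 ≠ 0) : ContDiffAt ℝ 1 ste p := by
  have h : ContDiff ℝ 1 fun p : E3 => p 2 := contDiff_piLp_apply 2
  exact (ofRealCLM.contDiff.contDiffAt.comp p
    ((contDiff_const.add h).contDiffAt.inv hp)).mul contDiff_zc.contDiffAt

lemma south_eq {p : S2} (h : p.1 2 = -1) : gS p = mk3 0 (-1) := by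
  have h1 := sph p
  rw [h] at h1
  have h2 : zc p = 0 := by simpa using h1
  rw [gS, h2, h]; norm_num

lemma dist_south (Z : ℂ) : dist (sig Z) (mk3 0 (-1)) ^ 2 = 4 / (1 + ‖Z‖ ^ 2) := by
  have h1 : zc (sig Z - mk3 0 (-1)) = zc (sig Z) := by simp [zc, mk3]
  have h2 := sph ⟨_, sig_mem Z⟩
  have h3 := sig_two Z
  rw [dist_eq_norm, norm_e3, h1, PiLp.sub_apply, mk3_two, eq_sub_of_add_eq h2]
  linear_combination 2 * h3

@[irreducible] def NN : ℕ := Fintype.card (Reg × Bool)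

noncomputable def ee : Reg × Bool ≃ Fin NN := Fintype.equivFinOfCardEq (by unfold NN; rfl)

abbrev En : Type := EuclideanSpace ℝ (Fin (NN + 1))

noncomputable def inV (z : ℂ) (y : En) : V := WithLp.toLp 2 fun q =>
  if q = M0 then z else y (ee (q, true)).castSucc + y (ee (q, false)).castSucc * I

noncomputable def er0 (v : V) : V := WithLp.toLp 2 fun q => if q = M0 then 0 else v q

noncomputable def part (u : V) (x : Reg × Bool) : ℝ := if x.2 then (u x.1).re else (u x.1).im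

noncomputable def out0 (u : V) : En :=
  WithLp.toLp 2 (Fin.snoc (α := fun _ => ℝ) (fun k => part u (ee.symm k)) √(1 - ‖u‖ ^ 2))

lemma inV_M0 (z : ℂ) (y : En) : inV z y M0 = z := by simp [inV]

lemma inV_out (v : V) : inV (v M0) (out0 (er0 v)) = v := by
  ext q
  by_cases h : q = M0
  · simp [inV, h]
  · simp [inV, out0, er0, part, h]

lemma inV_le (z : ℂ) {y : En} (hy : ‖y‖ = 1) {q : Reg} (h : q ≠ M0) : ‖inV z y q‖ ≤ 1 := by
  have h1 := EuclideanSpace.real_norm_sq_eq y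
  have h2 : ∑ i ∈ {(ee (q, true)).castSucc, (ee (q, false)).castSucc}, y i ^ 2 ≤ ∑ i, y i ^ 2 :=
    sum_le_sum_of_subset_of_nonneg (subset_univ _) fun i _ _ => sq_nonneg _
  rw [sum_pair (by simp), ← h1, hy] at h2
  rw [← sq_le_one_iff₀ (norm_nonneg _), Complex.sq_norm]
  simp only [inV, if_neg h, normSq_add_mul_I]
  linarith

lemma out0_mem {u : V} (h : ‖u‖ ≤ 1) : out0 u ∈ Metric.sphere (0 : En) 1 := by
  rw [mem_sphere_zero_iff_norm, ← pow_eq_one_iff_of_nonneg (norm_nonneg _) two_ne_zero,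
    EuclideanSpace.real_norm_sq_eq, Fin.sum_univ_castSucc]
  simp only [out0, Fin.snoc_castSucc, Fin.snoc_last]
  rw [Real.sq_sqrt (by nlinarith [norm_nonneg u]), ee.symm.sum_comp fun x => part u x ^ 2,
    Fintype.sum_prod_type, EuclideanSpace.norm_sq_eq]
  simp only [Complex.sq_norm, normSq_apply]
  simp [part, sq]

lemma inV_north (z : ℂ) {q : Reg} (h : q ≠ M0) : inV z (out0 0) q = 0 := by
  simp [inV, out0, part, h]

lemma norm_er0_le (v : V) : ‖er0 v‖ ≤ ‖v‖ := by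
  rw [EuclideanSpace.norm_eq, EuclideanSpace.norm_eq]
  gcongr with q
  simp only [er0]
  split_ifs <;> simp

lemma er0_eq {v : V} (h : ∀ p, p ≠ M0 → v p = 0) : er0 v = 0 := by
  ext q
  by_cases hq : q = M0
  · simp [er0, hq]
  · simp [er0, h q hq]

lemma contDiff_inV : ContDiff ℝ 1 fun x : ℂ × En => inV x.1 x.2 := by
  refine (contDiff_piLp 2).2 fun q => ?_
  simp only [inV]
  split_ifs
  · exact contDiff_fst
  · exact (contDiff_ofReal ((contDiff_piLp_apply 2).comp contDiff_snd)).add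
      ((contDiff_ofReal ((contDiff_piLp_apply 2).comp contDiff_snd)).mul contDiff_const)

lemma contDiff_er0 : ContDiff ℝ 1 er0 := by
  refine (contDiff_piLp 2).2 fun q => ?_
  simp only [er0]
  split_ifs
  · exact contDiff_const
  · exact contDiff_piLp_apply 2

lemma contDiffAt_out0 {u : V} (h : ‖u‖ < 1) : ContDiffAt ℝ 1 out0 u := by
  refine (contDiffAt_piLp 2).2 fun k => ?_
  simp only [out0]
  induction k using Fin.lastCases with
  | last =>
    simp only [Fin.snoc_last]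
    exact (contDiff_const.sub (contDiff_norm_sq ℂ)).contDiffAt.sqrt
      (by nlinarith [norm_nonneg u])
  | cast k =>
    simp only [Fin.snoc_castSucc, part]
    split_ifs
    · exact (reCLM.contDiff.comp (contDiff_piLp_apply 2)).contDiffAt
    · exact (imCLM.contDiff.comp (contDiff_piLp_apply 2)).contDiffAt

lemma sphere_homotopic {X Y : Type} [TopologicalSpace X] [NormedAddCommGroup Y] [NormedSpace ℝ Y]
    {a b : C(X, Metric.sphere (0 : Y) 1)} (h : ∀ x, -(a x).1 ≠ (b x).1) : a.Homotopic b := by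
  have key : ∀ p : unitInterval × X, (1 - p.1.1) • (a p.2).1 + p.1.1 • (b p.2).1 ≠ 0 := by
    rintro ⟨t, x⟩ h0
    have h1 := congrArg norm (eq_neg_of_add_eq_zero_left h0)
    simp only [norm_neg, norm_smul, norm_eq_of_mem_sphere, mul_one, Real.norm_eq_abs,
      abs_of_nonneg t.2.1, abs_of_nonneg (sub_nonneg.2 t.2.2)] at h1
    rw [h1, ← smul_add, smul_eq_zero] at h0
    rcases h0 with h0 | h0
    · linarith
    · exact h x (neg_eq_of_add_eq_zero_right h0)
  have mem : ∀ p : unitInterval × X, ‖(1 - p.1.1) • (a p.2).1 + p.1.1 • (b p.2).1‖⁻¹ •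
      ((1 - p.1.1) • (a p.2).1 + p.1.1 • (b p.2).1) ∈ Metric.sphere (0 : Y) 1 := fun p => by
    rw [mem_sphere_zero_iff_norm, norm_smul, norm_inv, norm_norm,
      inv_mul_cancel₀ (norm_ne_zero_iff.2 (key p))]
  exact ⟨⟨⟨fun p => ⟨_, mem p⟩, Continuous.subtype_mk ((Continuous.inv₀ (by fun_prop) fun p =>
    norm_ne_zero_iff.2 (key p)).smul (by fun_prop)) mem⟩, fun x => by ext; simp,
    fun x => by ext; simp⟩⟩

end Vale.Agent.P103
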