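import Mathlib

/-! Definitions for the statement on Shub's entropy conjecture. -/

namespace Vale.Agent.P103

open scoped ContDiff

/-- Distinct points of `S` satisfy `d_n(x, y) > ε`, where `d_n(x, y) = max_{j < n} d(f^j x, f^j y)`. -/
def Separated {M : Type} [MetricSpace M] (f : M → M) (n : ℕ) (ε : ℝ) (S : Finset M) : Prop :=
  ∀ x ∈ S, ∀ y ∈ S, x ≠ y → ∃ j < n, ε < dist (f^[j] x) (f^[j] y)

/-- `s_f(n, ε)`, the largest cardinality of an `(n, ε)`-separated set. -/
noncomputable def sepNum {M : Type} [MetricSpace M] (f : M → M) (n : ℕ) (ε : ℝ) : ENNReal :=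
  ⨆ (S : Finset M) (_ : Separated f n ε S), (S.card : ENNReal)

/-- `limsup_n (1/n) log s_f(n, ε)`; the topological entropy is its limit as `ε ↓ 0`. -/
noncomputable def sepRate {M : Type} [MetricSpace M] (f : M → M) (ε : ℝ) : EReal :=
  Filter.limsup (fun n : ℕ => ENNReal.log (sepNum f n ε) / (n : EReal)) Filter.atTop

/-- The unit sphere `Sⁿ` in `ℝⁿ⁺¹`. -/
abbrev Sph (n : ℕ) : Type := Metric.sphere (0 : EuclideanSpace ℝ (Fin (n + 1))) 1

/-- The manifold `S¹ × S² × Sⁿ`. -/
abbrev Mfd (n : ℕ) : Type := Circle × Sph 2 × Sph n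

/-- The model with corners (without boundary) of `S¹ × S² × Sⁿ`. -/
noncomputable abbrev model (n : ℕ) :=
  (modelWithCornersSelf ℝ (EuclideanSpace ℝ (Fin 1))).prod
    ((modelWithCornersSelf ℝ (EuclideanSpace ℝ (Fin 2))).prod
      (modelWithCornersSelf ℝ (EuclideanSpace ℝ (Fin n))))

/-- The `k`-th singular homology functor with real coefficients. -/
noncomputable abbrev homologyR (k : ℕ) : CategoryTheory.Functor TopCat.{0} (ModuleCat.{0} ℝ) :=
  (AlgebraicTopology.singularHomologyFunctor (ModuleCat.{0} ℝ) k).obj (ModuleCat.of ℝ ℝ)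

/-- The linear endomorphism `f_{*k}` of `H_k(M; ℝ)` induced by a continuous self-map `f`. -/
noncomputable def homologyEnd {M : Type} [TopologicalSpace M] (k : ℕ) (f : ContinuousMap M M) :
    Module.End ℝ ((homologyR k).obj (TopCat.of M)) :=
  ((homologyR k).map (TopCat.ofHom f)).hom

/-- `M` is a nonempty compact smooth manifold without boundary (finite-dimensional model `I`) with a
`C¹` self-map of zero topological entropy whose action on `H₂(M; ℝ)` has the eigenvalue `2`. -/
def Counterexample {E H : Type} [NormedAddCommGroup E] [NormedSpace ℝ E] [TopologicalSpace H]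
    (I : ModelWithCorners ℝ E H) (M : Type) [MetricSpace M] [ChartedSpace H M] : Prop :=
  (FiniteDimensional ℝ E ∧ IsManifold I ∞ M ∧ BoundarylessManifold I M ∧ CompactSpace M ∧
    Nonempty M) ∧
  ∃ f : ContinuousMap M M, ContMDiff I I 1 f ∧
    Filter.Tendsto (sepRate f) (nhdsWithin 0 (Set.Ioi 0)) (nhds 0) ∧
    Dynamics.coverEntropy f Set.univ = 0 ∧ Module.End.HasEigenvalue (homologyEnd 2 f) 2

end Vale.Agent.P103
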