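import Vale.Agent.P103.Fiber

/-! Orbits spend boundedly many steps at intermediate scales. -/

namespace Vale.Agent.P103

open Finset

section Count

variable {X : Type} (T : X → X) (B : X → Prop)

open Classical in
noncomputable def cnt (x : X) (n : ℕ) : ℕ := ((range n).filter fun s => B (T^[s] x)).card

lemma cnt_add (x : X) (k n : ℕ) : cnt T B x (k + n) = cnt T B x k + cnt T B (T^[k] x) n := by
  classical
  simp only [cnt, card_filter]
  rw [sum_range_add]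
  simp only [← Function.iterate_add_apply, add_comm]

lemma cnt_le (x : X) (k : ℕ) : cnt T B x k ≤ k := by
  classical
  exact (card_filter_le _ _).trans (card_range k).le

lemma cnt_le_add (x : X) (k n : ℕ) : cnt T B x n ≤ k + cnt T B (T^[k] x) n := by
  have h1 := cnt_add T B x k n
  have h2 := cnt_add T B x n k
  have h3 := cnt_le T B x k
  rw [add_comm n k] at h2
  omega

lemma cnt_eq_zero {x : X} {k : ℕ} (h : ∀ s < k, ¬ B (T^[s] x)) : cnt T B x k = 0 := by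
  simp only [cnt, card_eq_zero, filter_eq_empty_iff, mem_range]
  exact fun s hs => h s hs

lemma cnt_skip {x : X} {k n N : ℕ} (h : ∀ s < k, ¬ B (T^[s] x))
    (h' : k ≤ n → cnt T B (T^[k] x) (n - k) ≤ N) : cnt T B x n ≤ N := by
  by_cases hk : k ≤ n
  · have := cnt_add T B x k (n - k)
    rw [Nat.add_sub_cancel' hk, cnt_eq_zero T B h] at this
    have := h' hk
    omega
  · rw [cnt_eq_zero T B fun s hs => h s (by omega)]; exact Nat.zero_le _

theorem count_le (g : X → ℝ) (Good : X → Prop) {R b : ℝ} (P : ℕ) (hb : 0 < b)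
    (hB : ∀ x, B x → g x ≤ R) (hR : ∀ x, R < g x → R < g (T x))
    (H : ∀ x, g x ≤ R → ∃ k, 1 ≤ k ∧ (b ≤ g x → k ≤ P) ∧ (g x < b → ∀ s < k, ¬ B (T^[s] x)) ∧
      (g (T^[k] x) ≤ g x / 2 ∨ Good (T^[k] x)))
    (H' : ∀ x, g x ≤ R → Good x → ∃ k, 1 ≤ k ∧ (b ≤ g x → k ≤ P) ∧
      (g x < b → ∀ s < k, ¬ B (T^[s] x)) ∧ Good (T^[k] x) ∧ 2 * g x ≤ g (T^[k] x)) :
    ∃ N, ∀ x n, cnt T B x n ≤ N := by
  have h0 : ∀ x, R < g x → ∀ n, cnt T B x n = 0 := fun x hx n => by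
    refine cnt_eq_zero T B fun s _ hs => absurd (hB _ hs) (not_le.2 ?_)
    clear hs
    induction s with
    | zero => exact hx
    | succ s ih => rw [Function.iterate_succ_apply']; exact hR _ (ih (by omega))
  have up : ∀ i x, Good x → b ≤ g x → R < 2 ^ i * g x → ∀ n, cnt T B x n ≤ i * P := by
    intro i
    induction i with
    | zero => intro x _ _ h n; rw [h0 x (by simpa using h)]; exact Nat.zero_le _
    | succ i ih =>
      intro x hG hx h n
      by_cases hxR : R < g x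
      · rw [h0 x hxR]; exact Nat.zero_le _
      obtain ⟨k, -, h1, -, h2, h3⟩ := H' x (not_lt.1 hxR) hG
      have h4 := ih _ h2 (by linarith) (h.trans_le (by
        rw [pow_succ, mul_assoc]; exact mul_le_mul_of_nonneg_left h3 (by positivity))) n
      have h5 := cnt_le_add T B x k n
      have h6 := h1 hx
      rw [Nat.succ_mul]; omega
  obtain ⟨i0, hi0⟩ := pow_unbounded_of_one_lt (R / b) (one_lt_two (α := ℝ))
  rw [div_lt_iff₀ hb] at hi0
  have up' : ∀ n x, Good x → cnt T B x n ≤ i0 * P := by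
    intro n
    induction n using Nat.strong_induction_on with
    | _ n ih =>
      intro x hG
      by_cases hxR : R < g x
      · rw [h0 x hxR]; exact Nat.zero_le _
      by_cases hx : b ≤ g x
      · exact up i0 x hG hx (hi0.trans_le (by gcongr)) n
      obtain ⟨k, hk, -, h1, h2, -⟩ := H' x (not_lt.1 hxR) hG
      exact cnt_skip T B (h1 (not_le.1 hx)) fun hn => ih _ (by omega) _ h2
  have dn' : ∀ n x, g x < b → cnt T B x n ≤ i0 * P := by
    intro n
    induction n using Nat.strong_induction_on with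
    | _ n ih =>
      intro x hx
      by_cases hxR : R < g x
      · rw [h0 x hxR]; exact Nat.zero_le _
      obtain ⟨k, hk, -, h1, h2⟩ := H x (not_lt.1 hxR)
      refine cnt_skip T B (h1 hx) fun hn => ?_
      rcases h2 with h2 | h2
      · exact ih _ (by omega) _ (by linarith)
      · exact up' _ _ h2
  have dn : ∀ i x, g x < 2 ^ i * b → ∀ n, cnt T B x n ≤ i0 * P + i * P := by
    intro i
    induction i with
    | zero => intro x hx n; simpa using dn' n x (by simpa using hx)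
    | succ i ih =>
      intro x hx n
      by_cases hxR : R < g x
      · rw [h0 x hxR]; exact Nat.zero_le _
      by_cases hxb : g x < b
      · exact (dn' n x hxb).trans (Nat.le_add_right _ _)
      obtain ⟨k, -, h1, -, h2⟩ := H x (not_lt.1 hxR)
      have h5 := cnt_le_add T B x k n
      have h6 := h1 (not_lt.1 hxb)
      rw [Nat.succ_mul]
      rcases h2 with h2 | h2
      · have := ih _ (show g (T^[k] x) < 2 ^ i * b by rw [pow_succ] at hx; linarith) n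
        omega
      · have := up' n _ h2
        omega
  refine ⟨i0 * P + i0 * P, fun x n => ?_⟩
  by_cases hxR : R < g x
  · rw [h0 x hxR]; exact Nat.zero_le _
  · exact dn i0 x ((not_lt.1 hxR).trans_lt hi0) n

end Count

/-- The state space. -/
def St : Type := {x : ℂ × V // ‖x.1‖ = 1 ∧ ∀ p, p ≠ M0 → ‖x.2 p‖ ≤ 1}

variable {r : ℕ → ℝ} {F : ℂ × V → V}

lemma Fib.two_r (h : Fib r F) : 2 * r 2 * KF ≤ 1 / 4 := by
  nlinarith [h.small 2, le_cst 2, h.pos 2]

lemma Fib.low (h : Fib r F) {w : ℂ} {v : V} (hw : ‖w‖ = 1) (hv : ‖v‖ ≤ 2 * r 2) :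
    ‖F (w, v)‖ ≤ 1 / 4 := by
  have h1 := h.two_r
  have h2 := KF_ge
  have h3 := h.pos 2
  refine (h.bound w v hw (by nlinarith)).trans ?_
  nlinarith

noncomputable def Fib.T (h : Fib r F) (x : St) : St :=
  ⟨(x.1.1 * w0, F x.1), by simp [x.2.1, norm_w0], fun p hp => by
    by_cases hv : 2 * r 2 ≤ ‖x.1.2‖
    · rw [h.rest _ _ x.2.1 hv p hp]; simp
    · linarith [PiLp.norm_apply_le (F x.1) p, h.low x.2.1 (not_le.1 hv).le]⟩

lemma Fib.T_fst (h : Fib r F) (x : St) (t : ℕ) : (h.T^[t] x).1.1 = x.1.1 * w0 ^ t := by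
  induction t with
  | zero => simp
  | succ t ih => rw [Function.iterate_succ_apply', pow_succ, ← mul_assoc, ← ih]; rfl

lemma Fib.T_succ (h : Fib r F) (x : St) (t : ℕ) :
    (h.T^[t + 1] x).1.2 = F ((h.T^[t] x).1.1, (h.T^[t] x).1.2) := by
  rw [Function.iterate_succ_apply']; rfl

lemma Fib.far_le (h : Fib r F) (x : St) (hx : 24582 * KK ≤ ‖x.1.2‖) :
    ‖x.1.2‖ ≤ ‖(h.T x).1.2‖ := by
  have hK := KK_ge
  obtain ⟨p, hp⟩ := exists_coord x.1.2
  have hp0 : p = M0 := by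
    by_contra hc
    linarith [x.2.2 p hc]
  subst hp0
  have h1 := PiLp.norm_apply_le (F (x.1.1, x.1.2)) M0
  rw [h.far _ _ x.2.1 (by linarith), norm_pow] at h1
  refine le_trans ?_ h1
  nlinarith

/-- Reduced radii. -/
noncomputable def rr (r : ℕ → ℝ) (m : ℕ) : ℝ := r m / KF ^ (2 * W m)

lemma Fib.rr_pos (h : Fib r F) (m : ℕ) : 0 < rr r m := by
  have := KF_ge
  exact div_pos (h.pos m) (by positivity)

lemma Fib.rr_le (h : Fib r F) (m : ℕ) : rr r m ≤ r m :=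
  div_le_self (h.pos m).le (one_le_pow₀ (by linarith [KF_ge]))

lemma Fib.key (h : Fib r F) (m : ℕ) :
    8 * KF * r (m + 1) ≤ Real.exp (-(12000000 * (W m : ℝ) ^ 2)) * rr r m := by
  have := KF_ge
  have h1 := h.succ m
  rw [Real.exp_neg, rr, ← div_eq_inv_mul, le_div_iff₀ (by positivity), le_div_iff₀ (by positivity)]
  unfold cst at h1
  linarith

lemma Fib.key' (h : Fib r F) (m : ℕ) : 8 * KF * r (m + 1) ≤ rr r m :=
  (h.key m).trans (mul_le_of_le_one_left (h.rr_pos m).le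
    (Real.exp_le_one_iff.2 (neg_nonpos.2 (by positivity))))

lemma Fib.key'' (h : Fib r F) (m : ℕ) : 8 * r (m + 1) ≤ rr r m := by
  nlinarith [h.key' m, KF_ge, h.pos (m + 1)]

lemma Fib.upper (h : Fib r F) {m : ℕ} {x : St} (hx : m = 0 ∨ ‖x.1.2‖ ≤ rr r m) {t : ℕ}
    (ht : t ≤ 2 * W (m / 2)) : m = 0 ∨ ‖(h.T^[t] x).1.2‖ ≤ r m := by
  refine hx.imp_right fun hx => ?_
  have hK := KF_ge
  have h1 : ∀ s, s ≤ 2 * W m → KF ^ s * rr r m ≤ r m := fun s hs => by
    have := h.rr_pos m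
    calc _ ≤ KF ^ (2 * W m) * rr r m := by gcongr; linarith
      _ = _ := by unfold rr; field_simp
  have h2 : r m ≤ 1 := by nlinarith [h.small m, le_cst m, h.pos m]
  have h3 : ∀ s, s ≤ 2 * W m → ‖(h.T^[s] x).1.2‖ ≤ KF ^ s * rr r m := fun s hs => by
    induction s with
    | zero => simpa using hx
    | succ s ih =>
      have h4 := ih (by omega)
      rw [h.T_succ, pow_succ', mul_assoc]
      refine (h.bound _ _ (h.T^[s] x).2.1 (h4.trans ((h1 s (by omega)).trans h2))).trans ?_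
      gcongr
  have : W (m / 2) ≤ W m := W_mono (Nat.div_le_self _ _)
  exact (h3 t (by omega)).trans (h1 t (by omega))

def Good (r : ℕ → ℝ) (x : St) : Prop :=
  ∃ m, (m = 0 ∨ ‖x.1.2‖ ≤ rr r m) ∧ rr r (m + 1) / 2 ≤ ‖x.1.2‖ ∧ Cons (m / 2) x.1.1 x.1.2

lemma ell_anti : Antitone ell := antitone_nat_of_succ_le fun j => by
  linarith [ell_succ_le j, ell_pos (j + 1)]

lemma Fib.good_end (h : Fib r F) {m : ℕ} {y : St} (h1 : m = 0 ∨ ‖y.1.2‖ ≤ r m)
    (h2 : 2 * r (m + 2) ≤ ‖y.1.2‖) (hc : ‖y.1.1 - 1‖ ≤ ell (m / 2 + 1))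
    (h3 : m = 0 ∨ ‖(h.T y).1.2‖ ≤ r m) (h4 : rr r (m + 1) / 2 ≤ ‖(h.T y).1.2‖) :
    Good r (h.T y) := by
  by_cases h5 : m = 0 ∨ ‖(h.T y).1.2‖ ≤ rr r m
  · exact ⟨m, h5, h4, cons_erase hc (h.mix m _ _ h1 h2)⟩
  push Not at h5
  obtain ⟨m, rfl⟩ : ∃ k, m = k + 1 := ⟨m - 1, by omega⟩
  have a1 := h1.resolve_left h5.1
  have a2 := h3.resolve_left h5.1
  have a3 := h.key'' m
  have a4 := h.pos (m + 1)
  have a5 := h.rr_le m
  have a6 := h.rr_pos (m + 1)
  have hK := KF_ge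
  refine ⟨m, Or.inr (by linarith), by linarith, cons_erase (hc.trans (ell_anti (by omega)))
    (h.mix m _ _ (Or.inr (by linarith)) ?_)⟩
  have a7 : ‖(h.T y).1.2‖ ≤ KF * ‖y.1.2‖ := h.bound _ _ y.2.1 (by
    nlinarith [h.small (m + 1), le_cst (m + 1)])
  have a8 := h.key' (m + 1)
  have a9 := h.pos (m + 1 + 1)
  nlinarith

lemma Fib.time (h : Fib r F) (j : ℕ) (x : St) :
    ∃ k, W j ≤ k ∧ k + 1 ≤ 2 * W j ∧ ‖(h.T^[k] x).1.1 - 1‖ ≤ ell (j + 1) := by
  obtain ⟨t, ht, h1⟩ := exists_core j (h.T^[W j] x).2.1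
  refine ⟨W j + t, by omega, by omega, ?_⟩
  rwa [h.T_fst, mul_assoc, ← pow_add, ← h.T_fst] at h1

lemma Fib.phase (h : Fib r F) {m : ℕ} {x : St} (h1 : m = 0 ∨ ‖x.1.2‖ ≤ rr r m)
    (h2 : rr r (m + 1) ≤ ‖x.1.2‖) : ∃ k, 1 ≤ k ∧ k ≤ 2 * W (m / 2) ∧
      (‖(h.T^[k] x).1.2‖ ≤ ‖x.1.2‖ / 2 ∨ Good r (h.T^[k] x)) := by
  obtain ⟨k, hk1, hk2, hc⟩ := h.time (m / 2) x
  have a0 := h.rr_pos (m + 1)
  by_cases hd : ∃ i, i ≤ k + 1 ∧ ‖(h.T^[i] x).1.2‖ ≤ ‖x.1.2‖ / 2
  · obtain ⟨i, hi, hd⟩ := hd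
    refine ⟨i, Nat.pos_of_ne_zero ?_, by omega, Or.inl hd⟩
    rintro rfl
    simp only [Function.iterate_zero, id_eq] at hd
    linarith
  push Not at hd
  refine ⟨k + 1, by omega, hk2, Or.inr ?_⟩
  have a1 := h.upper h1 hk2
  have a2 := hd _ le_rfl
  rw [Function.iterate_succ_apply'] at a1 a2 ⊢
  exact h.good_end (h.upper h1 (by omega))
    (by linarith [hd k (by omega), h.key'' (m + 1), h.pos (m + 2)]) hc a1 (by linarith)

lemma Fib.phase' (h : Fib r F) {m : ℕ} {x : St} (h1 : m = 0 ∨ ‖x.1.2‖ ≤ rr r m)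
    (h2 : rr r (m + 1) / 2 ≤ ‖x.1.2‖) (h3 : Cons (m / 2) x.1.1 x.1.2) :
    ∃ k, 1 ≤ k ∧ k ≤ 2 * W (m / 2) ∧ Good r (h.T^[k] x) ∧ 2 * ‖x.1.2‖ ≤ ‖(h.T^[k] x).1.2‖ := by
  obtain ⟨k, hk1, hk2, hc⟩ := h.time (m / 2) x
  set j := m / 2 with hj
  have low : ∀ t, t ≤ 2 * W j → Real.exp (∑ s ∈ range t, lam 6000000000 j (x.1.1 * w0 ^ s)) *
      ‖x.1.2‖ ≤ ‖(h.T^[t] x).1.2‖ → 2 * r (m + 2) ≤ ‖(h.T^[t] x).1.2‖ := by
    intro t ht hl
    refine le_trans ?_ hl
    have a1 := h.key (m + 1)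
    have a2 : -(12000000 * (W (m + 1) : ℝ) ^ 2) ≤
        ∑ s ∈ range t, lam 6000000000 j (x.1.1 * w0 ^ s) := by
      refine le_trans ?_ (sum_le_sum fun s _ => lam_ge (by norm_num) j (x.1.1 * w0 ^ s))
      rw [sum_const, card_range, nsmul_eq_mul]
      have b1 : (t : ℝ) ≤ 2 * W j := by exact_mod_cast ht
      have b2 : (W j : ℝ) ≤ W (m + 1) := by exact_mod_cast W_mono (by omega)
      have b3 : (0 : ℝ) ≤ W j := Nat.cast_nonneg _
      nlinarith
    have a3 := mul_le_mul (Real.exp_le_exp.2 a2) h2 (by linarith [h.rr_pos (m + 1)])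
      (Real.exp_pos _).le
    nlinarith [KF_ge, h.pos (m + 1 + 1)]
  have main : ∀ t, t ≤ 2 * W j → Cons j (h.T^[t] x).1.1 (h.T^[t] x).1.2 ∧
      Real.exp (∑ s ∈ range t, lam 6000000000 j (x.1.1 * w0 ^ s)) * ‖x.1.2‖ ≤
        ‖(h.T^[t] x).1.2‖ := by
    intro t ht
    induction t with
    | zero => exact ⟨h3, by simp⟩
    | succ t ih =>
      obtain ⟨b1, b2⟩ := ih (by omega)
      have b3 := h.mix m (h.T^[t] x).1.1 _ (h.upper h1 (t := t) (by rw [← hj]; omega))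
        (low t (by omega) b2)
      have b4 := growth (by norm_num) (h.T^[t] x).2.1 (h.T^[t] x).2.2 b1 b3
      refine ⟨?_, ?_⟩
      · rw [Function.iterate_succ_apply']
        exact cons_step (by linarith [KK_ge]) (h.T^[t] x).2.1 (h.T^[t] x).2.2 b1 b3
      · rw [h.T_succ, sum_range_succ, Real.exp_add, ← h.T_fst]
        refine le_trans ?_ b4
        rw [mul_comm (Real.exp _), mul_assoc]
        exact mul_le_mul_of_nonneg_left b2 (Real.exp_pos _).le
  have a1 : 2 * ‖x.1.2‖ ≤ ‖(h.T^[k + 1] x).1.2‖ := by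
    refine le_trans (mul_le_mul_of_nonneg_right ?_ (norm_nonneg _)) (main _ hk2).2
    linarith [Real.add_one_le_exp (∑ s ∈ range (k + 1), lam 6000000000 j (x.1.1 * w0 ^ s)),
      lam_sum j x.2.1 (n := k + 1) (by omega) hk2]
  refine ⟨k + 1, by omega, hk2, ?_, a1⟩
  have a2 := h.upper h1 hk2
  rw [Function.iterate_succ_apply'] at a1 a2 ⊢
  exact h.good_end (h.upper h1 (by rw [← hj]; omega)) (low k (by omega) (main k (by omega)).2) hc a2
    (by linarith [norm_nonneg x.1.2])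

theorem Fib.count (h : Fib r F) {δ R : ℝ} (hδ : 0 < δ) (hR : 24582 * KK ≤ R) :
    ∃ N, ∀ x n, cnt h.T (fun x => δ ≤ ‖x.1.2‖ ∧ ‖x.1.2‖ ≤ R) x n ≤ N := by
  have hh : ∀ m, rr r (m + 1) ≤ rr r m / 8 := fun m => by linarith [h.key'' m, h.rr_le (m + 1)]
  have ha : Antitone (rr r) := antitone_nat_of_succ_le fun m => by
    linarith [hh m, h.rr_pos m]
  have ha' : Antitone r := antitone_nat_of_succ_le fun m => by
    linarith [h.key'' m, h.rr_le m, h.pos (m + 1)]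
  obtain ⟨m1, -, hm1⟩ := exists_zone (s := r) (fun m => by
    linarith [h.key'' m, h.rr_le m, h.pos (m + 1)]) (half_pos hδ)
  have aux : ∀ m (x : St) k, (m = 0 ∨ ‖x.1.2‖ ≤ rr r m) → rr r (m + 1) / 2 ≤ ‖x.1.2‖ →
      k ≤ 2 * W (m / 2) → (rr r (m1 + 1) / 2 ≤ ‖x.1.2‖ → k ≤ 2 * W (m1 + 1)) ∧
        (‖x.1.2‖ < rr r (m1 + 1) / 2 → ∀ s < k,
          ¬ (δ ≤ ‖(h.T^[s] x).1.2‖ ∧ ‖(h.T^[s] x).1.2‖ ≤ R)) := by
    intro m x k h1 h2 hk
    refine ⟨fun h3 => ?_, fun h3 s hs h4 => ?_⟩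
    · have : m ≤ m1 + 1 := by
        by_contra hc
        have := ha (show m1 + 1 + 1 ≤ m by omega)
        linarith [h1.resolve_left (by omega), hh (m1 + 1), h.rr_pos (m1 + 1)]
      have := W_mono (show m / 2 ≤ m1 + 1 by omega)
      omega
    · have : m1 + 1 ≤ m := by
        by_contra hc
        linarith [ha (show m + 1 ≤ m1 + 1 by omega)]
      linarith [(h.upper h1 (t := s) (by omega)).resolve_left (by omega), ha' this, h4.1]
  refine count_le h.T _ (fun x => ‖x.1.2‖) (Good r) (2 * W (m1 + 1))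
    (half_pos (h.rr_pos (m1 + 1))) (fun x hx => hx.2)
    (fun x hx => hx.trans_le (h.far_le x (by linarith))) (fun x _ => ?_) fun x _ hx => ?_
  · by_cases hx : ‖x.1.2‖ = 0
    · refine ⟨1, le_rfl, fun _ => by linarith [W_pos (m1 + 1)], fun _ s hs => ?_, Or.inl ?_⟩
      · obtain rfl : s = 0 := by omega
        intro h1
        have := h1.1
        simp only [Function.iterate_zero, id_eq] at this
        linarith
      · have := h.bound _ x.1.2 x.2.1 (by linarith)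
        rw [hx] at this ⊢
        rw [mul_zero] at this
        rw [zero_div]
        exact this
    obtain ⟨m, h1, h2⟩ := exists_zone (s := rr r) (fun m => by linarith [hh m, h.rr_pos m])
      (lt_of_le_of_ne (norm_nonneg _) (Ne.symm hx))
    obtain ⟨k, hk1, hk2, hk3⟩ := h.phase h1 h2
    obtain ⟨a1, a2⟩ := aux m x k h1 (by linarith [norm_nonneg x.1.2]) hk2
    exact ⟨k, hk1, a1, a2, hk3⟩
  · obtain ⟨m, h1, h2, h3⟩ := hx
    obtain ⟨k, hk1, hk2, hk3⟩ := h.phase' h1 h2 h3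
    obtain ⟨a1, a2⟩ := aux m x k h1 h2 hk2
    exact ⟨k, hk1, a1, a2, hk3⟩

end Vale.Agent.P103
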