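import Vale.Agent.P103.Defs

/-! Zero entropy from shadowing by few model orbits outside boundedly many times. -/

namespace Vale.Agent.P103

open Finset Filter Topology

variable {M : Type} [MetricSpace M]

theorem sep_le [CompactSpace M] (f : M → M) {ε : ℝ} (hε : 0 < ε) (N : ℕ)
    (G : ℕ → ℕ → M → Prop)
    (h1 : ∀ x n, ∃ τ ≤ n, ∃ B : Finset ℕ, B ⊆ range n ∧ B.card ≤ N ∧ ∀ t < n, t ∉ B → G τ t x)
    (h2 : ∀ x y τ t, dist x y ≤ ε → G τ t x → G τ t y → dist (f^[t] x) (f^[t] y) ≤ ε) :
    ∃ C d : ℕ, ∀ n S, Separated f n ε S → S.card ≤ C * (n + 1) ^ d := by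
  classical
  obtain ⟨A0, -, hA, hc⟩ := finite_cover_balls_of_compact (isCompact_univ (X := M)) (half_pos hε)
  set A := hA.toFinset
  have hc' : ∀ x, ∃ a ∈ A, dist x a < ε / 2 := fun x => by
    simpa [A] using hc (Set.mem_univ x)
  choose c hcA hcd using hc'
  have hcc : ∀ x y, c x = c y → dist x y ≤ ε := fun x y h => by
    have := dist_triangle_right x y (c x)
    have h3 := hcd y
    rw [← h] at h3
    linarith [hcd x]
  refine ⟨A.card * ((N + 1) * (A.card + 1) ^ N), N + 1, fun n S hS => ?_⟩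
  choose τ hτ B hB1 hB2 hB3 using fun x => h1 x n
  let D := (range (N + 1)).biUnion fun i => powersetCard i (range n ×ˢ A)
  have hD : D.card ≤ (N + 1) * ((A.card + 1) * (n + 1)) ^ N := by
    refine (card_biUnion_le_card_mul _ _ (((A.card + 1) * (n + 1)) ^ N) fun i hi => ?_).trans
      (by rw [card_range])
    rw [card_powersetCard, card_product, card_range]
    refine (Nat.choose_le_pow _ _).trans ((Nat.pow_le_pow_left (by nlinarith) i).trans
      (Nat.pow_le_pow_right (by positivity) (Nat.lt_succ_iff.1 (mem_range.1 hi))))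
  have := card_le_card_of_injOn (s := S) (t := A ×ˢ range (n + 1) ×ˢ D)
    (fun x => (c x, τ x, (B x).image fun t => (t, c (f^[t] x)))) (fun x _ => ?_) fun x hx y hy h => ?_
  · refine this.trans ?_
    rw [card_product, card_product, card_range]
    calc _ ≤ A.card * ((n + 1) * ((N + 1) * ((A.card + 1) * (n + 1)) ^ N)) := by gcongr
      _ = _ := by rw [mul_pow]; ring
  · simp only [coe_product, Set.mem_prod, mem_coe, mem_range, D, mem_biUnion, mem_powersetCard]
    refine ⟨hcA x, Nat.lt_succ_of_le (hτ x), _, Nat.lt_succ_of_le (card_image_le.trans (hB2 x)),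
      fun p hp => ?_, rfl⟩
    obtain ⟨t, ht, rfl⟩ := mem_image.1 hp
    exact mem_product.2 ⟨hB1 x ht, hcA _⟩
  · by_contra hne
    obtain ⟨j, hj, hd⟩ := hS x hx y hy hne
    simp only [Prod.mk.injEq] at h
    obtain ⟨e1, e2, e3⟩ := h
    refine absurd hd (not_lt.2 ?_)
    by_cases hjx : j ∈ B x
    · have : (j, c (f^[j] x)) ∈ (B y).image fun t => (t, c (f^[t] y)) :=
        e3 ▸ mem_image_of_mem (fun t => (t, c (f^[t] x))) hjx
      obtain ⟨t, -, ht⟩ := mem_image.1 this
      obtain ⟨rfl, ht⟩ := Prod.mk.inj ht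
      exact hcc _ _ ht.symm
    by_cases hjy : j ∈ B y
    · have : (j, c (f^[j] y)) ∈ (B x).image fun t => (t, c (f^[t] x)) :=
        e3 ▸ mem_image_of_mem (fun t => (t, c (f^[t] y))) hjy
      obtain ⟨t, ht', ht⟩ := mem_image.1 this
      obtain ⟨rfl, -⟩ := Prod.mk.inj ht
      exact absurd ht' hjx
    exact h2 x y (τ x) j (hcc _ _ e1) (hB3 x j hj hjx) (e2 ▸ hB3 y j hj hjy)

lemma growth_poly {u : ℕ → ENNReal} (C d : ℕ) (h : ∀ n, u n ≤ (C * (n + 1) ^ d : ℕ)) :
    ExpGrowth.expGrowthSup u ≤ 0 := by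
  refine ExpGrowth.expGrowthSup_le_iff.2 fun b hb => ?_
  obtain ⟨c, hc0, hcb⟩ := EReal.lt_iff_exists_real_btwn.1 hb
  have hc : 0 < c := by exact_mod_cast hc0
  have h1 := ((isLittleO_pow_exp_pos_mul_atTop d hc).comp_tendsto
    ((tendsto_natCast_atTop_atTop (R := ℝ)).comp (tendsto_add_atTop_nat 1))).const_mul_left
      (C * Real.exp c)
  filter_upwards [h1.bound one_pos] with n hn
  refine (h n).trans (le_trans ?_ (EReal.exp_monotone
    (mul_le_mul_of_nonneg_right hcb.le (by positivity))))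
  rw [← EReal.coe_natCast, ← EReal.coe_mul, EReal.exp_coe, ← ENNReal.ofReal_natCast]
  refine ENNReal.ofReal_le_ofReal ?_
  simp only [Function.comp_apply, Nat.cast_add, Nat.cast_one, mul_add, mul_one, Real.exp_add,
    one_mul] at hn
  rw [Real.norm_of_nonneg (by positivity), Real.norm_of_nonneg (by positivity)] at hn
  push_cast
  refine le_of_mul_le_mul_right ?_ (Real.exp_pos c)
  linarith

theorem entropy_zero [Nonempty M] {f : M → M}
    (h : ∀ ε, 0 < ε → ∃ C d : ℕ, ∀ n S, Separated f n ε S → S.card ≤ C * (n + 1) ^ d) :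
    (∀ ε, 0 < ε → sepRate f ε = 0) ∧ Dynamics.coverEntropy f Set.univ = 0 := by
  refine ⟨fun ε hε => le_antisymm ?_ ?_, le_antisymm ?_
    (Dynamics.coverEntropy_nonneg f Set.univ_nonempty)⟩
  · obtain ⟨C, d, hC⟩ := h ε hε
    exact growth_poly C d fun n => iSup₂_le fun S hS => by exact_mod_cast hC n S hS
  · rw [← ExpGrowth.expGrowthSup_const one_ne_zero ENNReal.one_ne_top]
    refine ExpGrowth.expGrowthSup_monotone fun n => ?_
    obtain ⟨x⟩ := ‹Nonempty M›
    exact le_iSup₂_of_le {x} (by simp [Separated]) (by simp)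
  · rw [Dynamics.coverEntropy_eq_iSup_basis_netEntropyEntourage Metric.uniformity_basis_dist]
    refine iSup₂_le fun ε hε => ?_
    obtain ⟨C, d, hC⟩ := h (ε / 2) (half_pos hε)
    refine growth_poly C d fun n => ?_
    rw [← ENat.toENNReal_coe, ENat.toENNReal_le]
    refine iSup₂_le fun S hS => ?_
    refine Nat.cast_le.2 (hC n S fun x hx y hy hne => ?_)
    by_contra hc
    push Not at hc
    refine @Set.disjoint_left.1 (hS.2 hx hy hne) y ?_ ?_
    · rw [Dynamics.mem_ball_dynEntourage]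
      intro k hk
      have := hc k hk
      show dist _ _ < ε
      linarith
    · rw [Dynamics.mem_ball_dynEntourage]
      intro k hk
      simpa [UniformSpace.ball] using hε

end Vale.Agent.P103
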