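import Vale.Agent.P103.Step

/-! The fibre map. -/

namespace Vale.Agent.P103

noncomputable def KK : ℝ := Real.exp 6000000000

noncomputable def KF : ℝ := 25004 * KK

noncomputable def cst (m : ℕ) : ℝ :=
  8 * KF * KF ^ (2 * W m) * Real.exp (12000000 * (W m : ℝ) ^ 2)

lemma KK_ge : 6000000001 ≤ KK := by
  have := Real.add_one_le_exp (6000000000 : ℝ)
  unfold KK; linarith

lemma KF_ge : 25004 ≤ KF := by unfold KF; linarith [KK_ge]

lemma le_cst (m : ℕ) : 8 * KF ≤ cst m := by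
  have h1 : 1 ≤ KF ^ (2 * W m) := one_le_pow₀ (by linarith [KF_ge])
  have h2 : 1 ≤ Real.exp (12000000 * (W m : ℝ) ^ 2) := Real.one_le_exp (by positivity)
  have h3 : 0 ≤ 8 * KF := by linarith [KF_ge]
  calc 8 * KF = 8 * KF * 1 * 1 := by ring
    _ ≤ _ := by unfold cst; gcongr

lemma cst_pos (m : ℕ) : 0 < cst m := by linarith [le_cst m, KF_ge]

lemma mix_even (K : ℝ) (j : ℕ) (w : ℂ) (v : V) (l : ℝ) (p : Reg) :
    (aa K w • v + ((1 - l) • GG K (2 * j) w v + l • GG K (2 * j + 1) w v)) p =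
      kk K j 0 w * v p + ((1 - l : ℝ) * DD K j w v + l * DD K (j + 1) w v) * cc j 0 w p := by
  have e1 : 2 * j / 2 = j := by omega
  have e2 : (2 * j + 1) / 2 = j := by omega
  have e3 : (2 * j + 1 + 1) / 2 = j + 1 := by omega
  simp only [GG, e1, e2, e3, PiLp.add_apply, PiLp.smul_apply, cv, kk, cc, Complex.real_smul,
    smul_eq_mul]
  split_ifs <;> push_cast <;> ring

lemma mix_odd (K : ℝ) (j : ℕ) (w : ℂ) (v : V) (l : ℝ) (p : Reg) :
    (aa K w • v + ((1 - l) • GG K (2 * j + 1) w v + l • GG K (2 * j + 1 + 1) w v)) p =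
      kk K j l w * v p +
        ((1 - 1 : ℝ) * DD K j w v + (1 : ℝ) * DD K (j + 1) w v) * cc j l w p := by
  have e2 : (2 * j + 1) / 2 = j := by omega
  have e3 : (2 * j + 1 + 1) / 2 = j + 1 := by omega
  have e4 : (2 * j + 1 + 1 + 1) / 2 = j + 1 := by omega
  simp only [GG, e2, e3, e4, PiLp.add_apply, PiLp.smul_apply, cv, kk, cc, Complex.real_smul,
    smul_eq_mul]
  split_ifs <;> push_cast <;> ring

lemma core_zero {w : ℂ} (hw : ‖w‖ = 1) : ‖w - 1‖ ≤ ell (0 + 1) := by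
  have := norm_sub_le w 1
  simp only [ell, hw, norm_one] at this ⊢
  linarith

lemma cc_zero (w : ℂ) (p : Reg) : cc 0 0 w p = if p = M0 then 1 else 0 := by
  obtain ⟨a, b⟩ := p
  have : bank 0 = 0 := rfl
  simp only [cc, wr, M0, this, Prod.mk.injEq, if_true]
  split_ifs <;> simp_all

lemma norm_GG {K : ℝ} (hK : 1 ≤ K) (m : ℕ) (w : ℂ) {v : V} (hv : ‖v‖ ≤ 1) :
    ‖GG K m w v‖ ≤ 25000 * K * ‖v‖ := by
  have hK0 : 0 ≤ K := by linarith
  rcases Nat.eq_zero_or_pos m with rfl | hm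
  · obtain ⟨B, -, hB⟩ := ctl_beta hK0 0
    have h1 := hB.norm_le w v
    have h2 := (coef_aa_er hK0 0).1 w
    have h3 := (coef_cv 0).1 w
    have h4 : ‖v M0‖ ≤ ‖v‖ := PiLp.norm_apply_le v M0
    have h5 : ‖DD K 0 w v‖ ≤ 2 * K * ‖v‖ := by
      rw [DD, if_pos rfl]
      refine (norm_add_le _ _).trans ?_
      rw [norm_mul, norm_pow, Complex.norm_real, Real.norm_eq_abs]
      have a1 := mul_le_mul (abs_bp_le K (v M0)) h1 (norm_nonneg _) zero_le_one
      have a2 : ‖v M0‖ ^ 2 ≤ ‖v‖ * 1 := by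
        rw [sq]; exact mul_le_mul h4 (h4.trans hv) (norm_nonneg _) (norm_nonneg _)
      have a3 := mul_le_mul_of_nonneg_right hK (norm_nonneg v)
      simp only [pow_zero, mul_one, one_mul] at a1 a2 a3
      linarith
    simp only [GG, Nat.zero_div, zero_add, Nat.reduceDiv]
    refine (norm_add_le _ _).trans ?_
    rw [norm_smul, norm_smul]
    have a1 := mul_le_mul_of_nonneg_right h2 (norm_nonneg v)
    have a2 := mul_le_mul h5 h3 (norm_nonneg _) (by positivity)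
    have a3 : 0 ≤ K * ‖v‖ := by positivity
    simp only [pow_zero, mul_one] at a1
    nlinarith
  · obtain ⟨B, -, hB⟩ := ctl_GG hK0 hm
    refine (hB.norm_le w v).trans (mul_le_mul_of_nonneg_right ?_ (norm_nonneg _))
    exact mul_le_of_le_one_right (by positivity) (pow_le_one₀ (by norm_num) (by norm_num))

lemma exists_zone {s : ℕ → ℝ} (h : ∀ m, s (m + 1) ≤ s m / 2) {x : ℝ} (hx : 0 < x) :
    ∃ m, (m = 0 ∨ x ≤ s m) ∧ s (m + 1) ≤ x := by
  have h1 : ∀ m, s m ≤ s 0 * (1 / 2) ^ m := fun m => by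
    induction m with
    | zero => simp
    | succ m ih => rw [pow_succ]; linarith [h m]
  have h2 : ∃ m, s (m + 1) ≤ x := by
    have := (tendsto_pow_atTop_nhds_zero_of_lt_one (r := (1 / 2 : ℝ)) (by norm_num)
      (by norm_num)).const_mul (s 0)
    rw [mul_zero] at this
    obtain ⟨m, hm⟩ := Filter.eventually_atTop.1 (this.eventually (ge_mem_nhds hx))
    exact ⟨m, (h1 _).trans (hm _ (Nat.le_succ m))⟩
  classical
  refine ⟨Nat.find h2, ?_, Nat.find_spec h2⟩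
  rcases Nat.eq_zero_or_pos (Nat.find h2) with h0 | h0
  · exact Or.inl h0
  · have := Nat.find_min h2 (show Nat.find h2 - 1 < Nat.find h2 by omega)
    rw [Nat.sub_add_cancel h0] at this
    exact Or.inr (not_le.1 this).le

/-- The properties of the fibre map. -/
structure Fib (r : ℕ → ℝ) (F : ℂ × V → V) : Prop where
  smooth : ContDiff ℝ 1 F
  pos : ∀ m, 0 < r m
  small : ∀ m, r m * cst m ≤ 1
  succ : ∀ m, r (m + 1) * cst m ≤ r m
  bound : ∀ w v, ‖w‖ = 1 → ‖v‖ ≤ 1 → ‖F (w, v)‖ ≤ KF * ‖v‖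
  mix : ∀ m w v, (m = 0 ∨ ‖v‖ ≤ r m) → 2 * r (m + 2) ≤ ‖v‖ → Mix KK (m / 2) w v (F (w, v))
  rest : ∀ w v, ‖w‖ = 1 → 2 * r 2 ≤ ‖v‖ → ∀ p, p ≠ M0 → F (w, v) p = 0
  far : ∀ w v, ‖w‖ = 1 → 2 * KK ≤ ‖v M0‖ → F (w, v) M0 = v M0 ^ 2

theorem exists_fib : ∃ r F, Fib r F := by
  have hK : 1 ≤ KK := by linarith [KK_ge]
  have hK0 : 0 ≤ KK := by linarith
  have hc : ∀ m, ∃ B, 0 ≤ B ∧ (1 ≤ m → Ctl (GG KK m) (25000 * KK * (1 / 2) ^ m) B) := fun m => by
    by_cases hm : 1 ≤ m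
    · obtain ⟨B, h1, h2⟩ := ctl_GG hK0 hm
      exact ⟨B, h1, fun _ => h2⟩
    · exact ⟨0, le_rfl, fun h => absurd h hm⟩
  choose B hB0 hB using hc
  obtain ⟨r, R, hR, hr, hR0, hz⟩ := glue (GG KK) (contDiffAt_GG KK) (25000 * KK) (by positivity)
    B hB0 hB (fun m => (cst m)⁻¹) fun m => inv_pos.2 (cst_pos m)
  have hs : ∀ m, r m * cst m ≤ 1 := fun m => by
    rw [← le_div_iff₀ (cst_pos m), one_div]; exact (hr m).2.1
  have hs' : ∀ m, r (m + 1) * cst m ≤ r m := fun m => by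
    rw [← le_div_iff₀ (cst_pos m), div_eq_mul_inv]; exact (hr m).2.2
  have h8 : ∀ m, 8 ≤ cst m := fun m => by linarith [le_cst m, KF_ge]
  have hh : ∀ m, r (m + 1) ≤ r m / 8 := fun m => by nlinarith [hs' m, h8 m, (hr (m + 1)).1]
  have h0 : ∀ w v, ‖w‖ = 1 → 2 * r 2 ≤ ‖v‖ → ∃ l : ℝ, (2 * r 1 ≤ ‖v‖ → l = 0) ∧ ∀ p,
      (aa KK w • v + R (w, v)) p =
        ((1 - l : ℝ) * DD KK 0 w v + l * DD KK 1 w v) * (if p = M0 then 1 else 0 : ℝ) := by
    intro w v hw hv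
    obtain ⟨l, -, -, hl, he⟩ := hz 0 w v (Or.inl rfl) hv
    refine ⟨l, hl, fun p => ?_⟩
    have := mix_even KK 0 w v l p
    rw [kk_core _ _ (core_zero hw), cc_zero] at this
    rw [he]; simpa using this
  refine ⟨r, fun p => aa KK p.1 • p.2 + R p, ((contDiff_aa KK).comp contDiff_fst).smul contDiff_snd
    |>.add hR, fun m => (hr m).1, hs, hs', fun w v hw hv => ?_, fun m w v h1 h2 => ?_,
    fun w v hw hv p hp => ?_, fun w v hw hv => ?_⟩
  · by_cases hv0 : v = 0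
    · simp [hv0, hR0]
    obtain ⟨m, h1, h2⟩ := exists_zone (s := r) (fun m => by linarith [hh m, (hr m).1])
      (norm_pos_iff.2 hv0)
    obtain ⟨l, l0, l1, -, he⟩ := hz m w v h1 (by linarith [hh (m + 1), (hr (m + 1)).1])
    beta_reduce
    rw [he]
    refine (norm_add_le _ _).trans ((add_le_add le_rfl (norm_add_le _ _)).trans ?_)
    simp only [norm_smul, Real.norm_eq_abs, abs_of_nonneg l0, abs_of_nonneg (sub_nonneg.2 l1)]
    have a1 := mul_le_mul_of_nonneg_left (norm_GG hK m w hv) (sub_nonneg.2 l1)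
    have a2 := mul_le_mul_of_nonneg_left (norm_GG hK (m + 1) w hv) l0
    have a3 : |aa KK w| ≤ 4 * KK := by
      have := core_zero hw
      rw [ell] at this
      rw [aa, abs_of_nonneg (by positivity)]
      have : ‖w - 1‖ ^ 2 ≤ 4 := by nlinarith [norm_nonneg (w - 1)]
      nlinarith
    have a4 := mul_le_mul_of_nonneg_right a3 (norm_nonneg v)
    unfold KF
    nlinarith
  · obtain ⟨l, l0, l1, -, he⟩ := hz m w v h1 h2
    beta_reduce
    rw [he]
    obtain ⟨j, rfl | rfl⟩ := Nat.even_or_odd' m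
    · rw [show 2 * j / 2 = j by omega]
      exact ⟨0, l, le_rfl, zero_le_one, l0, l1, mix_even KK j w v l⟩
    · rw [show (2 * j + 1) / 2 = j by omega]
      exact ⟨l, 1, l0, l1, zero_le_one, le_rfl, mix_odd KK j w v l⟩
  · obtain ⟨l, -, he⟩ := h0 w v hw hv
    beta_reduce
    rw [he, if_neg hp]; simp
  · have h1 : r 1 ≤ 1 := by nlinarith [hs 1, h8 1, (hr 1).1]
    have h2 : 2 * r 1 ≤ ‖v‖ := by linarith [PiLp.norm_apply_le v M0]
    obtain ⟨l, hl, he⟩ := h0 w v hw (by linarith [hh 1, (hr 1).1])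
    beta_reduce
    rw [he, if_pos rfl, hl h2, DD, if_pos rfl, bp_eq_zero (by linarith) hv]; simp

end Vale.Agent.P103
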