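import Mathlib

/-! Bump functions and gluing of models living at different scales. -/

namespace Vale.Agent.P103

open Filter Topology

section Bump

variable {V : Type} [NormedAddCommGroup V]

/-- A bump equal to `1` on the ball of radius `r` and `0` outside the ball of radius `2r`. -/
noncomputable def bp (r : ℝ) (x : V) : ℝ := Real.smoothTransition ((4 - ‖x‖ ^ 2 / r ^ 2) / 3)

lemma bp_nonneg (r : ℝ) (x : V) : 0 ≤ bp r x := Real.smoothTransition.nonneg _

lemma bp_le_one (r : ℝ) (x : V) : bp r x ≤ 1 := Real.smoothTransition.le_one _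

lemma abs_bp_le (r : ℝ) (x : V) : |bp r x| ≤ 1 := by
  rw [abs_of_nonneg (bp_nonneg r x)]; exact bp_le_one r x

lemma bp_eq_one {r : ℝ} (hr : 0 < r) {x : V} (h : ‖x‖ ≤ r) : bp r x = 1 := by
  refine Real.smoothTransition.one_of_one_le ?_
  have : ‖x‖ ^ 2 / r ^ 2 ≤ 1 := by
    rw [div_le_one (by positivity)]; gcongr
  linarith

lemma bp_eq_zero {r : ℝ} (hr : 0 < r) {x : V} (h : 2 * r ≤ ‖x‖) : bp r x = 0 := by
  refine Real.smoothTransition.zero_of_nonpos ?_
  have : 4 ≤ ‖x‖ ^ 2 / r ^ 2 := by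
    rw [le_div_iff₀ (by positivity)]; nlinarith
  linarith

lemma lt_of_bp_ne {r : ℝ} (hr : 0 < r) {x : V} (h : bp r x ≠ 0) : ‖x‖ < 2 * r := by
  by_contra hc
  exact h (bp_eq_zero hr (not_lt.1 hc))

variable [InnerProductSpace ℂ V] [NormedSpace ℝ V]

lemma contDiff_bp (r : ℝ) : ContDiff ℝ 1 (bp r : V → ℝ) := by
  unfold bp
  exact Real.smoothTransition.contDiff.comp
    ((contDiff_const.sub ((contDiff_norm_sq ℂ).div_const _)).div_const _)

lemma bp_lip [ProperSpace V] : ∃ L : ℝ, 0 ≤ L ∧ ∀ r, 0 < r → ∀ x y : V,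
    |bp r x - bp r y| ≤ L / r * ‖x - y‖ := by
  obtain ⟨L, hL⟩ := ContDiff.lipschitzWith_of_hasCompactSupport (f := (bp 1 : V → ℝ))
    (HasCompactSupport.intro (isCompact_closedBall 0 2) fun x hx =>
      bp_eq_zero one_pos (by simp at hx; linarith)) (contDiff_bp 1) one_ne_zero
  refine ⟨L, L.2, fun r hr x y => ?_⟩
  have key : ∀ x : V, bp r x = bp 1 (r⁻¹ • x) := fun x => by
    unfold bp
    rw [norm_smul, Real.norm_eq_abs, abs_of_pos (inv_pos.2 hr)]
    congr 2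
    field_simp
  have := hL.dist_le_mul (r⁻¹ • x) (r⁻¹ • y)
  rw [Real.dist_eq, dist_eq_norm, ← smul_sub, norm_smul, Real.norm_eq_abs,
    abs_of_pos (inv_pos.2 hr)] at this
  rw [key x, key y]
  calc _ ≤ _ := this
    _ = _ := by field_simp

end Bump

variable {A V : Type} [NormedAddCommGroup A] [NormedSpace ℝ A] [NormedAddCommGroup V]
  [InnerProductSpace ℂ V] [NormedSpace ℝ V]

/-- Lipschitz control of a model. -/
def Ctl {U : Type} [NormedAddCommGroup U] (W : A → V → U) (η B : ℝ) : Prop :=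
  (∀ a, W a 0 = 0) ∧ (∀ a v v', ‖W a v - W a v'‖ ≤ η * ‖v - v'‖) ∧
    ∀ a a' v, ‖W a v - W a' v‖ ≤ B * ‖v‖ * ‖a - a'‖

omit [NormedSpace ℝ A] [InnerProductSpace ℂ V] [NormedSpace ℝ V] in
lemma Ctl.norm_le {U : Type} [NormedAddCommGroup U] {W : A → V → U} {η B : ℝ} (h : Ctl W η B)
    (a : A) (v : V) :
    ‖W a v‖ ≤ η * ‖v‖ := by simpa [h.1 a] using h.2.1 a v 0

omit [NormedSpace ℝ A] [InnerProductSpace ℂ V] in
lemma Ctl.cut {W : A → V → V} {η B L r : ℝ} (h : Ctl W η B) (hη : 0 ≤ η) (hB : 0 ≤ B)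
    (hL0 : 0 ≤ L) (hr : 0 < r) (hL : ∀ x y : V, |bp r x - bp r y| ≤ L / r * ‖x - y‖)
    (p q : A × V) :
    ‖bp r p.2 • W p.1 p.2 - bp r q.2 • W q.1 q.2‖ ≤ ((2 * L + 1) * η + 2 * r * B) * ‖p - q‖ := by
  have key : ∀ (a : A) (v v' : V), ‖v‖ ≤ 2 * r →
      ‖bp r v • W a v - bp r v' • W a v'‖ ≤ (2 * L + 1) * η * ‖v - v'‖ := by
    intro a v v' hv
    have : bp r v • W a v - bp r v' • W a v' =
        (bp r v - bp r v') • W a v + bp r v' • (W a v - W a v') := by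
      rw [sub_smul, smul_sub]; abel
    rw [this]
    refine (norm_add_le _ _).trans ?_
    rw [norm_smul, norm_smul, Real.norm_eq_abs, Real.norm_eq_abs]
    have h1 : |bp r v - bp r v'| * ‖W a v‖ ≤ (L / r * ‖v - v'‖) * (η * (2 * r)) :=
      mul_le_mul (hL v v') ((h.norm_le a v).trans (by gcongr)) (norm_nonneg _) (by positivity)
    have h2 : |bp r v'| * ‖W a v - W a v'‖ ≤ 1 * (η * ‖v - v'‖) :=
      mul_le_mul (abs_bp_le _ _) (h.2.1 a v v') (norm_nonneg _) zero_le_one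
    have h3 : (L / r * ‖v - v'‖) * (η * (2 * r)) = 2 * L * η * ‖v - v'‖ := by field_simp
    nlinarith
  have key2 : ∀ (a : A) (v v' : V),
      ‖bp r v • W a v - bp r v' • W a v'‖ ≤ (2 * L + 1) * η * ‖v - v'‖ := by
    intro a v v'
    by_cases hv : ‖v‖ ≤ 2 * r
    · exact key a v v' hv
    · by_cases hv' : ‖v'‖ ≤ 2 * r
      · rw [norm_sub_rev, norm_sub_rev v]; exact key a v' v hv'
      · rw [bp_eq_zero hr (not_le.1 hv).le, bp_eq_zero hr (not_le.1 hv').le]
        simp only [zero_smul, sub_self, norm_zero]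
        positivity
  have key3 : ‖bp r p.2 • W p.1 p.2 - bp r p.2 • W q.1 p.2‖ ≤ 2 * r * B * ‖p.1 - q.1‖ := by
    by_cases hv : ‖p.2‖ ≤ 2 * r
    · rw [← smul_sub, norm_smul, Real.norm_eq_abs]
      calc _ ≤ 1 * (B * (2 * r) * ‖p.1 - q.1‖) :=
            mul_le_mul (abs_bp_le _ _) ((h.2.2 _ _ _).trans (by gcongr)) (norm_nonneg _) zero_le_one
        _ = _ := by ring
    · rw [bp_eq_zero hr (not_le.1 hv).le]
      simp only [zero_smul, sub_self, norm_zero]
      positivity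
  have h1 : ‖p.1 - q.1‖ ≤ ‖p - q‖ := norm_fst_le (p - q)
  have h2 : ‖p.2 - q.2‖ ≤ ‖p - q‖ := norm_snd_le (p - q)
  calc _ ≤ _ := norm_sub_le_norm_sub_add_norm_sub _ (bp r p.2 • W q.1 p.2) _
    _ ≤ 2 * r * B * ‖p - q‖ + (2 * L + 1) * η * ‖p - q‖ :=
        add_le_add (key3.trans (by gcongr)) ((key2 _ _ _).trans (by gcongr))
    _ = _ := by ring

lemma exists_radii (x : ℕ → ℝ) (hx : ∀ m, 0 < x m) :
    ∃ r : ℕ → ℝ, ∀ m, 0 < r m ∧ r m ≤ x m ∧ r (m + 1) ≤ r m * x m := by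
  let r : ℕ → ℝ := fun m => Nat.rec (x 0) (fun m a => min (a * x m) (x (m + 1))) m
  have h0 : ∀ m, 0 < r m := by
    intro m
    induction m with
    | zero => exact hx 0
    | succ m ih => exact lt_min (mul_pos ih (hx m)) (hx _)
  refine ⟨r, fun m => ⟨h0 m, ?_, min_le_left _ _⟩⟩
  cases m with
  | zero => exact le_rfl
  | succ m => exact min_le_right _ _

/-- The gluing theorem. -/
theorem glue [ProperSpace V] (G : ℕ → A → V → V)
    (hG : ∀ m (p : A × V), p.2 ≠ 0 → ContDiffAt ℝ 1 (fun p : A × V => G m p.1 p.2) p)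
    (C : ℝ) (hC : 0 ≤ C) (B : ℕ → ℝ) (hB : ∀ m, 0 ≤ B m)
    (hctl : ∀ m, 1 ≤ m → Ctl (G m) (C * (1 / 2) ^ m) (B m))
    (x : ℕ → ℝ) (hx : ∀ m, 0 < x m) :
    ∃ (r : ℕ → ℝ) (R : A × V → V), ContDiff ℝ 1 R ∧
      (∀ m, 0 < r m ∧ r m ≤ x m ∧ r (m + 1) ≤ r m * x m) ∧ (∀ a, R (a, 0) = 0) ∧
      ∀ m a v, (m = 0 ∨ ‖v‖ ≤ r m) → 2 * r (m + 2) ≤ ‖v‖ → ∃ l : ℝ, 0 ≤ l ∧ l ≤ 1 ∧
        (2 * r (m + 1) ≤ ‖v‖ → l = 0) ∧ R (a, v) = (1 - l) • G m a v + l • G (m + 1) a v := by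
  obtain ⟨r, hr⟩ := exists_radii (fun m => min (x m) ((1 / 2) ^ (m + 1) / (B m + 1)))
    (fun m => lt_min (hx m) (by have := hB m; positivity))
  have hr0 : ∀ m, 0 < r m := fun m => (hr m).1
  have hrB : ∀ m, r m * (B m + 1) ≤ (1 / 2) ^ (m + 1) := fun m => by
    have := (hr m).2.1.trans (min_le_right _ _)
    rwa [le_div_iff₀ (by have := hB m; positivity)] at this
  have hrh : ∀ m, r m ≤ (1 / 2) ^ (m + 1) := fun m => by
    have := hrB m
    nlinarith [mul_nonneg (hr0 m).le (hB m)]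
  have hr2 : ∀ m, 2 * r (m + 1) ≤ r m := fun m => by
    have h1 := (hr m).2.2.trans (mul_le_mul_of_nonneg_left (min_le_right _ _) (hr0 m).le)
    have h2 : (1 / 2 : ℝ) ^ (m + 1) / (B m + 1) ≤ 1 / 2 := by
      rw [div_le_iff₀ (by have := hB m; positivity), pow_succ]
      have : (1 / 2 : ℝ) ^ m ≤ 1 := pow_le_one₀ (by norm_num) (by norm_num)
      nlinarith [hB m]
    nlinarith [hr0 m]
  have hanti : Antitone r := antitone_nat_of_succ_le fun m => by linarith [hr2 m, hr0 (m + 1)]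
  let χ : ℕ → V → ℝ := fun m v => if m = 0 then 1 else bp (r m) v
  have hχ1 : ∀ m v, (m = 0 ∨ ‖v‖ ≤ r m) → χ m v = 1 := by
    rintro m v (rfl | h)
    · simp [χ]
    · simp [χ, bp_eq_one (hr0 m) h]
  have hχ0 : ∀ m v, 2 * r (m + 1) ≤ ‖v‖ → χ (m + 1) v = 0 := fun m v h => by
    simp [χ, bp_eq_zero (hr0 _) h]
  have hχc : ∀ m, ContDiff ℝ 1 (χ m) := fun m => by
    by_cases h : m = 0
    · simp only [χ, h, if_true]; exact contDiff_const
    · simp only [χ, h, if_false]; exact contDiff_bp _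
  let U : ℕ → A × V → V := fun m p => (χ m p.2 - χ (m + 1) p.2) • G m p.1 p.2
  have hU : ∀ m, ContDiff ℝ 1 (U m) := by
    intro m
    rw [contDiff_iff_contDiffAt]
    intro p
    by_cases hp : p.2 = 0
    · refine (contDiffAt_const (c := (0 : V))).congr_of_eventuallyEq ?_
      have : ∀ᶠ q : A × V in 𝓝 p, ‖q.2‖ < r (m + 1) :=
        (continuous_snd.norm.continuousAt).eventually_lt continuousAt_const (by simp [hp, hr0])
      filter_upwards [this] with q hq
      simp only [U]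
      rw [hχ1 m _ (Or.inr (hq.le.trans (hanti (Nat.le_succ m)))), hχ1 _ _ (Or.inr hq.le)]
      simp
    · exact ((((hχc m).sub (hχc (m + 1))).comp contDiff_snd).contDiffAt).smul (hG m p hp)
  obtain ⟨L, hL0, hL⟩ := bp_lip (V := V)
  have hlip : ∀ m, 1 ≤ m → ∀ p q, ‖U m p - U m q‖ ≤
      (2 * ((2 * L + 1) * C + 1)) * (1 / 2) ^ m * ‖p - q‖ := by
    intro m hm p q
    have hη : 0 ≤ C * (1 / 2) ^ m := by positivity
    have h1 := (hctl m hm).cut hη (hB m) hL0 (hr0 m) (hL _ (hr0 m)) p q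
    have h2 := (hctl m hm).cut hη (hB m) hL0 (hr0 (m + 1)) (hL _ (hr0 (m + 1))) p q
    have h3 : U m p - U m q = (bp (r m) p.2 • G m p.1 p.2 - bp (r m) q.2 • G m q.1 q.2) -
        (bp (r (m + 1)) p.2 • G m p.1 p.2 - bp (r (m + 1)) q.2 • G m q.1 q.2) := by
      simp only [U, χ, show m ≠ 0 by omega, if_false, Nat.succ_ne_zero, sub_smul]
      abel
    rw [h3]
    refine (norm_sub_le _ _).trans ((add_le_add h1 h2).trans ?_)
    rw [← add_mul]
    refine mul_le_mul_of_nonneg_right ?_ (norm_nonneg _)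
    have h4 := hrB m
    have h5 : r (m + 1) * B m ≤ r m * B m :=
      mul_le_mul_of_nonneg_right (hanti (Nat.le_succ m)) (hB m)
    rw [pow_succ] at h4
    nlinarith [hr0 m]
  have hbd : ∀ m, 1 ≤ m → ∀ p, ‖U m p‖ ≤ (2 * ((2 * L + 1) * C + 1)) * (1 / 2) ^ m := by
    intro m hm p
    by_cases hv : ‖p.2‖ ≤ 2 * r m
    · have h1 := hlip m hm p (p.1, 0)
      have h2 : U m (p.1, 0) = 0 := by simp [U, (hctl m hm).1]
      have h3 : ‖p - (p.1, 0)‖ ≤ 1 := by
        have : p - (p.1, 0) = (0, p.2) := by ext <;> simp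
        rw [this, Prod.norm_mk, norm_zero, max_eq_right (norm_nonneg _)]
        have h4 := hrh m
        have : (1 / 2 : ℝ) ^ m ≤ 1 := pow_le_one₀ (by norm_num) (by norm_num)
        rw [pow_succ] at h4
        linarith
      rw [h2, sub_zero] at h1
      exact h1.trans (mul_le_of_le_one_right (by positivity) h3)
    · push Not at hv
      obtain ⟨m, rfl⟩ : ∃ k, m = k + 1 := ⟨m - 1, by omega⟩
      simp only [U]
      rw [hχ0 m _ hv.le, hχ0 (m + 1) _ (by linarith [hanti (Nat.le_succ (m + 1))])]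
      simp only [sub_self, zero_smul, norm_zero]
      positivity
  refine ⟨r, fun p => ∑' m, U m p, ?_, fun m => ⟨hr0 m, (hr m).2.1.trans (min_le_left _ _),
    (hr m).2.2.trans (mul_le_mul_of_nonneg_left (min_le_left _ _) (hr0 m).le)⟩, fun a => ?_,
    fun m a v h1 h2 => ?_⟩
  · refine contDiff_tsum_of_eventually (N := 1)
      (v := fun _ m => (2 * ((2 * L + 1) * C + 1)) * (1 / 2) ^ m) hU
      (fun _ _ => summable_geometric_two.mul_left _) fun k hk => ?_
    rw [Nat.cofinite_eq_atTop]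
    filter_upwards [eventually_ge_atTop 1] with m hm p
    have hk' : k ≤ 1 := by exact_mod_cast hk
    interval_cases k
    · rw [norm_iteratedFDeriv_zero]; exact hbd m hm p
    · rw [norm_iteratedFDeriv_one]
      exact norm_fderiv_le_of_lipschitz ℝ (C := ⟨_, by positivity⟩)
        (LipschitzWith.of_dist_le_mul fun p q => by
          rw [dist_eq_norm, dist_eq_norm]; exact hlip m hm p q)
  · have : ∀ m, U m (a, 0) = 0 := fun m => by
      simp only [U]
      rw [hχ1 m _ (Or.inr (by simpa using (hr0 m).le)),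
        hχ1 _ _ (Or.inr (by simpa using (hr0 _).le))]
      simp
    simp [this]
  · refine ⟨χ (m + 1) v, ?_, ?_, hχ0 m v, ?_⟩
    · simp [χ, bp_nonneg]
    · simp [χ, bp_le_one]
    beta_reduce
    rw [tsum_eq_sum (s := {m, m + 1}), Finset.sum_pair (by omega)]
    · simp only [U]
      rw [hχ1 m v h1, hχ0 (m + 1) v h2, sub_zero]
    · intro k hk
      simp only [Finset.mem_insert, Finset.mem_singleton, not_or] at hk
      simp only [U]
      rcases lt_or_gt_of_ne hk.1 with h | h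
      · have hv : ‖v‖ ≤ r m := h1.resolve_left (by omega)
        rw [hχ1 k v (Or.inr (hv.trans (hanti h.le))), hχ1 (k + 1) v (Or.inr (hv.trans (hanti h)))]
        simp
      · obtain ⟨k, rfl⟩ : ∃ j, k = j + 1 := ⟨k - 1, by omega⟩
        rw [hχ0 k v (by linarith [hanti (show m + 2 ≤ k + 1 by omega)]),
          hχ0 (k + 1) v (by linarith [hanti (show m + 2 ≤ k + 1 + 1 by omega)])]
        simp

end Vale.Agent.P103
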