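import Mathlib

/-! Diophantine facts on the rotation by `√2`. -/

namespace Vale.Agent.P103

open Real Finset

/-- `E x = exp (i x)`. -/
noncomputable def E (x : ℝ) : ℂ := Complex.exp (Complex.I * x)

lemma norm_E (x : ℝ) : ‖E x‖ = 1 := by simp [E]

lemma E_add (x y : ℝ) : E (x + y) = E x * E y := by
  simp [E, mul_add, Complex.exp_add]

lemma E_zero : E 0 = 1 := by simp [E]

lemma E_int (k : ℤ) : E (2 * π * k) = 1 := by
  have := Complex.exp_int_mul_two_pi_mul_I k
  rw [← this, E]; congr 1; push_cast; ring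

lemma E_pow (x : ℝ) (n : ℕ) : E x ^ n = E (n * x) := by
  rw [E, E, ← Complex.exp_nat_mul]; congr 1; push_cast; ring

lemma E_arg {z : ℂ} (hz : ‖z‖ = 1) : E z.arg = z := by
  have := Complex.norm_mul_exp_arg_mul_I z
  rw [hz] at this
  rw [E, mul_comm]; simpa using this

lemma chord_le (x : ℝ) : ‖E x - 1‖ ≤ |x| := Real.norm_exp_I_mul_ofReal_sub_one_le

lemma chord_le' (x y : ℝ) : ‖E x - E y‖ ≤ |x - y| := by
  have : E x - E y = (E (x - y) - 1) * E y := by
    rw [sub_mul, ← E_add]; simp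
  rw [this, norm_mul, norm_E, mul_one]
  exact chord_le _

lemma chord_ge {x : ℝ} (hx : |x| ≤ π) : 2 / π * |x| ≤ ‖E x - 1‖ := by
  rw [E, Complex.norm_exp_I_mul_ofReal_sub_one]
  have h := Real.mul_abs_le_abs_sin (x := x / 2) (by rw [abs_div]; norm_num; linarith)
  rw [abs_div] at h
  simp only [norm_mul, Real.norm_eq_abs]
  norm_num at h ⊢
  have : 2 / π * |x| = 2 * (|x| / π) := by ring
  linarith

lemma arg_le {z : ℂ} (hz : ‖z‖ = 1) : |z.arg| ≤ 2 * ‖z - 1‖ := by
  have h := chord_ge (Complex.abs_arg_le_pi z)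
  rw [E_arg hz] at h
  have h1 := Real.pi_le_four
  have h2 := Real.pi_pos
  have h3 : 1 / 2 ≤ 2 / π := by rw [div_le_div_iff₀ (by norm_num) h2]; linarith
  nlinarith [abs_nonneg z.arg]

lemma sqrt2_sep (n : ℕ) (hn : 1 ≤ n) (m : ℤ) : 1 / (4 * (n : ℝ)) ≤ |n * √2 - m| := by
  have hn' : (1 : ℝ) ≤ n := by exact_mod_cast hn
  have hs : √2 * √2 = 2 := Real.mul_self_sqrt (by norm_num)
  have hs1 : √2 < 3 / 2 := by
    rw [Real.sqrt_lt' (by norm_num)]; norm_num
  have hs0 : 0 < √2 := Real.sqrt_pos.2 (by norm_num)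
  have hne : (2 * (n : ℤ) ^ 2 - m ^ 2 : ℤ) ≠ 0 := by
    intro h
    have h' : (2 * (n : ℝ) ^ 2 - (m : ℝ) ^ 2) = 0 := by exact_mod_cast h
    have h2 : (n * √2 - m) * (n * √2 + m) = 0 := by nlinarith
    have hirr := irrational_sqrt_two
    rcases mul_eq_zero.1 h2 with h3 | h3
    · exact hirr ⟨(m : ℚ) / n, by push_cast; field_simp; linarith⟩
    · exact hirr ⟨(-m : ℚ) / n, by push_cast; field_simp; linarith⟩
  have h1 : (1 : ℝ) ≤ |(n * √2 - m) * (n * √2 + m)| := by
    have : (n * √2 - m) * (n * √2 + m) = ((2 * (n : ℤ) ^ 2 - m ^ 2 : ℤ) : ℝ) := by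
      push_cast; nlinarith
    rw [this, ← Int.cast_abs]
    exact_mod_cast Int.one_le_abs hne
  rw [abs_mul] at h1
  by_contra hc
  push Not at hc
  have h2 : 1 / (4 * (n : ℝ)) ≤ 1 / 4 := by gcongr; linarith
  have h3 : |n * √2 + m| ≤ 4 * n := by
    have : n * √2 + m = 2 * (n * √2) - (n * √2 - m) := by ring
    rw [this]
    refine (abs_sub _ _).trans ?_
    rw [abs_of_nonneg (by positivity)]
    nlinarith
  have h4 : |n * √2 - m| * |n * √2 + m| ≤ |n * √2 - m| * (4 * n) :=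
    mul_le_mul_of_nonneg_left h3 (abs_nonneg _)
  have h5 : |n * √2 - m| * (4 * n) < 1 / (4 * n) * (4 * n) :=
    mul_lt_mul_of_pos_right hc (by positivity)
  have h6 : 1 / (4 * (n : ℝ)) * (4 * n) = 1 := by field_simp
  linarith

/-- The rotation. -/
noncomputable def w0 : ℂ := E (2 * π * √2)

lemma norm_w0 : ‖w0‖ = 1 := norm_E _

lemma w0_ne : w0 ≠ 0 := fun h => by simpa [h] using norm_w0

lemma w0_sep (n : ℕ) (hn : 1 ≤ n) : 1 / (n : ℝ) ≤ ‖w0 ^ n - 1‖ := by
  have hn' : (1 : ℝ) ≤ n := by exact_mod_cast hn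
  set m := round (n * √2)
  have h1 := sqrt2_sep n hn m
  have h2 : |n * √2 - m| ≤ 1 / 2 := abs_sub_round _
  have h3 : w0 ^ n = E (2 * π * (n * √2 - m)) := by
    have : (n : ℝ) * (2 * π * √2) = 2 * π * (n * √2 - m) + 2 * π * m := by ring
    rw [w0, E_pow, this, E_add, E_int, mul_one]
  have hp := Real.pi_pos
  have h4 : |2 * π * (n * √2 - m)| = 2 * π * |n * √2 - m| := by
    rw [abs_mul, abs_of_pos (by positivity : 0 < 2 * π)]
  have h5 := chord_ge (x := 2 * π * (n * √2 - m)) (by rw [h4]; nlinarith)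
  rw [h3]
  refine le_trans ?_ h5
  rw [h4]
  have : 2 / π * (2 * π * |n * √2 - m|) = 4 * |n * √2 - m| := by field_simp; ring
  rw [this]
  have h6 : 1 / (n : ℝ) = 4 * (1 / (4 * n)) := by field_simp
  linarith

lemma orbit_sep {z : ℂ} (hz : ‖z‖ = 1) {s t : ℕ} (hst : s < t) :
    1 / ((t - s : ℕ) : ℝ) ≤ ‖z * w0 ^ t - z * w0 ^ s‖ := by
  have : z * w0 ^ t - z * w0 ^ s = z * w0 ^ s * (w0 ^ (t - s) - 1) := by
    rw [mul_sub, mul_one, mul_assoc, ← pow_add, Nat.add_sub_cancel' hst.le]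
  rw [this, norm_mul, norm_mul, norm_pow, hz, norm_w0, one_pow, one_mul, one_mul]
  exact w0_sep _ (by omega)

/-- Return time to a neighbourhood of `1`. -/
lemma w0_ret {z : ℂ} (hz : ‖z‖ = 1) (Q : ℕ) (hQ : 1 ≤ Q) :
    ∃ t < Q, ‖z * w0 ^ t - 1‖ ≤ 24 / Q := by
  obtain ⟨r, hr, hden⟩ := Real.exists_rat_abs_sub_le_and_den_le (√2) hQ
  have hQ' : (1 : ℝ) ≤ Q := by exact_mod_cast hQ
  have hq : (0 : ℝ) < r.den := by exact_mod_cast r.pos
  have hcast : (r : ℝ) = r.num / r.den := Rat.cast_def r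
  have h1 := sqrt2_sep r.den r.pos r.num
  have h2 : |r.den * √2 - r.num| ≤ 1 / (Q + 1) := by
    have : (r.den : ℝ) * √2 - r.num = r.den * (√2 - r) := by rw [hcast]; field_simp
    rw [this, abs_mul, abs_of_pos hq]
    calc _ ≤ (r.den : ℝ) * (1 / ((Q + 1) * r.den)) := by gcongr
      _ = _ := by field_simp
  have h3 : (Q : ℝ) + 1 ≤ 4 * r.den := by
    have := h1.trans h2
    rwa [one_div_le_one_div (by positivity) (by positivity)] at this
  set θ := z.arg / (2 * π) with hθ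
  set k := round (-(r.den : ℝ) * θ) with hk
  have h4 : |-(r.den : ℝ) * θ - k| ≤ 1 / 2 := abs_sub_round _
  have hcop : IsCoprime r.num (r.den : ℤ) := by
    rw [Int.isCoprime_iff_gcd_eq_one]; exact r.reduced
  obtain ⟨a, b, hab⟩ := hcop
  have hd0 : (0 : ℤ) < r.den := by exact_mod_cast r.pos
  set t := (k * a) % r.den with ht
  have ht0 : 0 ≤ t := Int.emod_nonneg _ hd0.ne'
  have ht1 : t < r.den := Int.emod_lt_of_pos _ hd0
  obtain ⟨c, hc⟩ : ∃ c : ℤ, t * r.num = k + c * r.den := by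
    refine ⟨-(k * b) - (k * a / r.den) * r.num, ?_⟩
    have := Int.emod_add_mul_ediv (k * a) r.den
    have h5 : t = k * a - r.den * (k * a / r.den) := by rw [ht]; linarith
    rw [h5]
    linear_combination k * hab
  refine ⟨t.toNat, by omega, ?_⟩
  have hp := Real.pi_pos
  have htr : ((t.toNat : ℕ) : ℝ) = (t : ℝ) := by
    exact_mod_cast congrArg (Int.cast (R := ℝ)) (Int.toNat_of_nonneg ht0)
  have hcr : (t : ℝ) * r.num = k + c * r.den := by exact_mod_cast hc
  have h6 : z * w0 ^ t.toNat = E (2 * π * ((θ + k / r.den) + t * (√2 - r))) := by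
    have : z.arg + (t.toNat : ℝ) * (2 * π * √2) =
        2 * π * ((θ + k / r.den) + t * (√2 - r)) + 2 * π * c := by
      rw [htr, hθ, hcast]; field_simp; linear_combination (2 * π) * hcr
    conv_lhs => rw [← E_arg hz]
    rw [w0, E_pow, ← E_add, this, E_add, E_int, mul_one]
  rw [h6]
  refine (chord_le _).trans ?_
  have h7 : |θ + k / r.den| ≤ 2 / Q := by
    have : θ + k / r.den = -(-(r.den : ℝ) * θ - k) / r.den := by field_simp; ring
    rw [this, abs_div, abs_neg, abs_of_pos hq, div_le_div_iff₀ hq (by positivity)]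
    nlinarith
  have h8 : |t * (√2 - r)| ≤ 1 / Q := by
    have ht0' : (0 : ℝ) ≤ t := by exact_mod_cast ht0
    have ht1' : (t : ℝ) ≤ r.den := by exact_mod_cast ht1.le
    rw [abs_mul, abs_of_nonneg ht0']
    calc _ ≤ (r.den : ℝ) * (1 / ((Q + 1) * r.den)) := by gcongr
      _ = 1 / (Q + 1) := by field_simp
      _ ≤ _ := by gcongr; linarith
  rw [abs_mul, abs_of_pos (by positivity : 0 < 2 * π)]
  have h9 := (abs_add_le _ _).trans (add_le_add h7 h8)
  have h10 := Real.pi_le_four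
  calc _ ≤ 2 * 4 * (2 / (Q : ℝ) + 1 / Q) := by gcongr
    _ = _ := by ring

/-- Number of visits to a neighbourhood of `1`. -/
lemma w0_count {z : ℂ} (hz : ‖z‖ = 1) (T : ℕ) {x : ℝ} (hx : 0 ≤ x) :
    (((range T).filter fun t => ‖z * w0 ^ t - 1‖ < x).card : ℝ) ≤ 4 * x * T + 2 := by
  have hn : ∀ t : ℕ, ‖z * w0 ^ t‖ = 1 := fun t => by simp [hz, norm_w0]
  set y := 2 * x * T with hy
  have hy0 : 0 ≤ y := by positivity
  have hcard := card_le_card_of_injOn (s := (range T).filter fun t => ‖z * w0 ^ t - 1‖ < x)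
    (t := Finset.Icc ⌊-y⌋ ⌊y⌋) (fun t => ⌊(z * w0 ^ t).arg * T⌋) (fun t ht => by
      have h1 := arg_le (hn t)
      have h2 := (mem_filter.1 (mem_coe.1 ht)).2
      have hT : (0 : ℝ) ≤ T := Nat.cast_nonneg _
      rw [abs_le] at h1
      refine mem_coe.2 (Finset.mem_Icc.2 ⟨Int.floor_le_floor ?_, Int.floor_le_floor ?_⟩) <;> nlinarith)
    (by
      have key : ∀ s t : ℕ, t < T → s < t →
          ⌊(z * w0 ^ s).arg * T⌋ = ⌊(z * w0 ^ t).arg * T⌋ → False := by
        intro s t ht hst h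
        have h1 := Int.abs_sub_lt_one_of_floor_eq_floor h
        have h2 := orbit_sep hz hst
        have h3 := chord_le' (z * w0 ^ t).arg (z * w0 ^ s).arg
        rw [E_arg (hn t), E_arg (hn s)] at h3
        have hT : (0 : ℝ) < T := by exact_mod_cast (by omega : 0 < T)
        rw [← sub_mul, abs_mul, abs_of_pos hT, abs_sub_comm] at h1
        have h4 : 1 / (T : ℝ) ≤ 1 / ((t - s : ℕ) : ℝ) := by
          gcongr
          · exact_mod_cast (by omega : 0 < t - s)
          · omega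
        have h5 := h4.trans (h2.trans h3)
        rw [div_le_iff₀ hT] at h5
        linarith
      intro s hs t ht h
      have hs' := mem_range.1 (mem_filter.1 (mem_coe.1 hs)).1
      have ht' := mem_range.1 (mem_filter.1 (mem_coe.1 ht)).1
      rcases lt_trichotomy s t with h' | h' | h'
      · exact (key s t ht' h' h).elim
      · exact h'
      · exact (key t s hs' h' h.symm).elim)
  rw [Int.card_Icc] at hcard
  have h1 : ⌊-y⌋ ≤ ⌊y⌋ := Int.floor_le_floor (by linarith)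
  have h2 : (((⌊y⌋ + 1 - ⌊-y⌋).toNat : ℕ) : ℝ) = (⌊y⌋ + 1 - ⌊-y⌋ : ℤ) := by
    exact_mod_cast congrArg (Int.cast (R := ℝ)) (Int.toNat_of_nonneg (by omega))
  have h3 : (((range T).filter fun t => ‖z * w0 ^ t - 1‖ < x).card : ℝ) ≤
      ((⌊y⌋ + 1 - ⌊-y⌋).toNat : ℕ) := by exact_mod_cast hcard
  rw [h2] at h3
  push_cast at h3
  have h4 := Int.floor_le y
  have h5 := Int.lt_floor_add_one (-y)
  linarith

/-- Covering an arc by small balls. -/
lemma cover {z : ℂ} (hz : ‖z‖ = 1) {h : ℝ} (hh : 0 < h) (hx : ‖z - 1‖ ≤ 1024 * h) :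
    ∃ k : ℕ, k ≤ 4096 ∧ ‖z - E (h * ((k : ℝ) - 2048))‖ ≤ h := by
  have h1 := arg_le hz
  set m := round (z.arg / h) with hm
  have h2 : |z.arg / h - m| ≤ 1 / 2 := abs_sub_round _
  have h3 : |z.arg / h| ≤ 2048 := by
    rw [abs_div, abs_of_pos hh, div_le_iff₀ hh]; linarith
  rw [abs_le] at h2 h3
  have h4 : (m : ℝ) < 2049 := by linarith
  have h5 : (-2049 : ℝ) < m := by linarith
  have h4' : m < 2049 := by exact_mod_cast h4
  have h5' : -2049 < m := by exact_mod_cast h5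
  refine ⟨(m + 2048).toNat, by omega, ?_⟩
  have h6 : (((m + 2048).toNat : ℕ) : ℝ) = m + 2048 := by
    exact_mod_cast congrArg (Int.cast (R := ℝ)) (Int.toNat_of_nonneg (by omega : 0 ≤ m + 2048))
  simp only [h6, add_sub_cancel_right]
  conv_lhs => rw [← E_arg hz]
  refine (chord_le' _ _).trans ?_
  have : z.arg - h * m = h * (z.arg / h - m) := by field_simp
  rw [this, abs_mul, abs_of_pos hh]
  have : |z.arg / h - m| ≤ 1 := abs_le.2 ⟨by linarith, by linarith⟩
  nlinarith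

end Vale.Agent.P103
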