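import Vale.Agent.P103.Chain
import Vale.Agent.P103.Rot

/-! The tautological line bundle on the two-sphere and its Chern cocycle. -/

namespace Vale.Agent.P103

open CategoryTheory Limits Complex Finset ComplexConjugate

abbrev E3 : Type := EuclideanSpace ℝ (Fin 3)

abbrev S2 : Type := Metric.sphere (0 : E3) 1

noncomputable def zc (p : E3) : ℂ := p 0 + p 1 * I

noncomputable def mk3 (ζ : ℂ) (h : ℝ) : E3 := !₂[ζ.re, ζ.im, h]

@[simp] lemma zc_mk3 (ζ : ℂ) (h : ℝ) : zc (mk3 ζ h) = ζ := by simp [zc, mk3]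

@[simp] lemma mk3_two (ζ : ℂ) (h : ℝ) : mk3 ζ h 2 = h := by simp [mk3]

lemma e3_ext {p q : E3} (h1 : zc p = zc q) (h2 : p 2 = q 2) : p = q := by
  have a := congrArg Complex.re h1
  have b := congrArg Complex.im h1
  simp [zc] at a b
  ext i; fin_cases i
  exacts [a, b, h2]

lemma zc_neg (p : E3) : zc (-p) = -zc p := by simp [zc]; ring

lemma norm_e3 (p : E3) : ‖p‖ ^ 2 = ‖zc p‖ ^ 2 + p 2 ^ 2 := by
  rw [EuclideanSpace.real_norm_sq_eq, Fin.sum_univ_three, Complex.sq_norm, zc, normSq_add_mul_I]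

lemma mk3_mem {ζ : ℂ} {h : ℝ} (H : ‖ζ‖ ^ 2 + h ^ 2 = 1) : mk3 ζ h ∈ Metric.sphere (0 : E3) 1 := by
  rw [mem_sphere_zero_iff_norm, ← pow_eq_one_iff_of_nonneg (norm_nonneg _) two_ne_zero, norm_e3]
  simpa using H

lemma sph (p : S2) : ‖zc p‖ ^ 2 + p.1 2 ^ 2 = 1 := by rw [← norm_e3]; simp

lemma sph' (p : S2) : zc p * conj (zc p) = 1 - (p.1 2 : ℂ) ^ 2 := by
  rw [mul_conj']
  norm_cast
  linarith [sph p]

lemma contDiff_zc : ContDiff ℝ 1 zc :=
  (ofRealCLM.contDiff.comp (contDiff_piLp_apply 2)).add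
    ((ofRealCLM.contDiff.comp (contDiff_piLp_apply 2)).mul contDiff_const)

lemma contDiff_mk3 : ContDiff ℝ 1 fun x : ℂ × ℝ => mk3 x.1 x.2 := by
  refine (contDiff_piLp 2).2 fun i => ?_
  fin_cases i
  exacts [reCLM.contDiff.comp contDiff_fst, imCLM.contDiff.comp contDiff_fst, contDiff_snd]

@[fun_prop] lemma continuous_zc : Continuous zc := contDiff_zc.continuous

@[fun_prop] lemma continuous_mk3 {X : Type} [TopologicalSpace X] {a : X → ℂ} {b : X → ℝ}
    (ha : Continuous a) (hb : Continuous b) : Continuous fun x => mk3 (a x) (b x) :=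
  contDiff_mk3.continuous.comp (ha.prodMk hb)

/-- `v` lies on the line over `p`. -/
def In (p : S2) (v : ℂ × ℂ) : Prop :=
  (1 + (p.1 2 : ℂ)) * v.1 = zc p * v.2 ∧ conj (zc p) * v.1 = (1 - (p.1 2 : ℂ)) * v.2

noncomputable def ip (v v' : ℂ × ℂ) : ℂ := v.1 * conj v'.1 + v.2 * conj v'.2

lemma ip_ne {v : ℂ × ℂ} (h : v ≠ 0) : ip v v ≠ 0 := fun h0 => h <| by
  rw [ip, mul_conj, mul_conj, ← ofReal_add, ofReal_eq_zero,
    add_eq_zero_iff_of_nonneg (normSq_nonneg _) (normSq_nonneg _), normSq_eq_zero,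
    normSq_eq_zero] at h0
  exact Prod.ext h0.1 h0.2

lemma In.unique {p q : S2} {v : ℂ × ℂ} (hp : In p v) (hq : In q v) (hv : v ≠ 0) : p = q := by
  have key : ∀ p : S2, In p v → zc p * ip v v = 2 * v.1 * conj v.2 ∧
      (p.1 2 : ℂ) * ip v v = v.2 * conj v.2 - v.1 * conj v.1 := fun p hp => by
    have h2 := congrArg conj hp.2
    simp only [map_mul, map_sub, map_one, conj_conj, conj_ofReal] at h2
    unfold ip
    exact ⟨by linear_combination v.1 * h2 - conj v.2 * hp.1,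
      by linear_combination conj v.1 * hp.1 + v.2 * h2⟩
  refine Subtype.ext (e3_ext ?_ ?_)
  · exact mul_right_cancel₀ (ip_ne hv) ((key p hp).1.trans (key q hq).1.symm)
  · exact ofReal_injective (mul_right_cancel₀ (ip_ne hv) ((key p hp).2.trans (key q hq).2.symm))

lemma In.ratio {p : S2} {v v' : ℂ × ℂ} (h : In p v) (h' : In p v') :
    ip v' v' • v = ip v v' • v' := by
  have hd : v.1 * v'.2 = v.2 * v'.1 := by
    linear_combination (v'.2 * h.1 - v.2 * h'.1 + v'.1 * h.2 - v.1 * h'.2) / 2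
  ext <;> simp only [ip, Prod.smul_fst, Prod.smul_snd, smul_eq_mul]
  · linear_combination conj v'.2 * hd
  · linear_combination -conj v'.1 * hd

lemma In.ip_ne {p : S2} {v v' : ℂ × ℂ} (h : In p v) (h' : In p v') (hv : v ≠ 0) (hv' : v' ≠ 0) :
    ip v v' ≠ 0 := fun h0 => by
  have := h.ratio h'
  rw [h0, zero_smul, smul_eq_zero] at this
  exact this.elim (P103.ip_ne hv') hv

abbrev Tot : Type := {x : S2 × ℂ × ℂ // x.2 ≠ 0 ∧ In x.1 x.2}

def prj : C(Tot, S2) := ⟨fun x => x.1.1, by fun_prop⟩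

variable {X : Type} [TopologicalSpace X]

noncomputable def liftN (σ : C(X, S2)) (h : ∀ x, (σ x).1 2 ≠ -1) : C(X, Tot) :=
  ⟨fun x => ⟨(σ x, zc (σ x), 1 + (σ x).1 2), fun h0 => h x (by
      have := congrArg (fun v => v.2.re) h0
      simp at this; linarith), mul_comm _ _, by linear_combination sph' (σ x)⟩,
    Continuous.subtype_mk (by fun_prop) _⟩

noncomputable def liftS (σ : C(X, S2)) (h : ∀ x, (σ x).1 2 ≠ 1) : C(X, Tot) :=
  ⟨fun x => ⟨(σ x, 1 - (σ x).1 2, conj (zc (σ x))), fun h0 => h x (by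
      have := congrArg (fun v => v.1.re) h0
      simp at this; linarith), by linear_combination -sph' (σ x), mul_comm _ _⟩,
    Continuous.subtype_mk (by fun_prop) _⟩

lemma lift_of_close {a b : C(X, S2)} (h : ∀ x, -b x ≠ a x) (ha : ∃ α, prj.comp α = a) :
    ∃ β, prj.comp β = b := by
  obtain ⟨α, rfl⟩ := ha
  refine ⟨⟨fun x => ⟨(b x, (1 - (b x).1 2) * (α x).1.2.1 + zc (b x) * (α x).1.2.2,
    conj (zc (b x)) * (α x).1.2.1 + (1 + (b x).1 2) * (α x).1.2.2), fun h0 => h x ?_,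
    by linear_combination -(α x).1.2.1 * sph' (b x),
    by linear_combination (α x).1.2.2 * sph' (b x)⟩, Continuous.subtype_mk (by fun_prop) _⟩, rfl⟩
  refine In.unique ?_ (α x).2.2 (α x).2.1
  have h1 := congrArg Prod.fst h0
  have h2 := congrArg Prod.snd h0
  simp only [Prod.fst_zero, Prod.snd_zero] at h1 h2
  simp only [In, coe_neg_sphere, zc_neg, PiLp.neg_apply, ofReal_neg, map_neg]
  exact ⟨by linear_combination h1, by linear_combination -h2⟩

lemma neg_ne_of_dist {Y : Type} [NormedAddCommGroup Y] [NormedSpace ℝ Y]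
    {p q : Metric.sphere (0 : Y) 1} (h : dist p q < 2) : -p ≠ q := by
  rintro rfl
  rw [Subtype.dist_eq, dist_eq_norm, coe_neg_sphere, sub_neg_eq_add, ← two_smul ℝ,
    norm_smul] at h
  simp at h

instance (n : ℕ) : ContractibleSpace (Dl n) :=
  (convex_stdSimplex ℝ _).contractibleSpace ⟨_, (stdSimplex.vertex (S := ℝ) 0).2⟩

instance (n : ℕ) : LocallyPathConnectedSpace (Dl n) :=
  (convex_stdSimplex ℝ _).locallyPathConnectedSpace

lemma exists_lift {n : ℕ} (σ : C(Dl n, S2)) : ∃ α, prj.comp α = σ := by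
  obtain ⟨x0, ⟨H⟩⟩ := id_nullhomotopic (Dl n)
  let G : C(unitInterval, C(Dl n, S2)) := ((ContinuousMap.Homotopy.refl σ).comp H).curry
  have h := PreconnectedSpace.induction₂'
    (fun s t => (∃ α, prj.comp α = G s) → ∃ α, prj.comp α = G t) (fun s => ?_)
    ⟨fun _ _ _ h1 h2 h => h2 (h1 h)⟩ 1 0 ?_
  · simpa [G] using h
  · have : ∀ᶠ t in nhds s, dist (G t) (G s) < 2 :=
      G.continuous.continuousAt.eventually (Metric.ball_mem_nhds _ two_pos)
    filter_upwards [this] with t ht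
    exact ⟨lift_of_close fun x => neg_ne_of_dist ((ContinuousMap.dist_apply_le_dist x).trans_lt ht),
      lift_of_close fun x => neg_ne_of_dist
        ((ContinuousMap.dist_apply_le_dist x).trans_lt (by rwa [dist_comm]))⟩
  · have : G 1 = .const _ (σ x0) := by ext x; simp [G]
    rw [this]
    by_cases h : (σ x0).1 2 = -1
    · exact ⟨liftS (.const _ (σ x0)) fun x => by simp [h]; norm_num, rfl⟩
    · exact ⟨liftN (.const _ (σ x0)) fun x => h, rfl⟩

lemma exists_log {n : ℕ} {f : Dl n → ℂ} (hf : Continuous f) (h : ∀ x, f x ≠ 0) :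
    ∃ Λ : C(Dl n, ℂ), ∀ x, exp (Λ x) = f x := by
  obtain ⟨Λ, ⟨-, hΛ⟩, -⟩ := isCoveringMapOn_exp.existsUnique_continuousMap_lifts ⟨f, hf⟩
    (exp_log (h (stdSimplex.vertex 0))) h
  exact ⟨Λ, fun x => congrFun hΛ x⟩

open Classical in
/-- Variation of the argument along an edge. -/
noncomputable def var (f : Dl 1 → ℂ) : ℝ :=
  if h : ∃ Λ : C(Dl 1, ℂ), ∀ x, exp (Λ x) = f x then
    (h.choose (stdSimplex.vertex 1) - h.choose (stdSimplex.vertex 0)).im else 0

lemma var_eq {f : Dl 1 → ℂ} (Λ : C(Dl 1, ℂ)) (h : ∀ x, exp (Λ x) = f x) :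
    var f = (Λ (stdSimplex.vertex 1) - Λ (stdSimplex.vertex 0)).im := by
  have h' : ∃ Λ : C(Dl 1, ℂ), ∀ x, exp (Λ x) = f x := ⟨Λ, h⟩
  rw [var, dif_pos h']
  have h1 := h'.choose_spec
  generalize h'.choose = Λ' at h1
  obtain ⟨F, -, hF⟩ := isCoveringMapOn_exp.existsUnique_continuousMap_lifts
    (ContinuousMap.const (Dl 1) (exp (Λ' (stdSimplex.vertex 0) - Λ (stdSimplex.vertex 0))))
    (a₀ := stdSimplex.vertex 0) rfl fun _ => exp_ne_zero _
  have h2 : ∀ x, exp (Λ' x - Λ x) = 1 := fun x => by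
    rw [exp_sub, h1, ← h, div_self (exp_ne_zero _)]
  have h3 := (hF (Λ' - Λ) ⟨rfl, by ext x; simp [h2]⟩).trans
    (hF (.const _ (Λ' (stdSimplex.vertex 0) - Λ (stdSimplex.vertex 0))) ⟨rfl, rfl⟩).symm
  have h4 := DFunLike.congr_fun h3 (stdSimplex.vertex 1)
  simp only [ContinuousMap.sub_apply, ContinuousMap.const_apply] at h4
  congr 1
  linear_combination h4

noncomputable def lf {n : ℕ} (σ : C(Dl n, S2)) : C(Dl n, Tot) := (exists_lift σ).choose

lemma lf_spec {n : ℕ} (σ : C(Dl n, S2)) : prj.comp (lf σ) = σ := (exists_lift σ).choose_spec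

noncomputable def con (α : C(Dl 1, Tot)) : ℝ :=
  var fun x => ip (α x).1.2 (lf (prj.comp α) x).1.2

lemma in_of_eq {α β : C(X, Tot)} (h : prj.comp α = prj.comp β) (x : X) :
    In (α x).1.1 (β x).1.2 := by
  have : (α x).1.1 = (β x).1.1 := DFunLike.congr_fun h x
  rw [this]; exact (β x).2.2

lemma con_mul {α β : C(Dl 1, Tot)} (h : prj.comp α = prj.comp β) (Λ : C(Dl 1, ℂ))
    (hΛ : ∀ x, (α x).1.2 = exp (Λ x) • (β x).1.2) :
    con α = con β + (Λ (stdSimplex.vertex 1) - Λ (stdSimplex.vertex 0)).im := by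
  obtain ⟨Γ, hΓ⟩ := exists_log (f := fun x => ip (β x).1.2 (lf (prj.comp β) x).1.2)
    (by unfold ip; fun_prop) fun x => (β x).2.2.ip_ne (in_of_eq (lf_spec _).symm x) (β x).2.1
      (lf (prj.comp β) x).2.1
  rw [con, con, var_eq Γ hΓ, h, var_eq (Λ + Γ) fun x => by
    simp only [ContinuousMap.add_apply, exp_add, hΓ, hΛ, ip, Prod.smul_fst, Prod.smul_snd,
      smul_eq_mul]; ring]
  simp only [ContinuousMap.add_apply, sub_im, add_im]; ring

noncomputable def dcon (α : C(Dl 2, Tot)) : ℝ :=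
  con (α.comp (face 0)) - con (α.comp (face 1)) + con (α.comp (face 2))

lemma dcon_eq {α β : C(Dl 2, Tot)} (h : prj.comp α = prj.comp β) : dcon α = dcon β := by
  obtain ⟨Λ, hΛ⟩ := exists_log (f := fun x => ip (α x).1.2 (β x).1.2 / ip (β x).1.2 (β x).1.2)
    (Continuous.div (by unfold ip; fun_prop) (by unfold ip; fun_prop) fun x => ip_ne (β x).2.1)
    fun x => div_ne_zero ((α x).2.2.ip_ne (in_of_eq h x) (α x).2.1 (β x).2.1) (ip_ne (β x).2.1)
  have key := fun i => con_mul (α := α.comp (face i)) (β := β.comp (face i))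
    (by rw [← ContinuousMap.comp_assoc, h, ContinuousMap.comp_assoc]) (Λ.comp (face i)) fun x => by
      simp only [ContinuousMap.comp_apply, hΛ]
      rw [div_eq_inv_mul, mul_smul, ← (α _).2.2.ratio (in_of_eq h _),
        inv_smul_smul₀ (ip_ne (β _).2.1)]
  have hv : ∀ (i : Fin 3) (j : Fin 2), face (n := 1) i (stdSimplex.vertex j) =
      stdSimplex.vertex (i.succAbove j) := fun i j => stdSimplex.map_vertex _ _
  simp only [dcon, key, ContinuousMap.comp_apply, hv, sub_im]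
  have a1 : (0 : Fin 3).succAbove 1 = 2 := rfl
  have a2 : (0 : Fin 3).succAbove 0 = 1 := rfl
  have a3 : (1 : Fin 3).succAbove 1 = 2 := rfl
  have a4 : (1 : Fin 3).succAbove 0 = 0 := rfl
  have a5 : (2 : Fin 3).succAbove 1 = 1 := rfl
  have a6 : (2 : Fin 3).succAbove 0 = 0 := rfl
  rw [a1, a2, a3, a4, a5, a6]; ring

/-- The Chern cocycle. -/
noncomputable def chern : (CC (TopCat.of S2)).X 2 ⟶ RR :=
  coch (X := TopCat.of S2) fun σ => dcon (lf σ)

lemma sx_chern (α : C(Dl 2, Tot)) :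
    sx (X := TopCat.of S2) (prj.comp α) ≫ chern = dcon α • 𝟙 RR := by
  rw [chern, sx_coch, dcon_eq (lf_spec _)]

lemma chern_closed : (CC (TopCat.of S2)).d 3 2 ≫ chern = 0 := by
  have h1 : (CM (TopCat.ofHom prj)).f 2 ≫ chern =
      (CC (TopCat.of Tot)).d 2 1 ≫ coch (X := TopCat.of Tot) con := cc_ext fun α => by
    rw [← Category.assoc, ← Category.assoc, sx_map, sx_d2]
    refine (sx_chern α).trans ?_
    simp only [Preadditive.add_comp, Preadditive.sub_comp, sx_coch, dcon, add_smul, sub_smul]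
  refine cc_ext fun τ => ?_
  have h2 := sx_map (TopCat.ofHom prj) (lf τ)
  rw [TopCat.hom_ofHom, lf_spec] at h2
  rw [← h2, Category.assoc, HomologicalComplex.Hom.comm_assoc, h1]
  simp

end Vale.Agent.P103
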