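import Vale.Agent.P103.Coord
import Vale.Agent.P103.Ent

/-! The counterexample. -/

namespace Vale.Agent.P103

open Complex Finset Filter Topology CategoryTheory
open scoped Manifold

variable {r : ℕ → ℝ} {F : ℂ × V → V}

noncomputable def wc : Circle := ⟨w0, mem_sphere_zero_iff_norm.2 norm_w0⟩

noncomputable def amb (F : ℂ × V → V) (x : ℂ × E3 × En) : V := F (x.1, inV (ste x.2.1) x.2.2)

def co (x : Mfd NN) : ℂ × E3 × En := (x.1, x.2.1.1, x.2.2.1)

open Classical in
noncomputable def f2 (F : ℂ × V → V) (x : Mfd NN) : E3 :=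
  if (co x).2.1 2 = -1 then gS (co x).2.1 else sig (amb F (co x) M0)

open Classical in
noncomputable def f3 (F : ℂ × V → V) (x : Mfd NN) : En :=
  if (co x).2.1 2 = -1 then out0 0 else out0 (er0 (amb F (co x)))

lemma Fib.er0_le (h : Fib r F) {w : ℂ} (hw : ‖w‖ = 1) (v : V) : ‖er0 (F (w, v))‖ ≤ 1 / 4 := by
  by_cases hv : 2 * r 2 ≤ ‖v‖
  · rw [er0_eq (h.rest w v hw hv)]; simp
  · exact (norm_er0_le _).trans (h.low hw (not_le.1 hv).le)

lemma f2_mem (x : Mfd NN) : f2 F x ∈ Metric.sphere (0 : E3) 1 := by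
  unfold f2
  split_ifs
  exacts [gS_mem x.2.1, sig_mem _]

lemma Fib.f3_mem (h : Fib r F) (x : Mfd NN) : f3 F x ∈ Metric.sphere (0 : En) 1 := by
  unfold f3
  split_ifs
  · exact out0_mem (by simp)
  · exact out0_mem ((h.er0_le x.1.norm_coe _).trans (by norm_num))

noncomputable def Fib.map (h : Fib r F) (x : Mfd NN) : Mfd NN :=
  (x.1 * wc, ⟨f2 F x, f2_mem x⟩, ⟨f3 F x, h.f3_mem x⟩)

lemma contMDiff_co : ContMDiff (model NN) 𝓘(ℝ, ℂ × E3 × En) 1 co := by
  have : Fact (Module.finrank ℝ ℂ = 1 + 1) := Complex.finrank_real_complex_fact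
  have : Fact (Module.finrank ℝ E3 = 2 + 1) := ⟨finrank_euclideanSpace_fin⟩
  have : Fact (Module.finrank ℝ En = NN + 1) := ⟨finrank_euclideanSpace_fin⟩
  have hc : ContMDiff (𝓡 1) 𝓘(ℝ, ℂ) 1 fun z : Circle => (z : ℂ) := contMDiff_coe_sphere
  exact (hc.comp contMDiff_fst).prodMk_space
    (((contMDiff_coe_sphere (E := E3) (n := 2)).comp (contMDiff_fst.comp contMDiff_snd)).prodMk_space
      ((contMDiff_coe_sphere (E := En) (n := NN)).comp (contMDiff_snd.comp contMDiff_snd)))

lemma continuous_height : Continuous fun x : Mfd NN => (co x).2.1 2 := by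
  have := contMDiff_co.continuous
  fun_prop

lemma Fib.near_south (h : Fib r F) {x : Mfd NN} (hx : (co x).2.1 2 = -1) :
    ∀ᶠ y in 𝓝 x, f2 F y = gS (co y).2.1 ∧ f3 F y = out0 0 := by
  have hc := continuous_height
  have : ∀ᶠ y in 𝓝 x, (2 * KK) ^ 2 * (1 + (co y).2.1 2) < 1 - (co y).2.1 2 :=
    ContinuousAt.eventually_lt (by fun_prop) (by fun_prop) (by rw [hx]; norm_num)
  filter_upwards [this] with y hy
  unfold f2 f3
  split_ifs with h1
  · exact ⟨rfl, rfl⟩
  have hK := KK_ge
  have h2 : 2 * KK ≤ ‖inV (ste (co y).2.1) (co y).2.2 M0‖ := by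
    rw [inV_M0]
    have a1 := norm_ste (p := y.2.1) h1
    have a2 := one_add_pos (p := y.2.1) h1
    exact (pow_le_pow_iff_left₀ (by linarith) (norm_nonneg _) two_ne_zero).1
      (lt_of_mul_lt_mul_right (hy.trans_eq a1.symm) a2.le).le
  have h3 : 2 * r 2 ≤ ‖inV (ste (co y).2.1) (co y).2.2‖ := by
    nlinarith [PiLp.norm_apply_le (inV (ste (co y).2.1) (co y).2.2) M0, h.two_r, KF_ge, h.pos 2]
  refine ⟨?_, ?_⟩
  · rw [amb, h.far (co y).1 _ y.1.norm_coe h2, inV_M0]
    exact sig_sq (p := y.2.1) h1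
  · rw [amb, er0_eq (h.rest (co y).1 _ y.1.norm_coe h3)]

lemma Fib.contMDiffAt_amb (h : Fib r F) {x : Mfd NN} (hx : (co x).2.1 2 ≠ -1) :
    ContMDiffAt (model NN) 𝓘(ℝ, V) 1 (fun y => amb F (co y)) x := by
  refine ContDiffAt.comp_contMDiffAt (g := amb F) ?_ (contMDiff_co x)
  have h1 : ContDiffAt ℝ 1 (fun z : ℂ × E3 × En => ste z.2.1) (co x) :=
    (contDiffAt_ste (p := (co x).2.1) (one_add_pos (p := x.2.1) hx).ne').comp (co x)
      contDiffAt_snd.fst
  exact h.smooth.contDiffAt.comp _ (contDiffAt_fst.prodMk (contDiff_inV.contDiffAt.comp _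
    (h1.prodMk contDiffAt_snd.snd)))

lemma Fib.contMDiff (h : Fib r F) : ContMDiff (model NN) (model NN) 1 h.map := by
  have : Fact (Module.finrank ℝ E3 = 2 + 1) := ⟨finrank_euclideanSpace_fin⟩
  have : Fact (Module.finrank ℝ En = NN + 1) := ⟨finrank_euclideanSpace_fin⟩
  have hev : ∀ x : Mfd NN, (co x).2.1 2 ≠ -1 → ∀ᶠ y in 𝓝 x, (co y).2.1 2 ≠ -1 := fun x hx =>
    continuous_height.continuousAt.eventually_ne hx
  have h2 : ContMDiff (model NN) 𝓘(ℝ, E3) 1 (f2 F) := fun x => by
    by_cases hx : (co x).2.1 2 = -1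
    · exact ((contDiff_gS.comp contDiff_snd.fst).contDiffAt.comp_contMDiffAt
        (contMDiff_co x)).congr_of_eventuallyEq ((h.near_south hx).mono fun y hy => hy.1)
    · have a : ContDiff ℝ 1 fun v : V => sig (v M0) := contDiff_sig.comp (contDiff_piLp_apply 2)
      exact (a.contDiffAt.comp_contMDiffAt (h.contMDiffAt_amb hx)).congr_of_eventuallyEq
        ((hev x hx).mono fun y hy => if_neg hy)
  have h3 : ContMDiff (model NN) 𝓘(ℝ, En) 1 (f3 F) := fun x => by
    by_cases hx : (co x).2.1 2 = -1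
    · exact contMDiffAt_const.congr_of_eventuallyEq ((h.near_south hx).mono fun y hy => hy.2)
    · have a : ContDiffAt ℝ 1 (fun v : V => out0 (er0 v)) (amb F (co x)) :=
        (contDiffAt_out0 ((h.er0_le x.1.norm_coe _).trans_lt (by norm_num))).comp _
          contDiff_er0.contDiffAt
      exact (a.comp_contMDiffAt (f := fun y => amb F (co y))
        (h.contMDiffAt_amb hx)).congr_of_eventuallyEq
        ((hev x hx).mono fun y hy => if_neg hy)
  exact (contMDiff_fst.mul contMDiff_const).prodMk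
    ((h2.codRestrict_sphere (n := 2) f2_mem).prodMk (h3.codRestrict_sphere (n := NN) h.f3_mem))

noncomputable def enc (x : Mfd NN) : St :=
  ⟨((co x).1, inV (ste (co x).2.1) (co x).2.2), x.1.norm_coe,
    fun _ hp => inV_le _ (norm_eq_of_mem_sphere x.2.2) hp⟩

lemma Fib.iter (h : Fib r F) {x : Mfd NN} (hx : (co x).2.1 2 ≠ -1) (t : ℕ) :
    (co (h.map^[t] x)).2.1 2 ≠ -1 ∧ enc (h.map^[t] x) = h.T^[t] (enc x) ∧
      (co (h.map^[t + 1] x)).2 =
        (sig ((h.T^[t + 1] (enc x)).1.2 M0), out0 (er0 (h.T^[t + 1] (enc x)).1.2)) := by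
  have step : ∀ x : Mfd NN, (co x).2.1 2 ≠ -1 → (co (h.map x)).2 =
      (sig ((h.T (enc x)).1.2 M0), out0 (er0 (h.T (enc x)).1.2)) := fun x hx =>
    Prod.ext (if_neg hx) (if_neg hx)
  have key : (co (h.map^[t] x)).2.1 2 ≠ -1 ∧ enc (h.map^[t] x) = h.T^[t] (enc x) := by
    induction t with
    | zero => exact ⟨hx, rfl⟩
    | succ t ih =>
      rw [Function.iterate_succ_apply', Function.iterate_succ_apply', ← ih.2]
      have := step _ ih.1
      refine ⟨by rw [this]; exact sig_ne _, Subtype.ext (Prod.ext rfl ?_)⟩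
      simp only [enc] at this ⊢
      rw [this, ste_sig, inV_out]
  refine ⟨key.1, key.2, ?_⟩
  rw [Function.iterate_succ_apply', Function.iterate_succ_apply', ← key.2]
  exact step _ key.1

lemma Fib.iter_south (h : Fib r F) {x : Mfd NN} (hx : (co x).2.1 2 = -1) (t : ℕ) :
    (co (h.map^[t + 1] x)).2 = (mk3 0 (-1), out0 0) := by
  have step : ∀ x : Mfd NN, (co x).2.1 2 = -1 → (co (h.map x)).2 = (mk3 0 (-1), out0 0) :=
    fun x hx => Prod.ext ((if_pos hx).trans (south_eq (p := x.2.1) hx)) (if_pos hx)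
  induction t with
  | zero => exact step x hx
  | succ t ih => rw [Function.iterate_succ_apply']; exact step _ (by rw [ih, mk3_two])

lemma Fib.dist_fst (h : Fib r F) (x y : Mfd NN) (t : ℕ) :
    dist (h.map^[t] x).1 (h.map^[t] y).1 = dist x.1 y.1 := by
  induction t with
  | zero => rfl
  | succ t ih =>
    rw [Function.iterate_succ_apply', Function.iterate_succ_apply', ← ih]
    show dist ((h.map^[t] x).1 * w0 : ℂ) ((h.map^[t] y).1 * w0) =
      dist ((h.map^[t] x).1 : ℂ) (h.map^[t] y).1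
    rw [dist_eq_norm, dist_eq_norm, ← sub_mul, norm_mul, norm_w0, mul_one]

theorem Fib.sep (h : Fib r F) (ε : ℝ) (hε : 0 < ε) :
    ∃ C d : ℕ, ∀ n S, Separated h.map n ε S → S.card ≤ C * (n + 1) ^ d := by
  classical
  have hc : ContinuousAt (fun v : V => (sig (v M0), out0 (er0 v))) 0 :=
    (contDiff_sig.comp (contDiff_piLp_apply 2 (i := M0))).continuous.continuousAt.prodMk
      (((contDiffAt_out0 (by rw [er0_eq (by simp)]; simp)).comp _
        contDiff_er0.contDiffAt).continuousAt)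
  obtain ⟨δ, hδ, hδ'⟩ := Metric.continuousAt_iff.1 hc _ (half_pos hε)
  have hK := KK_ge
  set R := 24582 * KK + δ + 12291 * (4 / ε) with hR
  have hε' : 0 < 4 / ε := by positivity
  obtain ⟨N, hN⟩ := h.count hδ (show 24582 * KK ≤ R by linarith)
  refine sep_le h.map hε (N + 1) (fun τ t x => dist (co (h.map^[t] x)).2
    (if t < τ then (sig ((0 : V) M0), out0 (er0 0)) else (mk3 0 (-1), out0 0)) ≤ ε / 2)
    (fun x n => ?_) fun x y τ t h0 h1 h2 => ?_
  · by_cases hx : (co x).2.1 2 = -1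
    · refine ⟨0, Nat.zero_le _, (range n).filter (· = 0), filter_subset _ _, ?_, fun t ht h0 => ?_⟩
      · exact (card_le_card (t := {0}) fun t ht => by simpa using (mem_filter.1 ht).2).trans
          (by simp)
      · obtain ⟨t, rfl⟩ : ∃ s, t = s + 1 := ⟨t - 1, by
          simp only [mem_filter, mem_range, ht, true_and] at h0; omega⟩
        simp only [h.iter_south hx, Nat.not_lt_zero, if_false, dist_self]
        positivity
    set g := fun t => ‖(h.T^[t] (enc x)).1.2‖ with hg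
    have hex : ∃ t, R < g t ∨ n ≤ t := ⟨n, Or.inr le_rfl⟩
    refine ⟨Nat.find hex, Nat.find_min' hex (Or.inr le_rfl),
      (range n).filter fun t => t = 0 ∨ (δ ≤ g t ∧ g t ≤ R), filter_subset _ _, ?_,
      fun t ht h0 => ?_⟩
    · rw [filter_or, add_comm]
      refine (card_union_le _ _).trans (add_le_add ?_ ?_)
      · exact (card_le_card (t := {0}) fun t ht => by simpa using (mem_filter.1 ht).2).trans
          (by simp)
      · refine le_trans (le_of_eq ?_) (hN (enc x) n)
        unfold cnt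
        congr
    simp only [mem_filter, mem_range, ht, true_and, not_or, not_and, not_le] at h0
    obtain ⟨t, rfl⟩ : ∃ s, t = s + 1 := ⟨t - 1, by omega⟩
    beta_reduce
    rw [(h.iter hx t).2.2]
    by_cases hd : δ ≤ g (t + 1)
    · have a1 := h0.2 hd
      rw [if_neg (not_lt.2 (Nat.find_min' hex (Or.inl a1)))]
      simp only [hg] at a1
      rw [h.T_succ] at a1 ⊢
      set u := h.T^[t] (enc x)
      have a2 := h.rest _ u.1.2 u.2.1 (by
        by_contra hc
        linarith [h.low u.2.1 (not_le.1 hc).le])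
      obtain ⟨p, hp⟩ := exists_coord (F (u.1.1, u.1.2))
      have a3 : p = M0 := by
        by_contra hc
        rw [a2 p hc, norm_zero] at hp
        linarith
      subst a3
      rw [er0_eq a2, Prod.dist_eq, dist_self, max_eq_left dist_nonneg]
      refine (pow_le_pow_iff_left₀ dist_nonneg (by positivity) two_ne_zero).1 ?_
      rw [dist_south, div_le_iff₀ (by positivity)]
      have a4 : 4 ≤ ‖F (u.1.1, u.1.2) M0‖ * ε := (div_le_iff₀ hε).1 (by linarith)
      nlinarith
    · rw [if_pos]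
      · exact (hδ' (by rw [dist_zero_right]; exact not_le.1 hd)).le
      by_contra hc
      obtain ⟨k, hk⟩ := Nat.exists_eq_add_of_le (not_lt.1 hc)
      have a1 : ∀ k, R < g (Nat.find hex + k) := fun k => by
        induction k with
        | zero => exact (Nat.find_spec hex).resolve_right (by omega)
        | succ k ih =>
          simp only [hg] at ih ⊢
          rw [← add_assoc, Function.iterate_succ_apply']
          exact ih.trans_le (h.far_le _ (by linarith))
      have := a1 k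
      rw [← hk] at this
      linarith
  · rw [Prod.dist_eq, h.dist_fst]
    refine max_le ((le_max_left _ _).trans h0) ?_
    exact (dist_triangle_right (co (h.map^[t] x)).2 (co (h.map^[t] y)).2 _).trans (by linarith)

noncomputable def north : Sph NN := ⟨out0 0, out0_mem (by simp)⟩

lemma Fib.not_antipodal (h : Fib r F) (p : S2) : -f2 F (1, p, north) ≠ (dbl p).1 := by
  intro h0
  have h1 := congrArg (fun q : E3 => q 2) h0
  have h2 := congrArg zc h0
  simp only [dbl, ContinuousMap.coe_mk, mk3_two, zc_mk3, zc_neg, PiLp.neg_apply] at h1 h2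
  by_cases hp : p.1 2 = -1
  · have e : f2 F (1, p, north) = gS p.1 := if_pos hp
    rw [e, south_eq hp, mk3_two] at h1
    linarith
  have e : f2 F (1, p, north) = sig (F (1, inV (ste p.1) north.1) M0) := if_neg hp
  rw [e] at h1 h2
  set v := inV (ste p.1) north.1 with hv
  have a1 := one_add_pos hp
  have a2 := norm_ste hp
  have a3 : v M0 = ste p.1 := inV_M0 _ _
  have a4 : ∀ q, q ≠ M0 → v q = 0 := fun q hq => inV_north _ hq
  by_cases hr : 2 * r 2 ≤ ‖v‖
  · have b1 : zc p ≠ 0 := fun b => by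
      obtain ⟨q, hq⟩ := exists_coord v
      have : v q = 0 := by
        by_cases hq : q = M0
        · rw [hq, a3, ste, b, mul_zero]
        · exact a4 q hq
      rw [this, norm_zero] at hq
      linarith [h.pos 2]
    have b2 : (‖zc p‖ : ℂ) ≠ 0 := by simpa using b1
    have b3 : ‖zc p / ‖zc p‖‖ = 1 := by simp [b1]
    have b4 : ConsAt 0 1 (zc p / ‖zc p‖) 1 v := ⟨le_rfl, fun t ht => by omega, b3, fun q hq => by
      obtain rfl : q = M0 := by
        by_contra hc
        exact hq (a4 q hc)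
      refine ⟨0, 0, Or.inl rfl, rfl, one_pos, by simp [wr, M0], (1 + p.1 2)⁻¹ * ‖zc p‖, _,
        by positivity, b3, ?_, by simp⟩
      rw [a3, ste]; push_cast; field_simp⟩
    obtain ⟨μ, ν, m0, m1, n0, n1, hm⟩ := h.mix 0 1 v (Or.inl rfl) hr
    obtain ⟨τ, -, hτ, hD⟩ := b4.mixD (K := KK) (by linarith [KK_ge]) norm_one
      (fun q hq => by rw [a4 q hq]; simp) n0 n1
    have b5 := hm M0
    rw [Nat.zero_div, kk_core _ _ (core_zero norm_one), hD] at b5
    rw [sig, zc_mk3] at h2
    set c := 2 / (1 + ‖F (1, v) M0‖ ^ 2)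
    have b6 : 0 ≤ c * (τ * cc 0 μ 1 M0) := mul_nonneg (by positivity)
      (mul_nonneg hτ (cc_nonneg m0 m1 _ _))
    rw [b5] at h2
    have b7 : ((c * (τ * cc 0 μ 1 M0) + ‖zc p‖ : ℝ) : ℂ) * (zc p / ‖zc p‖) ^ 2 = 0 := by
      push_cast at h2 ⊢
      have : (‖zc p‖ : ℂ) * (zc p / ‖zc p‖) ^ 2 = zc p ^ 2 / ‖zc p‖ := by field_simp
      linear_combination this - h2
    rcases mul_eq_zero.1 b7 with b8 | b8
    · linarith [ofReal_eq_zero.1 b8, norm_pos_iff.2 b1]
    · rw [pow_eq_zero_iff two_ne_zero] at b8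
      simp [b8] at b3
  · have b1 := (PiLp.norm_apply_le (F (1, v)) M0).trans (h.low norm_one (not_le.1 hr).le)
    have b2 : ‖ste p.1‖ ≤ 1 := by
      rw [← a3]
      nlinarith [PiLp.norm_apply_le v M0, h.two_r, KF_ge, h.pos 2]
    have b3 := sig_two (F (1, v) M0)
    have b4 : 1 < 2 / (1 + ‖F (1, v) M0‖ ^ 2) := by
      rw [lt_div_iff₀ (by positivity)]; nlinarith [norm_nonneg (F (1, v) M0)]
    have b5 : ‖ste p.1‖ ^ 2 ≤ 1 := pow_le_one₀ (norm_nonneg _) b2
    nlinarith

theorem Fib.eigen (h : Fib r F) :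
    Module.End.HasEigenvalue (homologyEnd 2 ⟨h.map, h.contMDiff.continuous⟩) 2 := by
  obtain ⟨c, hc0, hc⟩ := eig_sphere
  refine eig_transfer (X := TopCat.of (Mfd NN)) (TopCat.ofHom dbl)
    (TopCat.ofHom ⟨h.map, h.contMDiff.continuous⟩)
    (TopCat.ofHom ⟨fun p => (1, p, north), by fun_prop⟩)
    (TopCat.ofHom ⟨fun x => x.2.1, by fun_prop⟩) rfl ?_ c hc0 hc
  have hcont : Continuous fun p : S2 => h.map (1, p, north) :=
    h.contMDiff.continuous.comp (by fun_prop)
  refine ContinuousMap.Homotopic.prodMk (f₀ := .const _ (1 * wc)) (f₁ := .const _ 1) ?_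
    (ContinuousMap.Homotopic.prodMk (f₀ := ⟨_, hcont.snd.fst⟩) (f₁ := dbl)
      (g₀ := ⟨_, hcont.snd.snd⟩) (g₁ := .const _ north) (sphere_homotopic h.not_antipodal)
      (sphere_homotopic fun p h0 => ?_))
  · have : Nonempty S2 := ⟨⟨_, sig_mem 0⟩⟩
    exact ContinuousMap.homotopic_const_iff.2 (PathConnectedSpace.joined _ _)
  · have h1 := congrArg (fun y : En => y (Fin.last NN)) h0
    have h2 : 0 ≤ f3 F (1, p, north) (Fin.last NN) := by
      unfold f3
      split_ifs <;> simp [out0]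
    have h3 : north.1 (Fin.last NN) = 1 := by simp [north, out0]
    simp only [ContinuousMap.coe_mk, ContinuousMap.const_apply, PiLp.neg_apply, Fib.map, h3] at h1
    linarith

end Vale.Agent.P103
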