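import Vale.Agent.P103.Phi

/-! The models at each level. -/

namespace Vale.Agent.P103

open Finset

@[irreducible] def NP : ℕ := 4096

lemma NP_eq : NP = 4096 := by unfold NP; rfl

abbrev Idx : Type := Fin (NP + 1)

lemma card_Idx : (Fintype.card Idx : ℝ) = 4097 := by simp [NP_eq]

abbrev Reg : Type := Fin 3 × Idx

abbrev V : Type := EuclideanSpace ℂ Reg

/-- The main register. -/
def M0 : Reg := (0, 0)

def W (i : ℕ) : ℕ := if i = 0 then 1 else 16 * 2 ^ i

noncomputable def ell (i : ℕ) : ℝ := 4 / 2 ^ i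

noncomputable def hh (i : ℕ) : ℝ := 1 / (128 * 2 ^ i)

noncomputable def ctr (i : ℕ) (k : Idx) : ℂ := E (hh i * ((k : ℝ) - 2048))

noncomputable def er (i : ℕ) (w : ℂ) : ℝ := bp (ell i) (w - 1)

noncomputable def wr (i : ℕ) (k : Idx) (w : ℂ) : ℝ :=
  if i = 0 then (if k = 0 then 1 else 0) else bp (hh i) (w - ctr i k)

noncomputable def rd (i : ℕ) (k : Idx) (w : ℂ) : ℝ :=
  if i = 0 then 1 else bp (2 * hh i) (w - ctr i k)

def bank (i : ℕ) : Fin 3 := ⟨i % 3, Nat.mod_lt _ (by norm_num)⟩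

noncomputable def cv (i : ℕ) (w : ℂ) : V :=
  WithLp.toLp 2 fun p => if p.1 = bank i then (wr i p.2 w : ℂ) else 0

noncomputable def eps (s : ℕ) : ℝ := 1 / (12291 * 2 ^ s)

noncomputable def Rd (i : ℕ) (w : ℂ) (v : V) : ℂ :=
  ∑ k : Idx, ∑ s ∈ Icc 1 (W i),
    (rd i k (w * w0⁻¹ ^ s) : ℂ) * Phi (2 ^ s) (eps s) (v (bank i, k)) v

noncomputable def Dec (i : ℕ) (w : ℂ) (v : V) : ℂ := Rd (i - 1) w v + Rd i w v + Rd (i + 1) w v

noncomputable def beta (K : ℝ) (i : ℕ) : ℝ := K * Real.exp (-(70000 * W (i + 1)))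

noncomputable def DD (K : ℝ) (i : ℕ) (w : ℂ) (v : V) : ℂ :=
  if i = 0 then (bp K (v M0) : ℂ) * (beta K 0 * Dec 0 w v) + v M0 ^ 2 else beta K i * Dec i w v

noncomputable def aa (K : ℝ) (w : ℂ) : ℝ := K * ‖w - 1‖ ^ 2

noncomputable def GG (K : ℝ) (m : ℕ) (w : ℂ) (v : V) : V :=
  -(aa K w * er (m / 2) w) • v + DD K ((m + 1) / 2) w v • cv (m / 2) w

lemma W_pos (i : ℕ) : 1 ≤ W i := by
  unfold W; split_ifs
  · exact le_rfl
  · have := Nat.two_pow_pos i; omega

lemma W_mono : Monotone W := monotone_nat_of_le_succ fun i => by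
  unfold W
  have := Nat.two_pow_pos i
  rw [if_neg (Nat.succ_ne_zero i), pow_succ]
  split_ifs <;> omega

lemma le_W (i : ℕ) : i + 1 ≤ W i := by
  unfold W
  have := @Nat.lt_two_pow_self i
  split_ifs <;> omega

lemma W_add_two (i : ℕ) : W (i + 2) ≤ 64 * W i := by
  unfold W
  rcases Nat.eq_zero_or_pos i with rfl | h
  · simp
  · rw [if_neg (by omega), if_neg (by omega), pow_add]; omega

lemma ell_pos (i : ℕ) : 0 < ell i := by unfold ell; positivity

lemma hh_pos (i : ℕ) : 0 < hh i := by unfold hh; positivity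

lemma eps_pos (s : ℕ) : 0 < eps s := by unfold eps; positivity

lemma eps_le (s : ℕ) : eps s ≤ 1 := by
  unfold eps
  rw [div_le_one (by positivity)]
  have : (1 : ℝ) ≤ 2 ^ s := one_le_pow₀ (by norm_num)
  linarith

lemma wr_nonneg (i k w) : 0 ≤ wr i k w := by
  unfold wr; split_ifs <;> simp [bp_nonneg]

lemma wr_le (i k w) : wr i k w ≤ 1 := by
  unfold wr; split_ifs <;> simp [bp_le_one]

lemma rd_nonneg (i k w) : 0 ≤ rd i k w := by
  unfold rd; split_ifs <;> simp [bp_nonneg]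

lemma rd_of_wr {i k w} (h : wr i k w ≠ 0) : rd i k w = 1 := by
  unfold wr at h
  unfold rd
  split_ifs with hi
  · rfl
  · rw [if_neg hi] at h
    exact bp_eq_one (by have := hh_pos i; positivity) (lt_of_bp_ne (hh_pos i) h).le

lemma rd_unique {i k} {w : ℂ} (hw : ‖w‖ = 1) {n : ℕ} (h1 : 1 ≤ n) (h2 : n < W i)
    (ha : rd i k w ≠ 0) (hb : rd i k (w * w0 ^ n) ≠ 0) : False := by
  unfold rd at ha hb
  unfold W at h2
  split_ifs at ha hb h2 with hi
  · omega
  have h0 : 0 < 2 * hh i := by have := hh_pos i; positivity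
  have a1 := lt_of_bp_ne h0 ha
  have a2 := lt_of_bp_ne h0 hb
  have a3 := orbit_sep hw (show 0 < n from h1)
  simp only [pow_zero, mul_one, Nat.sub_zero] at a3
  have a4 := norm_sub_le_norm_sub_add_norm_sub (w * w0 ^ n) (ctr i k) w
  rw [norm_sub_rev (ctr i k)] at a4
  have a5 : 8 * hh i ≤ 1 / (n : ℝ) := by
    have : (n : ℝ) ≤ 16 * 2 ^ i := by exact_mod_cast h2.le
    have hn : (0 : ℝ) < n := by exact_mod_cast h1
    unfold hh
    rw [mul_one_div, div_le_div_iff₀ (by positivity) hn]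
    linarith
  linarith

lemma exists_wr {i : ℕ} {w : ℂ} (hw : ‖w‖ = 1) (h : ‖w - 1‖ ≤ 2 * ell i) : ∃ k, wr i k w = 1 := by
  by_cases hi : i = 0
  · exact ⟨0, by simp [wr, hi]⟩
  · obtain ⟨k, hk1, hk⟩ := cover hw (hh_pos i)
      (h.trans (le_of_eq (by unfold ell hh; field_simp; ring)))
    exact ⟨⟨k, by rw [NP_eq]; omega⟩, by simp only [wr, if_neg hi]; exact bp_eq_one (hh_pos i) hk⟩

lemma exists_core (j : ℕ) {w : ℂ} (hw : ‖w‖ = 1) : ∃ t < W j, ‖w * w0 ^ t - 1‖ ≤ ell (j + 1) := by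
  by_cases hj : j = 0
  · refine ⟨0, W_pos j, ?_⟩
    have := norm_sub_le w 1
    simp only [hj, ell, pow_zero, mul_one, hw, norm_one] at this ⊢
    linarith
  · obtain ⟨t, ht, h⟩ := w0_ret hw (W j) (W_pos j)
    refine ⟨t, ht, h.trans ?_⟩
    simp only [W, if_neg hj, ell, pow_succ]
    push_cast
    rw [div_le_div_iff₀ (by positivity) (by positivity)]
    have : (0 : ℝ) < 2 ^ j := by positivity
    linarith

lemma exists_coord (v : V) : ∃ p, ‖v‖ ≤ 12291 * ‖v p‖ := by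
  obtain ⟨p, -, hp⟩ := exists_max_image univ (fun p => ‖v p‖) univ_nonempty
  refine ⟨p, ?_⟩
  rw [EuclideanSpace.norm_eq, Real.sqrt_le_iff]
  refine ⟨by positivity, ?_⟩
  have h1 : ∑ q, ‖v q‖ ^ 2 ≤ ∑ _q : Reg, ‖v p‖ ^ 2 :=
    sum_le_sum fun q _ => by gcongr; exact hp q (mem_univ q)
  rw [sum_const, card_univ, Fintype.card_prod, nsmul_eq_mul, Nat.cast_mul, card_Idx,
    Fintype.card_fin] at h1
  push_cast at h1
  nlinarith [sq_nonneg ‖v p‖]

lemma norm_le_of_coord {v : V} {b : ℝ} (h : ∀ p, ‖v p‖ ≤ b) : ‖v‖ ≤ 12291 * b := by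
  obtain ⟨p, hp⟩ := exists_coord v
  linarith [h p]

lemma coef_cv (i : ℕ) : Coef (cv i) 12291 := by
  have h1 : ∀ k, Coef (wr i k) 1 := fun k => by
    refine ⟨fun w => by rw [Real.norm_eq_abs, abs_of_nonneg (wr_nonneg _ _ _)]; exact wr_le _ _ _, ?_⟩
    unfold wr
    split_ifs
    · exact ⟨0, le_rfl, by simp⟩
    · exact ⟨0, le_rfl, by simp⟩
    · simpa using (coef_bp (hh_pos i) 1 (ctr i k)).2
  choose L hL0 hL using fun k => (h1 k).2
  have hS : 0 ≤ ∑ k, L k := sum_nonneg fun k _ => hL0 k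
  refine ⟨fun w => ?_, 12291 * ∑ k, L k, by positivity, fun w w' => ?_⟩
  · rw [← mul_one (12291 : ℝ)]
    refine norm_le_of_coord fun p => ?_
    simp only [cv]
    split_ifs
    · rw [Complex.norm_real]; exact (h1 _).1 _
    · simp
  · rw [mul_assoc]
    refine norm_le_of_coord fun p => ?_
    simp only [cv, PiLp.sub_apply]
    split_ifs
    · rw [← Complex.ofReal_sub, Complex.norm_real]
      refine (hL _ _ _).trans (mul_le_mul_of_nonneg_right ?_ (norm_nonneg _))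
      exact single_le_sum (fun k _ => hL0 k) (mem_univ _)
    · simp only [sub_self, norm_zero]; positivity

lemma ctl_Rd (i : ℕ) : Ctl' (Rd i) (4097 * (W i * (5 * 2 ^ W i))) := by
  have h := Ctl'.sum (A := ℂ) (univ : Finset Idx) (η := W i * (5 * 2 ^ W i))
    (W := fun k w (v : V) => ∑ s ∈ Icc 1 (W i),
      (rd i k (w * w0⁻¹ ^ s) : ℂ) * Phi (2 ^ s) (eps s) (v (bank i, k)) v) fun k _ => by
    have h := Ctl'.sum (A := ℂ) (Icc 1 (W i)) (η := 5 * 2 ^ W i)
      (W := fun s w (v : V) => (rd i k (w * w0⁻¹ ^ s) : ℂ) *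
        Phi (2 ^ s) (eps s) (v (bank i, k)) v) fun s hs => by
      have h1 : Ctl' (fun (_ : ℂ) (v : V) => Phi (2 ^ s) (eps s) (v (bank i, k)) v)
          (5 * (2 ^ s : ℕ)) :=
        Ctl'.of_lip (Phi_zero (by positivity) _ _) fun v v' =>
          Phi_lip Nat.one_le_two_pow (eps_pos s).le (eps_le s) (PiLp.norm_apply_le (v - v') _)
      have h2 : Coef (fun w : ℂ => rd i k (w * w0⁻¹ ^ s)) 1 := by
        unfold rd
        split_ifs
        · simpa using Coef.const (A := ℂ) (1 : ℝ)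
        · exact coef_bp (by have := hh_pos i; positivity) _ _
      refine (Ctl'.bilin (fun (x : ℂ) (y : ℝ) => (y : ℂ) * x) (fun x y => by simp [mul_comm])
        (fun x x' y => by ring) (fun x y y' => by push_cast; ring) (by positivity) zero_le_one
        h1 h2).mono ?_
      have : (2 : ℝ) ^ s ≤ 2 ^ W i := pow_le_pow_right₀ (by norm_num) (mem_Icc.1 hs).2
      push_cast
      linarith
    simpa using h
  rwa [card_univ, card_Idx] at h

lemma ctl_Dec (i : ℕ) : Ctl' (Dec i) (Real.exp (70000 * W (i + 1)) * (1 / 4) ^ i) := by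
  refine (((ctl_Rd (i - 1)).add (ctl_Rd i)).add (ctl_Rd (i + 1))).mono ?_
  have key : ∀ j ≤ i + 1, (4097 * (W j * (5 * 2 ^ W j)) : ℝ) ≤
      4097 * (W (i + 1) * (5 * 2 ^ W (i + 1))) := fun j hj => by
    have h1 : (W j : ℝ) ≤ W (i + 1) := by exact_mod_cast W_mono hj
    have h2 : (2 : ℝ) ^ W j ≤ 2 ^ W (i + 1) := pow_le_pow_right₀ (by norm_num) (W_mono hj)
    gcongr
  have h1 := key (i - 1) (by omega)
  have h2 := key i (by omega)
  set n := W (i + 1) with hn
  have hn1 : (1 : ℝ) ≤ n := by exact_mod_cast W_pos (i + 1)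
  have hin : i ≤ n := by have := le_W (i + 1); omega
  have e1 : (2 : ℝ) ≤ Real.exp 1 := by linarith [Real.add_one_le_exp (1 : ℝ)]
  have e2 : (2 : ℝ) ^ n ≤ Real.exp n := by
    rw [← mul_one (n : ℝ), Real.exp_nat_mul]; gcongr
  have e3 : (n : ℝ) ≤ Real.exp n := by linarith [Real.add_one_le_exp (n : ℝ)]
  have e4 : (4 : ℝ) ^ i ≤ Real.exp n * Real.exp n := by
    calc (4 : ℝ) ^ i ≤ 4 ^ n := pow_le_pow_right₀ (by norm_num) hin
      _ = 2 ^ n * 2 ^ n := by rw [← mul_pow]; norm_num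
      _ ≤ _ := by gcongr
  have e5 : (61455 : ℝ) ≤ Real.exp (69996 * n) := by
    linarith [Real.add_one_le_exp (69996 * n : ℝ)]
  have e6 : Real.exp (70000 * n) =
      Real.exp (69996 * n) * Real.exp n * Real.exp n * (Real.exp n * Real.exp n) := by
    simp only [← Real.exp_add]; congr 1; ring
  rw [one_div, inv_pow, ← div_eq_mul_inv, le_div_iff₀ (by positivity), e6]
  calc _ ≤ (61455 * (n : ℝ) * 2 ^ n) * 4 ^ i := by gcongr; linarith
    _ ≤ _ := by gcongr

lemma ctl_beta {K : ℝ} (hK : 0 ≤ K) (i : ℕ) :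
    Ctl' (fun w v => (beta K i : ℂ) * Dec i w v) (K * (1 / 4) ^ i) := by
  have h0 : 0 ≤ beta K i := by unfold beta; positivity
  refine (Ctl'.bilin (fun (x : ℂ) (y : ℝ) => (y : ℂ) * x) (fun x y => by simp [mul_comm])
    (fun x x' y => by ring) (fun x y y' => by push_cast; ring) (by positivity) (norm_nonneg _)
    (ctl_Dec i) (Coef.const (beta K i))).mono (le_of_eq ?_)
  rw [Real.norm_eq_abs, abs_of_nonneg h0, beta, Real.exp_neg]
  field_simp

lemma contDiff_aa (K : ℝ) : ContDiff ℝ 1 (aa K) :=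
  contDiff_const.mul ((contDiff_id.sub contDiff_const).norm_sq ℂ)

lemma contDiff_er (i : ℕ) : ContDiff ℝ 1 (er i) :=
  (contDiff_bp _).comp (contDiff_id.sub contDiff_const)

lemma coef_aa_er {K : ℝ} (hK : 0 ≤ K) (i : ℕ) :
    Coef (fun w => -(aa K w * er i w)) (64 * K * (1 / 4) ^ i) := by
  refine ⟨fun w => ?_, ?_⟩
  · rw [norm_neg, norm_mul, Real.norm_eq_abs, Real.norm_eq_abs]
    by_cases h : er i w = 0
    · rw [h]; simp only [abs_zero, mul_zero]; positivity
    · have h1 := (lt_of_bp_ne (ell_pos i) h).le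
      have h2 : |aa K w| ≤ 64 * K * (1 / 4) ^ i := by
        unfold aa
        rw [abs_of_nonneg (by positivity)]
        have : ‖w - 1‖ ^ 2 ≤ (2 * ell i) ^ 2 := by gcongr
        have h3 : (2 * ell i) ^ 2 = 64 * (1 / 4) ^ i := by
          rw [ell, one_div, inv_pow, show (4 : ℝ) ^ i = 2 ^ i * 2 ^ i by rw [← mul_pow]; norm_num]
          field_simp; ring
        nlinarith
      exact (mul_le_of_le_one_right (abs_nonneg _) (abs_bp_le _ _)).trans h2
  · obtain ⟨L, hL⟩ := ContDiff.lipschitzWith_of_hasCompactSupport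
      (f := fun w => -(aa K w * er i w))
      (HasCompactSupport.intro (isCompact_closedBall 1 (2 * ell i)) fun x hx => by
        have : er i x = 0 := bp_eq_zero (ell_pos i) (by
          simp only [Metric.mem_closedBall, dist_eq_norm, not_le] at hx; exact hx.le)
        simp [this]) ((contDiff_aa K).mul (contDiff_er i)).neg one_ne_zero
    exact ⟨L, L.2, fun a a' => by simpa only [dist_eq_norm] using hL.dist_le_mul a a'⟩

lemma ctl_GG {K : ℝ} (hK : 0 ≤ K) {m : ℕ} (hm : 1 ≤ m) :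
    Ctl' (GG K m) (25000 * K * (1 / 2) ^ m) := by
  have h1 : Ctl' (fun (_ : ℂ) (v : V) => v) 1 := Ctl'.of_lip rfl (by simp)
  have h2 := Ctl'.bilin (fun (x : V) (y : ℝ) => y • x) (fun x y => by rw [norm_smul, mul_comm])
    (fun x x' y => (smul_sub _ _ _).symm) (fun x y y' => (sub_smul _ _ _).symm) zero_le_one
    (by positivity) h1 (coef_aa_er hK (m / 2))
  have h3 := Ctl'.bilin (fun (x : ℂ) (y : V) => x • y) (fun x y => by rw [norm_smul])
    (fun x x' y => (sub_smul _ _ _).symm) (fun x y y' => (smul_sub _ _ _).symm) (by positivity)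
    (by norm_num) (ctl_beta hK ((m + 1) / 2)) (coef_cv (m / 2))
  have h4 := h2.add h3
  have hne : (m + 1) / 2 ≠ 0 := by omega
  have e : GG K m = fun a v => -(aa K a * er (m / 2) a) • v +
      ((beta K ((m + 1) / 2) : ℂ) * Dec ((m + 1) / 2) a v) • cv (m / 2) a := by
    funext a v; simp only [GG, DD, if_neg hne]
  rw [e]
  refine h4.mono ?_
  have a1 : (1 / 4 : ℝ) ^ (m / 2) ≤ 2 * (1 / 2) ^ m := by
    rw [show (1 / 4 : ℝ) = (1 / 2) ^ 2 by norm_num, ← pow_mul]
    have : (1 / 2 : ℝ) ^ (2 * (m / 2) + 1) ≤ (1 / 2) ^ m :=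
      pow_le_pow_of_le_one (by norm_num) (by norm_num) (by omega)
    rw [pow_succ] at this
    linarith
  have a2 : (1 / 4 : ℝ) ^ ((m + 1) / 2) ≤ (1 / 4) ^ (m / 2) :=
    pow_le_pow_of_le_one (by norm_num) (by norm_num) (by omega)
  have a3 := mul_le_mul_of_nonneg_left a1 hK
  have a4 := mul_le_mul_of_nonneg_left a2 hK
  have a5 : 0 ≤ K * (1 / 2) ^ m := by positivity
  nlinarith

lemma contDiff_ofReal {X : Type} [NormedAddCommGroup X] [NormedSpace ℝ X] {f : X → ℝ}
    (h : ContDiff ℝ 1 f) : ContDiff ℝ 1 fun x => (f x : ℂ) :=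
  Complex.ofRealCLM.contDiff.comp h

lemma contDiff_cv (i : ℕ) : ContDiff ℝ 1 (cv i) := by
  refine (contDiff_piLp 2).2 fun p => ?_
  simp only [cv]
  split_ifs
  · refine contDiff_ofReal ?_
    unfold wr
    split_ifs
    · exact contDiff_const
    · exact contDiff_const
    · exact (contDiff_bp _).comp (contDiff_id.sub contDiff_const)
  · exact contDiff_const

lemma contDiff_coord (q : Reg) : ContDiff ℝ 1 fun p : ℂ × V => p.2 q :=
  (contDiff_piLp_apply 2).comp contDiff_snd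

lemma contDiffAt_Rd (i : ℕ) {p : ℂ × V} (hp : p.2 ≠ 0) :
    ContDiffAt ℝ 1 (fun p : ℂ × V => Rd i p.1 p.2) p := by
  unfold Rd
  refine ContDiffAt.sum fun k _ => ContDiffAt.sum fun s _ => ContDiffAt.mul ?_
    (Phi_contDiffAt _ (eps_pos s) (contDiff_coord _).contDiffAt contDiffAt_snd hp)
  refine (contDiff_ofReal ?_).contDiffAt
  unfold rd
  split_ifs
  · exact contDiff_const
  · exact (contDiff_bp _).comp ((contDiff_fst.mul contDiff_const).sub contDiff_const)

lemma contDiffAt_GG (K : ℝ) (m : ℕ) (p : ℂ × V) (hp : p.2 ≠ 0) :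
    ContDiffAt ℝ 1 (fun p : ℂ × V => GG K m p.1 p.2) p := by
  have hD : ∀ i, ContDiffAt ℝ 1 (fun p : ℂ × V => (beta K i : ℂ) * Dec i p.1 p.2) p := fun i =>
    contDiffAt_const.mul (((contDiffAt_Rd _ hp).add (contDiffAt_Rd _ hp)).add (contDiffAt_Rd _ hp))
  have hc : ContDiffAt ℝ 1 (fun p : ℂ × V => cv (m / 2) p.1) p :=
    ((contDiff_cv _).comp contDiff_fst).contDiffAt
  refine ContDiffAt.add (ContDiffAt.fun_smul ?_ contDiffAt_snd) (ContDiffAt.fun_smul ?_ hc)
  · exact ((((contDiff_aa K).mul (contDiff_er _)).comp contDiff_fst).neg).contDiffAt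
  · unfold DD
    split_ifs
    · exact ((contDiff_ofReal ((contDiff_bp K).comp (contDiff_coord M0))).contDiffAt.mul
        (hD 0)).add ((contDiff_coord M0).pow 2).contDiffAt
    · exact hD _

end Vale.Agent.P103
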