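import Vale.Agent.P103.Glue
import Vale.Agent.P103.Rot

/-! The smoothed power map and closure properties of Lipschitz control. -/

namespace Vale.Agent.P103

open Finset

section Ctl

variable {A V : Type} [NormedAddCommGroup A] [NormedAddCommGroup V]
  {U U' : Type} [NormedAddCommGroup U] [NormedAddCommGroup U']

def Ctl' (W : A → V → U) (η : ℝ) : Prop := ∃ B, 0 ≤ B ∧ Ctl W η B

def Coef (φ : A → U) (b : ℝ) : Prop :=
  (∀ a, ‖φ a‖ ≤ b) ∧ ∃ L, 0 ≤ L ∧ ∀ a a', ‖φ a - φ a'‖ ≤ L * ‖a - a'‖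

lemma Ctl'.mono {W : A → V → U} {η η' : ℝ} (h : Ctl' W η) (hη : η ≤ η') : Ctl' W η' := by
  obtain ⟨B, hB, h1, h2, h3⟩ := h
  exact ⟨B, hB, h1, fun a v v' => (h2 a v v').trans (by gcongr), h3⟩

lemma Ctl'.of_lip {W : V → U} {η : ℝ} (h0 : W 0 = 0) (h : ∀ v v', ‖W v - W v'‖ ≤ η * ‖v - v'‖) :
    Ctl' (fun (_ : A) v => W v) η :=
  ⟨0, le_rfl, fun _ => h0, fun _ => h, fun _ _ _ => by simp⟩

lemma Ctl'.add {W W' : A → V → U} {η η' : ℝ} (h : Ctl' W η) (h' : Ctl' W' η') :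
    Ctl' (fun a v => W a v + W' a v) (η + η') := by
  obtain ⟨B, hB, h1, h2, h3⟩ := h
  obtain ⟨B', hB', h1', h2', h3'⟩ := h'
  refine ⟨B + B', by positivity, fun a => by simp [h1, h1'], fun a v v' => ?_, fun a a' v => ?_⟩
  · rw [add_sub_add_comm, add_mul]
    exact (norm_add_le _ _).trans (add_le_add (h2 _ _ _) (h2' _ _ _))
  · rw [add_sub_add_comm, add_mul, add_mul]
    exact (norm_add_le _ _).trans (add_le_add (h3 _ _ _) (h3' _ _ _))

lemma Ctl'.sum {κ : Type} (s : Finset κ) {W : κ → A → V → U} {η : ℝ}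
    (h : ∀ k ∈ s, Ctl' (W k) η) : Ctl' (fun a v => ∑ k ∈ s, W k a v) (s.card * η) := by
  classical
  induction s using Finset.induction_on with
  | empty => simpa using Ctl'.of_lip (A := A) (W := fun _ : V => (0 : U)) (η := 0) rfl (by simp)
  | insert k s hk ih =>
    have := (h k (mem_insert_self _ _)).add (ih fun j hj => h j (mem_insert_of_mem hj))
    simp only [sum_insert hk, card_insert_of_notMem hk]
    exact this.mono (by push_cast; linarith)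

lemma Ctl'.bilin {U'' : Type} [NormedAddCommGroup U''] (μ : U → U' → U'')
    (hn : ∀ x y, ‖μ x y‖ ≤ ‖x‖ * ‖y‖) (hl : ∀ x x' y, μ x y - μ x' y = μ (x - x') y)
    (hr : ∀ x y y', μ x y - μ x y' = μ x (y - y')) {W : A → V → U} {φ : A → U'} {η b : ℝ}
    (hη : 0 ≤ η) (hb : 0 ≤ b) (h : Ctl' W η) (hφ : Coef φ b) :
    Ctl' (fun a v => μ (W a v) (φ a)) (η * b) := by
  obtain ⟨B, hB, h⟩ := h
  obtain ⟨h1, L, hL, h2⟩ := hφ
  refine ⟨B * b + η * L, by positivity, fun a => ?_, fun a v v' => ?_, fun a a' v => ?_⟩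
  · have := hn (W a 0) (φ a)
    rw [h.1 a, norm_zero, zero_mul] at this
    simpa [h.1 a] using this
  · rw [hl]
    refine (hn _ _).trans ?_
    calc _ ≤ (η * ‖v - v'‖) * b := mul_le_mul (h.2.1 _ _ _) (h1 a) (norm_nonneg _) (by positivity)
      _ = _ := by ring
  · refine (norm_sub_le_norm_sub_add_norm_sub _ (μ (W a' v) (φ a)) _).trans ?_
    rw [hl, hr]
    have e1 : ‖μ (W a v - W a' v) (φ a)‖ ≤ (B * ‖v‖ * ‖a - a'‖) * b :=
      (hn _ _).trans (mul_le_mul (h.2.2 _ _ _) (h1 a) (norm_nonneg _) (by positivity))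
    have e2 : ‖μ (W a' v) (φ a - φ a')‖ ≤ (η * ‖v‖) * (L * ‖a - a'‖) :=
      (hn _ _).trans (mul_le_mul (h.norm_le _ _) (h2 _ _) (norm_nonneg _) (by positivity))
    nlinarith

lemma Coef.const (c : U) : Coef (fun _ : A => c) ‖c‖ :=
  ⟨fun _ => le_rfl, 0, le_rfl, fun _ _ => by simp⟩

lemma Coef.mono {φ : A → U} {b b' : ℝ} (h : Coef φ b) (hb : b ≤ b') : Coef φ b' :=
  ⟨fun a => (h.1 a).trans hb, h.2⟩

end Ctl

lemma coef_bp {r : ℝ} (hr : 0 < r) (c ξ : ℂ) : Coef (fun w : ℂ => bp r (w * c - ξ)) 1 := by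
  obtain ⟨L, hL0, hL⟩ := bp_lip (V := ℂ)
  refine ⟨fun a => abs_bp_le _ _, L / r * ‖c‖, by positivity, fun a a' => ?_⟩
  refine (hL r hr _ _).trans (le_of_eq ?_)
  rw [sub_sub_sub_cancel_right, ← sub_mul, norm_mul]; ring

lemma norm_pow_sub_le {w w' : ℂ} (h : ‖w‖ ≤ 1) (h' : ‖w'‖ ≤ 1) (n : ℕ) :
    ‖w ^ n - w' ^ n‖ ≤ n * ‖w - w'‖ := by
  induction n with
  | zero => simp
  | succ n ih =>
    have : w ^ (n + 1) - w' ^ (n + 1) = w * (w ^ n - w' ^ n) + (w - w') * w' ^ n := by ring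
    rw [this]
    refine (norm_add_le _ _).trans ?_
    rw [norm_mul, norm_mul, norm_pow]
    have h1 : ‖w'‖ ^ n ≤ 1 := pow_le_one₀ (norm_nonneg _) h'
    have h2 : ‖w‖ * ‖w ^ n - w' ^ n‖ ≤ 1 * (n * ‖w - w'‖) :=
      mul_le_mul h ih (norm_nonneg _) zero_le_one
    have h3 := mul_le_of_le_one_right (norm_nonneg (w - w')) h1
    push_cast
    linarith

section Phi

variable {V : Type} [NormedAddCommGroup V]

noncomputable def rho (ε : ℝ) (u : ℂ) (v : V) : ℝ := √(‖u‖ ^ 2 + (ε * ‖v‖) ^ 2)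

noncomputable def Phi (N : ℕ) (ε : ℝ) (u : ℂ) (v : V) : ℂ :=
  rho ε u v * (u / rho ε u v) ^ N

lemma rho_nonneg (ε : ℝ) (u : ℂ) (v : V) : 0 ≤ rho ε u v := Real.sqrt_nonneg _

lemma le_rho (ε : ℝ) (u : ℂ) (v : V) : ‖u‖ ≤ rho ε u v :=
  Real.le_sqrt_of_sq_le (by nlinarith [sq_nonneg (ε * ‖v‖)])

lemma rho_mul (ε : ℝ) (u : ℂ) (v : V) : (rho ε u v : ℂ) * (u / rho ε u v) = u := by
  by_cases h : rho ε u v = 0
  · have := le_rho ε u v
    rw [h, norm_le_zero_iff] at this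
    simp [this]
  · exact mul_div_cancel₀ _ (by exact_mod_cast h)

lemma norm_div_rho (ε : ℝ) (u : ℂ) (v : V) : ‖u / rho ε u v‖ ≤ 1 := by
  rw [norm_div, Complex.norm_real, Real.norm_eq_abs, abs_of_nonneg (rho_nonneg _ _ _)]
  exact div_le_one_of_le₀ (le_rho _ _ _) (rho_nonneg _ _ _)

lemma rho_lip {ε : ℝ} (h0 : 0 ≤ ε) (h1 : ε ≤ 1) (u u' : ℂ) (v v' : V) :
    |rho ε u v - rho ε u' v'| ≤ ‖u - u'‖ + ‖v - v'‖ := by
  have key : ∀ (u : ℂ) (v : V), rho ε u v = ‖(⟨‖u‖, ε * ‖v‖⟩ : ℂ)‖ := fun u v => by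
    rw [Complex.norm_eq_sqrt_sq_add_sq]; rfl
  rw [key, key]
  refine (abs_norm_sub_norm_le _ _).trans ((Complex.norm_le_abs_re_add_abs_im _).trans ?_)
  simp only [Complex.sub_re, Complex.sub_im]
  refine add_le_add (abs_norm_sub_norm_le _ _) ?_
  rw [← mul_sub, abs_mul, abs_of_nonneg h0]
  exact (mul_le_of_le_one_left (abs_nonneg _) h1).trans (abs_norm_sub_norm_le _ _)

lemma Phi_zero {N : ℕ} (hN : N ≠ 0) (ε : ℝ) (v : V) : Phi N ε 0 v = 0 := by simp [Phi, hN]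

lemma Phi_lip {N : ℕ} (hN : 1 ≤ N) {ε : ℝ} (h0 : 0 ≤ ε) (h1 : ε ≤ 1) {u u' : ℂ} {v v' : V}
    (hu : ‖u - u'‖ ≤ ‖v - v'‖) : ‖Phi N ε u v - Phi N ε u' v'‖ ≤ 5 * N * ‖v - v'‖ := by
  have e1 := rho_mul ε u v
  have e2 := rho_mul ε u' v'
  have e3 := norm_div_rho ε u v
  have e4 := norm_div_rho ε u' v'
  have e5 := rho_lip h0 h1 u u' v v'
  have e6 := rho_nonneg ε u' v'
  unfold Phi
  set w := u / rho ε u v
  set w' := u' / rho ε u' v'
  set ρ := rho ε u v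
  set ρ' := rho ε u' v'
  have a1 : (ρ : ℂ) * w ^ N - ρ' * w' ^ N = ((ρ - ρ' : ℝ) : ℂ) * w ^ N + ρ' * (w ^ N - w' ^ N) := by
    push_cast; ring
  have a2 : (ρ' : ℂ) * (w - w') = -((ρ - ρ' : ℝ) : ℂ) * w + (u - u') := by
    rw [← e1, ← e2]; push_cast; ring
  have a3 : ρ' * ‖w - w'‖ ≤ |ρ - ρ'| + ‖u - u'‖ := by
    have := congrArg norm a2
    rw [norm_mul, Complex.norm_real, Real.norm_eq_abs, abs_of_nonneg e6] at this
    rw [this]
    refine (norm_add_le _ _).trans (add_le_add ?_ le_rfl)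
    rw [norm_mul, norm_neg, Complex.norm_real, Real.norm_eq_abs]
    exact mul_le_of_le_one_right (abs_nonneg _) e3
  rw [a1]
  refine (norm_add_le _ _).trans ?_
  rw [norm_mul, norm_mul, Complex.norm_real, Complex.norm_real, Real.norm_eq_abs, Real.norm_eq_abs,
    abs_of_nonneg e6, norm_pow]
  have a4 : |ρ - ρ'| * ‖w‖ ^ N ≤ |ρ - ρ'| :=
    mul_le_of_le_one_right (abs_nonneg _) (pow_le_one₀ (norm_nonneg _) e3)
  have a5 := mul_le_mul_of_nonneg_left (norm_pow_sub_le e3 e4 N) e6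
  have hN' : (1 : ℝ) ≤ N := by exact_mod_cast hN
  have a6 : (N : ℝ) * (ρ' * ‖w - w'‖) ≤ N * (3 * ‖v - v'‖) :=
    mul_le_mul_of_nonneg_left (by linarith) (by linarith)
  nlinarith [norm_nonneg (v - v')]

lemma Phi_ray {N : ℕ} (hN : 1 ≤ N) (ε : ℝ) {w : ℂ} (hw : ‖w‖ = 1) {A : ℝ} (hA : 0 ≤ A) (v : V) :
    ∃ t : ℝ, 0 ≤ t ∧ Phi N ε (A * w) v = t * w ^ N ∧ (0 ≤ ε → ε * ‖v‖ ≤ A / N → A / 2 ≤ t) := by
  set ρ := rho ε (A * w) v with hρ
  have hρ0 : 0 ≤ ρ := rho_nonneg _ _ _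
  refine ⟨ρ * (A / ρ) ^ N, by positivity, ?_, fun hε hv => ?_⟩
  · unfold Phi; rw [← hρ]; push_cast; ring
  · rcases hA.eq_or_lt with rfl | hA'
    · simp only [zero_div]; positivity
    have hn : ‖(A : ℂ) * w‖ = A := by simp [hw, abs_of_pos hA']
    have h1 : A ≤ ρ := by have := le_rho ε (A * w) v; rwa [hn] at this
    have hN' : (1 : ℝ) ≤ N := by exact_mod_cast hN
    have h2 : ρ ≤ A * (1 + 1 / (2 * N)) := by
      rw [hρ, rho, hn]
      refine Real.sqrt_le_iff.2 ⟨by positivity, ?_⟩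
      have h3 : (ε * ‖v‖) ^ 2 ≤ (A / N) ^ 2 := by gcongr
      have h4 : (A / N) ^ 2 ≤ A ^ 2 / N := by
        rw [div_pow]; gcongr; nlinarith
      have h5 : (A * (1 + 1 / (2 * N))) ^ 2 = A ^ 2 + A ^ 2 / N + (A / (2 * N)) ^ 2 := by
        field_simp; ring
      nlinarith [sq_nonneg (A / (2 * N))]
    have hρ1 : 0 < ρ := hA'.trans_le h1
    have h3 : 1 - 1 / (2 * N) ≤ A / ρ := by
      rw [le_div_iff₀ hρ1]
      have : 0 ≤ 1 - 1 / (2 * (N : ℝ)) := by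
        rw [sub_nonneg, div_le_one (by positivity)]; linarith
      nlinarith [mul_le_mul_of_nonneg_left h2 this, sq_nonneg (1 / (2 * (N : ℝ)))]
    have h4 : 1 + (N : ℝ) * (-(1 / (2 * N))) ≤ (1 + -(1 / (2 * N))) ^ N :=
      one_add_mul_le_pow (by
        have : 1 / (2 * (N : ℝ)) ≤ 1 := by rw [div_le_one (by positivity)]; linarith
        linarith) N
    have h5 : 1 + (N : ℝ) * (-(1 / (2 * N))) = 1 / 2 := by field_simp; ring
    have h6 : (1 + -(1 / (2 * (N : ℝ)))) ^ N ≤ (A / ρ) ^ N :=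
      pow_le_pow_left₀ (by
        have : 1 / (2 * (N : ℝ)) ≤ 1 := by rw [div_le_one (by positivity)]; linarith
        linarith) (by linarith) N
    nlinarith

lemma Phi_contDiffAt [InnerProductSpace ℂ V] [NormedSpace ℝ V] {X : Type} [NormedAddCommGroup X]
    [NormedSpace ℝ X] (N : ℕ) {ε : ℝ} (hε : 0 < ε) {u : X → ℂ} {v : X → V} {x : X}
    (hu : ContDiffAt ℝ 1 u x) (hv : ContDiffAt ℝ 1 v x) (h0 : v x ≠ 0) :
    ContDiffAt ℝ 1 (fun x => Phi N ε (u x) (v x)) x := by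
  have hpos : 0 < ‖u x‖ ^ 2 + (ε * ‖v x‖) ^ 2 := by
    have := norm_pos_iff.2 h0
    positivity
  have h1 : ContDiffAt ℝ 1 (fun x => rho ε (u x) (v x)) x := by
    unfold rho
    refine ContDiffAt.sqrt ?_ hpos.ne'
    simp only [mul_pow]
    exact (hu.norm_sq ℂ).add (contDiffAt_const.mul (hv.norm_sq ℂ))
  have h2 : ContDiffAt ℝ 1 (fun x => (rho ε (u x) (v x) : ℂ)) x :=
    Complex.ofRealCLM.contDiff.contDiffAt.comp x h1
  have h3 : (rho ε (u x) (v x) : ℂ) ≠ 0 := by exact_mod_cast (Real.sqrt_pos.2 hpos).ne'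
  simp only [Phi, div_eq_mul_inv]
  exact h2.mul ((hu.mul (h2.inv h3)).pow _)

end Phi

end Vale.Agent.P103
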