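import Vale.Agent.P103.Model

/-! One step of a mixed model: consistency and growth. -/

namespace Vale.Agent.P103

open Finset

noncomputable def cc (j : ℕ) (μ : ℝ) (w : ℂ) (p : Reg) : ℝ :=
  (1 - μ) * (if p.1 = bank j then wr j p.2 w else 0) +
    μ * (if p.1 = bank (j + 1) then wr (j + 1) p.2 w else 0)

noncomputable def kk (K : ℝ) (j : ℕ) (μ : ℝ) (w : ℂ) : ℝ :=
  aa K w * (1 - (1 - μ) * er j w - μ * er (j + 1) w)

def Mix (K : ℝ) (j : ℕ) (w : ℂ) (v v' : V) : Prop :=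
  ∃ μ ν : ℝ, 0 ≤ μ ∧ μ ≤ 1 ∧ 0 ≤ ν ∧ ν ≤ 1 ∧ ∀ p, v' p = kk K j μ w * v p +
    ((1 - ν : ℝ) * DD K j w v + ν * DD K (j + 1) w v) * cc j μ w p

def ConsAt (j L : ℕ) (u w : ℂ) (v : V) : Prop :=
  1 ≤ L ∧ (∀ t, t + 1 < L → ell (j + 1) < ‖w * w0⁻¹ ^ (t + 1) - 1‖) ∧ ‖u‖ = 1 ∧
    ∀ p, v p ≠ 0 → ∃ i t, (i = j ∨ i = j + 1) ∧ p.1 = bank i ∧ t < L ∧
      wr i p.2 (w * w0⁻¹ ^ (t + 1)) ≠ 0 ∧
      ∃ (A : ℝ) (ζ : ℂ), 0 ≤ A ∧ ‖ζ‖ = 1 ∧ v p = A * ζ ∧ ζ ^ 2 ^ t = u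

def Cons (j : ℕ) (w : ℂ) (v : V) : Prop := ∃ L u, ConsAt j L u w v

def Ray (u x : ℂ) (c : ℝ) : Prop := ∃ t : ℝ, c ≤ t ∧ 0 ≤ t ∧ x = t * u

lemma Ray.add {u x y : ℂ} {c c' : ℝ} (h : Ray u x c) (h' : Ray u y c') : Ray u (x + y) (c + c') := by
  obtain ⟨t, h1, h2, rfl⟩ := h
  obtain ⟨t', h1', h2', rfl⟩ := h'
  exact ⟨t + t', by linarith, by linarith, by push_cast; ring⟩

lemma Ray.mul {u x : ℂ} {c b : ℝ} (h : Ray u x c) (hb : 0 ≤ b) : Ray u (b * x) (b * c) := by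
  obtain ⟨t, h1, h2, rfl⟩ := h
  exact ⟨b * t, by gcongr, by positivity, by push_cast; ring⟩

lemma Ray.mono {u x : ℂ} {c c' : ℝ} (h : Ray u x c) (hc : c' ≤ c) : Ray u x c' := by
  obtain ⟨t, h1, h2, h3⟩ := h
  exact ⟨t, hc.trans h1, h2, h3⟩

lemma Ray.zero_le {u x : ℂ} {c : ℝ} (h : Ray u x c) : Ray u x 0 := by
  obtain ⟨t, -, h2, h3⟩ := h
  exact ⟨t, h2, h2, h3⟩

lemma Ray.zero (u : ℂ) : Ray u 0 0 := ⟨0, le_rfl, le_rfl, by simp⟩

lemma Ray.sum {κ : Type} {u : ℂ} (s : Finset κ) {f : κ → ℂ} (h : ∀ k ∈ s, Ray u (f k) 0) :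
    Ray u (∑ k ∈ s, f k) 0 :=
  sum_induction f (fun x => Ray u x 0) (fun _ _ ha hb => by simpa using ha.add hb) (Ray.zero u) h

lemma Ray.sum_ge {κ : Type} [DecidableEq κ] {u : ℂ} {s : Finset κ} {f : κ → ℂ}
    (h : ∀ k ∈ s, Ray u (f k) 0) {k0 : κ} (hk : k0 ∈ s) {c : ℝ} (h0 : Ray u (f k0) c) :
    Ray u (∑ k ∈ s, f k) c := by
  rw [← add_sum_erase s f hk]
  simpa using h0.add (Ray.sum (s.erase k0) fun k hk => h k (mem_of_mem_erase hk))

lemma shift (w : ℂ) (a b : ℕ) : w * w0⁻¹ ^ (a + b) * w0 ^ b = w * w0⁻¹ ^ a := by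
  have := w0_ne
  rw [pow_add, inv_pow w0 b]; field_simp

lemma shift1 (w : ℂ) (a : ℕ) : w * w0 * w0⁻¹ ^ (a + 1) = w * w0⁻¹ ^ a := by
  have := w0_ne
  rw [pow_succ]; field_simp

lemma norm_back {w : ℂ} (hw : ‖w‖ = 1) (a : ℕ) : ‖w * w0⁻¹ ^ a‖ = 1 := by
  simp [hw, norm_w0]

lemma no_visit {j n : ℕ} {w : ℂ} (hw : ‖w‖ = 1)
    (h : ∀ s < n, ell (j + 1) < ‖w * w0⁻¹ ^ s - 1‖) : n < W j := by
  by_contra hc
  obtain ⟨t, ht, h1⟩ := exists_core j (norm_back hw (n - 1))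
  have := shift w (n - 1 - t) t
  rw [show n - 1 - t + t = n - 1 by omega] at this
  rw [this] at h1
  exact absurd (h (n - 1 - t) (by omega)) (not_lt.2 h1)

lemma ConsAt.le {j L : ℕ} {u w : ℂ} {v : V} (hw : ‖w‖ = 1) (h : ConsAt j L u w v) : L ≤ W j := by
  have := no_visit (j := j) (n := L - 1) (norm_back hw 1) fun s hs => by
    rw [mul_assoc, ← pow_add, add_comm 1 s]; exact h.2.1 s (by omega)
  omega

lemma ConsAt.lt {j L : ℕ} {u w : ℂ} {v : V} (hw : ‖w‖ = 1) (h : ConsAt j L u w v)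
    (hc : ell (j + 1) < ‖w - 1‖) : L < W j :=
  no_visit hw fun s hs => by
    cases s with
    | zero => simpa using hc
    | succ s => exact h.2.1 s hs

lemma rd_lag_unique {i k} {w : ℂ} (hw : ‖w‖ = 1) {a b : ℕ} (hab : a < b) (h2 : b < a + W i)
    (ha : rd i k (w * w0⁻¹ ^ a) ≠ 0) (hb : rd i k (w * w0⁻¹ ^ b) ≠ 0) : False := by
  obtain ⟨n, rfl⟩ := Nat.exists_eq_add_of_le hab.le
  exact rd_unique (norm_back hw _) (n := n) (by omega) (by omega) hb (by rwa [shift])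

lemma ConsAt.term {j L : ℕ} {u w : ℂ} {v : V} (hw : ‖w‖ = 1) (h : ConsAt j L u w v) {i : ℕ}
    (h1 : i ≤ j + 2) (h2 : j ≤ i + 1) (k : Idx) {s : ℕ} (hs : s ∈ Icc 1 (W i)) :
    Ray (u ^ 2) ((rd i k (w * w0⁻¹ ^ s) : ℂ) * Phi (2 ^ s) (eps s) (v (bank i, k)) v) 0 := by
  by_cases hv : v (bank i, k) = 0
  · rw [hv, Phi_zero (by positivity), mul_zero]; exact Ray.zero _
  by_cases hr : rd i k (w * w0⁻¹ ^ s) = 0
  · rw [hr]; simpa using Ray.zero _
  obtain ⟨i', t, hi, hb, ht, hwr, A, ζ, hA, hζ, hvp, hu⟩ := h.2.2.2 _ hv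
  have hii : i' = i := by
    simp only [bank, Fin.mk.injEq] at hb; omega
  subst hii
  have hL := (h.le hw).trans (W_mono (show j ≤ i' by omega))
  have hr' : rd i' k (w * w0⁻¹ ^ (t + 1)) ≠ 0 := by rw [rd_of_wr hwr]; exact one_ne_zero
  rw [mem_Icc] at hs
  have hst : s = t + 1 := by
    rcases lt_trichotomy s (t + 1) with h' | h' | h'
    · exact (rd_lag_unique hw h' (by omega) hr hr').elim
    · exact h'
    · exact (rd_lag_unique hw h' (by omega) hr' hr).elim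
  subst hst
  obtain ⟨τ, hτ, hP, -⟩ := Phi_ray (N := 2 ^ (t + 1)) Nat.one_le_two_pow (eps (t + 1)) hζ hA v
  rw [hvp, hP, pow_succ 2 t, pow_mul, hu]
  simpa using Ray.mul (u := u ^ 2) (c := 0) ⟨τ, hτ, hτ, rfl⟩ (rd_nonneg i' k _)

lemma ConsAt.Rd {j L : ℕ} {u w : ℂ} {v : V} (hw : ‖w‖ = 1) (h : ConsAt j L u w v) {i : ℕ}
    (h1 : i ≤ j + 2) (h2 : j ≤ i + 1) : Ray (u ^ 2) (Rd i w v) 0 :=
  Ray.sum _ fun k _ => Ray.sum _ fun _ hs => h.term hw h1 h2 k hs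

lemma ConsAt.Rd_ge {j L : ℕ} {u w : ℂ} {v : V} (hw : ‖w‖ = 1) (h : ConsAt j L u w v) :
    ∃ i, (i = j ∨ i = j + 1) ∧ Ray (u ^ 2) (P103.Rd i w v) (‖v‖ / 24582) := by
  obtain ⟨p, hp⟩ := exists_coord v
  by_cases hv : v p = 0
  · refine ⟨j, Or.inl rfl, (h.Rd hw (by omega) (by omega)).mono ?_⟩
    rw [hv, norm_zero] at hp; linarith
  obtain ⟨i, t, hi, hb, ht, hwr, A, ζ, hA, hζ, hvp, hu⟩ := h.2.2.2 _ hv
  have hL := (h.le hw).trans (W_mono (show j ≤ i by omega))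
  refine ⟨i, hi, Ray.sum_ge (fun k _ => Ray.sum _ fun _ hs => h.term hw (by omega) (by omega) k hs)
    (mem_univ p.2) (Ray.sum_ge (fun _ hs => h.term hw (by omega) (by omega) _ hs)
      (k0 := t + 1) (mem_Icc.2 ⟨by omega, by omega⟩) ?_)⟩
  obtain ⟨τ, hτ, hP, hlow⟩ := Phi_ray (N := 2 ^ (t + 1)) Nat.one_le_two_pow (eps (t + 1)) hζ hA v
  have hA' : ‖v p‖ = A := by rw [hvp]; simp [hζ, abs_of_nonneg hA]
  rw [hA'] at hp
  rw [rd_of_wr hwr, ← hb, Prod.mk.eta, hvp, hP, pow_succ 2 t, pow_mul, hu]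
  refine ⟨τ, le_trans (by linarith) (hlow (eps_pos _).le ?_), hτ, by simp⟩
  unfold eps
  push_cast
  rw [div_mul_eq_mul_div, one_mul, div_le_div_iff₀ (by positivity) (by positivity)]
  have : (0 : ℝ) < 2 ^ (t + 1) := by positivity
  nlinarith

lemma beta_pos {K : ℝ} (hK : 0 < K) (i : ℕ) : 0 < beta K i := by unfold beta; positivity

lemma beta_anti {K : ℝ} (hK : 0 < K) {i j : ℕ} (h : i ≤ j) : beta K j ≤ beta K i := by
  unfold beta
  have : (W (i + 1) : ℝ) ≤ W (j + 1) := by exact_mod_cast W_mono (by omega)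
  gcongr

lemma beta_le {K : ℝ} (hK : 0 < K) (i : ℕ) : beta K i ≤ K :=
  mul_le_of_le_one_right hK.le (Real.exp_le_one_iff.2 (neg_nonpos.2 (by positivity)))

lemma ConsAt.Dec {j L : ℕ} {u w : ℂ} {v : V} (hw : ‖w‖ = 1) (h : ConsAt j L u w v) {i : ℕ}
    (hi : i = j ∨ i = j + 1) : Ray (u ^ 2) (Dec i w v) (‖v‖ / 24582) := by
  obtain ⟨i0, hi0, h0⟩ := h.Rd_ge hw
  have a1 := h.Rd hw (i := i - 1) (by omega) (by omega)
  have a2 := h.Rd hw (i := i) (by omega) (by omega)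
  have a3 := h.Rd hw (i := i + 1) (by omega) (by omega)
  unfold P103.Dec
  have : i0 = i ∨ i0 = i + 1 ∨ i0 = i - 1 := by omega
  rcases this with rfl | rfl | rfl
  · simpa using (a1.add h0).add a3
  · simpa using (a1.add a2).add h0
  · simpa using (h0.add a2).add a3

lemma ConsAt.DD {K : ℝ} (hK : 1 ≤ K) {j L : ℕ} {u w : ℂ} {v : V} (hw : ‖w‖ = 1)
    (h : ConsAt j L u w v) (hY : ∀ p, p ≠ M0 → ‖v p‖ ≤ 1) {i : ℕ} (hi : i = j ∨ i = j + 1) :
    Ray (u ^ 2) (DD K i w v) (beta K (j + 1) * (‖v‖ / 24582)) := by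
  have hK0 : 0 < K := by linarith
  have h1 := ((h.Dec hw hi).mul (beta_pos hK0 i).le).mono (c' := beta K (j + 1) * (‖v‖ / 24582))
    (mul_le_mul_of_nonneg_right (beta_anti hK0 (by omega)) (by positivity))
  unfold P103.DD
  split_ifs with hi0
  · subst hi0
    have hj : j = 0 := by omega
    subst hj
    have h2 : Ray (u ^ 2) (v M0 ^ 2) (‖v M0‖ ^ 2) := by
      by_cases hv : v M0 = 0
      · rw [hv]; simpa using Ray.zero _
      obtain ⟨i, t, hi, hb, ht, -, A, ζ, hA, hζ, hvp, hu⟩ := h.2.2.2 _ hv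
      have hL : L ≤ 1 := h.le hw
      have ht0 : t = 0 := by omega
      subst ht0
      refine ⟨A ^ 2, by rw [hvp]; simp [hζ], by positivity, ?_⟩
      rw [hvp, ← hu]; push_cast; ring
    by_cases hz : ‖v M0‖ ≤ K
    · rw [bp_eq_one hK0 hz]
      simpa using h1.add h2.zero_le
    · push Not at hz
      refine ((h1.zero_le.mul (bp_nonneg K (v M0))).add h2).mono ?_
      have h3 : ‖v‖ ≤ 12291 * ‖v M0‖ := norm_le_of_coord fun p => by
        by_cases hp : p = M0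
        · rw [hp]
        · linarith [hY p hp]
      have h4 := beta_le hK0 (0 + 1)
      have h5 := beta_pos hK0 (0 + 1)
      have h6 : beta K (0 + 1) * (‖v‖ / 24582) ≤ ‖v M0‖ * ‖v M0‖ :=
        mul_le_mul (by linarith) (by linarith [norm_nonneg (v M0)]) (by positivity) (norm_nonneg _)
      nlinarith
  · exact h1

lemma cc_nonneg {j : ℕ} {μ : ℝ} (h0 : 0 ≤ μ) (h1 : μ ≤ 1) (w : ℂ) (p : Reg) : 0 ≤ cc j μ w p := by
  unfold cc
  have := wr_nonneg j p.2 w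
  have := wr_nonneg (j + 1) p.2 w
  have : 0 ≤ 1 - μ := by linarith
  split_ifs <;> positivity

lemma cc_ne {j : ℕ} {μ : ℝ} {w : ℂ} {p : Reg} (h : cc j μ w p ≠ 0) :
    ∃ i, (i = j ∨ i = j + 1) ∧ p.1 = bank i ∧ wr i p.2 w ≠ 0 := by
  by_contra hc
  push Not at hc
  apply h
  unfold cc
  split_ifs with h1 h2 h2
  · rw [hc j (Or.inl rfl) h1, hc _ (Or.inr rfl) h2]; simp
  · rw [hc j (Or.inl rfl) h1]; simp
  · rw [hc _ (Or.inr rfl) h2]; simp
  · simp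

lemma ell_succ_le (j : ℕ) : 2 * ell (j + 1) = ell j := by unfold ell; field_simp; ring

lemma kk_core (K : ℝ) {j : ℕ} (μ : ℝ) {w : ℂ} (h : ‖w - 1‖ ≤ ell (j + 1)) : kk K j μ w = 0 := by
  have h1 : er (j + 1) w = 1 := bp_eq_one (ell_pos _) h
  have h2 : er j w = 1 := bp_eq_one (ell_pos _) (by linarith [ell_succ_le j, ell_pos (j + 1)])
  simp [kk, h1, h2]

lemma kk_nonneg {K : ℝ} (hK : 0 ≤ K) (j : ℕ) {μ : ℝ} (h0 : 0 ≤ μ) (h1 : μ ≤ 1) (w : ℂ) :
    0 ≤ kk K j μ w := by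
  have a1 : er j w ≤ 1 := bp_le_one _ _
  have a2 : er (j + 1) w ≤ 1 := bp_le_one _ _
  unfold kk aa
  refine mul_nonneg (by positivity) ?_
  nlinarith

lemma cons_erase {K : ℝ} {j : ℕ} {w : ℂ} {v v' : V} (hc : ‖w - 1‖ ≤ ell (j + 1))
    (h : Mix K j w v v') : Cons j (w * w0) v' := by
  obtain ⟨μ, ν, m0, m1, -, -, hv⟩ := h
  set D := ((1 - ν : ℝ) * DD K j w v + ν * DD K (j + 1) w v)
  obtain ⟨u, hu, hD⟩ : ∃ u : ℂ, ‖u‖ = 1 ∧ D = ‖D‖ * u :=
    ⟨E D.arg, norm_E _, by rw [E, mul_comm Complex.I]; exact (Complex.norm_mul_exp_arg_mul_I D).symm⟩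
  refine ⟨1, u, le_rfl, fun t ht => by omega, hu, fun p hp => ?_⟩
  rw [hv p, kk_core K μ hc] at hp ⊢
  have hne : cc j μ w p ≠ 0 := fun h0 => hp (by simp [h0])
  obtain ⟨i, hi, hb, hwr⟩ := cc_ne hne
  refine ⟨i, 0, hi, hb, one_pos, by rwa [shift1, pow_zero, mul_one], ‖D‖ * cc j μ w p, u,
    mul_nonneg (norm_nonneg _) (cc_nonneg m0 m1 w p), hu, ?_, by simp⟩
  conv_lhs => rw [hD]
  push_cast; ring

lemma ConsAt.disj {K : ℝ} {j L : ℕ} {u w : ℂ} {v : V} (hw : ‖w‖ = 1) (h : ConsAt j L u w v)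
    {μ : ℝ} {p : Reg} (hne : cc j μ w p ≠ 0) : (kk K j μ w : ℂ) * v p = 0 := by
  by_cases hc : ‖w - 1‖ ≤ ell (j + 1)
  · rw [kk_core K μ hc]; simp
  by_cases hv : v p = 0
  · simp [hv]
  exfalso
  obtain ⟨i, hi, hb, hwr⟩ := cc_ne hne
  obtain ⟨i', t, hi', hb', ht, hwr', -⟩ := h.2.2.2 _ hv
  have hii : i' = i := by
    rw [hb] at hb'
    simp only [bank, Fin.mk.injEq] at hb'; omega
  subst hii
  have hL := (h.lt hw (not_le.1 hc)).trans_le (W_mono (show j ≤ i' by omega))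
  exact rd_lag_unique (i := i') (k := p.2) hw (a := 0) (b := t + 1) (by omega) (by omega)
    (by rw [pow_zero, mul_one, rd_of_wr hwr]; exact one_ne_zero)
    (by rw [rd_of_wr hwr']; exact one_ne_zero)

lemma ConsAt.mixD {K : ℝ} (hK : 1 ≤ K) {j L : ℕ} {u w : ℂ} {v : V} (hw : ‖w‖ = 1)
    (h : ConsAt j L u w v) (hY : ∀ p, p ≠ M0 → ‖v p‖ ≤ 1) {ν : ℝ} (n0 : 0 ≤ ν) (n1 : ν ≤ 1) :
    Ray (u ^ 2) ((1 - ν : ℝ) * P103.DD K j w v + ν * P103.DD K (j + 1) w v)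
      (beta K (j + 1) * (‖v‖ / 24582)) :=
  (((h.DD hK hw hY (Or.inl rfl)).mul (sub_nonneg.2 n1)).add
    ((h.DD hK hw hY (Or.inr rfl)).mul n0)).mono (le_of_eq (by ring))

lemma cons_step {K : ℝ} (hK : 1 ≤ K) {j : ℕ} {w : ℂ} {v v' : V} (hw : ‖w‖ = 1)
    (hY : ∀ p, p ≠ M0 → ‖v p‖ ≤ 1) (h0 : Cons j w v) (h : Mix K j w v v') :
    Cons j (w * w0) v' := by
  by_cases hc : ‖w - 1‖ ≤ ell (j + 1)
  · exact cons_erase hc h
  obtain ⟨L, u, h0⟩ := h0
  obtain ⟨μ, ν, m0, m1, n0, n1, hv⟩ := h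
  obtain ⟨τ, -, hτ, hD⟩ := h0.mixD hK hw hY n0 n1
  have hu2 : ‖u ^ 2‖ = 1 := by simp [h0.2.2.1]
  refine ⟨L + 1, u ^ 2, by omega, fun t ht => ?_, hu2, fun p hp => ?_⟩
  · rw [shift1]
    cases t with
    | zero => simpa using hc
    | succ t => exact h0.2.1 t (by omega)
  rw [hv p, hD] at hp ⊢
  by_cases hne : cc j μ w p = 0
  · rw [hne] at hp ⊢
    have hvp : v p ≠ 0 := fun h' => hp (by simp [h'])
    obtain ⟨i, t, hi, hb, ht, hwr, A, ζ, hA, hζ, hvp, hu⟩ := h0.2.2.2 _ hvp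
    refine ⟨i, t + 1, hi, hb, by omega, by rwa [shift1], kk K j μ w * A, ζ,
      mul_nonneg (kk_nonneg (by linarith) j m0 m1 w) hA, hζ, ?_, by rw [pow_succ, pow_mul, hu]⟩
    rw [hvp]; push_cast; ring
  · obtain ⟨i, hi, hb, hwr⟩ := cc_ne hne
    refine ⟨i, 0, hi, hb, by omega, by rwa [shift1, pow_zero, mul_one], τ * cc j μ w p, u ^ 2,
      mul_nonneg hτ (cc_nonneg m0 m1 w p), hu2, ?_, by simp⟩
    rw [h0.disj hw hne]; push_cast; ring

/-- Logarithmic lower bound for the multiplier. -/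
noncomputable def lam (A : ℝ) (j : ℕ) (w : ℂ) : ℝ :=
  A - 12291 - (if ‖w - 1‖ < 2 * ell j then 5000000 * (W j : ℝ) else 0) -
    2 * ∑ i ∈ range j, (if ‖w - 1‖ < (1 / 2) ^ i then (1 : ℝ) else 0)

lemma dyadic (j : ℕ) {x : ℝ} (hx : (1 / 2) ^ j ≤ x) :
    Real.exp (-∑ i ∈ range j, (if x < (1 / 2) ^ i then (1 : ℝ) else 0)) ≤ x ∨ 1 ≤ x := by
  induction j with
  | zero => right; simpa using hx
  | succ j ih =>
    by_cases h : (1 / 2) ^ j ≤ x
    · rw [sum_range_succ, if_neg (not_lt.2 h), add_zero]; exact ih h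
    · left
      push Not at h
      rw [sum_congr rfl (g := fun _ => (1 : ℝ)) fun i hi => if_pos (h.trans_le
        (pow_le_pow_of_le_one (by norm_num) (by norm_num) (by have := mem_range.1 hi; omega)))]
      refine le_trans ?_ hx
      rw [sum_const, card_range, nsmul_eq_mul, mul_one, ← mul_neg_one, Real.exp_nat_mul]
      gcongr
      rw [Real.exp_neg, one_div]
      gcongr
      linarith [Real.add_one_le_exp (1 : ℝ)]

lemma growth {A : ℝ} (hA : 0 ≤ A) {j : ℕ} {w : ℂ} {v v' : V} (hw : ‖w‖ = 1)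
    (hY : ∀ p, p ≠ M0 → ‖v p‖ ≤ 1) (h0 : Cons j w v) (h : Mix (Real.exp A) j w v v') :
    Real.exp (lam A j w) * ‖v‖ ≤ ‖v'‖ := by
  set K := Real.exp A with hKA
  have hK : 1 ≤ K := Real.one_le_exp hA
  obtain ⟨L, u, h0⟩ := h0
  obtain ⟨μ, ν, m0, m1, n0, n1, hv⟩ := h
  obtain ⟨τ, hτ1, hτ, hD⟩ := h0.mixD hK hw hY n0 n1
  have hk0 := kk_nonneg (by linarith : 0 ≤ K) j m0 m1 w
  have g1 : kk K j μ w / 12291 * ‖v‖ ≤ ‖v'‖ := by
    obtain ⟨p, hp⟩ := exists_coord v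
    have : kk K j μ w * ‖v p‖ ≤ ‖v' p‖ := by
      by_cases hne : cc j μ w p = 0
      · rw [hv p, hne]; simp [abs_of_nonneg hk0]
      · have := congrArg norm (h0.disj (K := K) hw hne)
        rw [norm_mul, Complex.norm_real, Real.norm_eq_abs, abs_of_nonneg hk0, norm_zero] at this
        rw [this]; exact norm_nonneg _
    have h1 := PiLp.norm_apply_le v' p
    nlinarith
  have g2 : ∀ p, 1 / 2 ≤ cc j μ w p → beta K (j + 1) / 49164 * ‖v‖ ≤ ‖v'‖ := by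
    intro p hp
    refine le_trans ?_ (PiLp.norm_apply_le v' p)
    rw [hv p, h0.disj hw (by linarith), hD, zero_add]
    simp only [norm_mul, norm_pow, h0.2.2.1, Complex.norm_real, Real.norm_eq_abs, abs_of_nonneg hτ,
      abs_of_nonneg (cc_nonneg m0 m1 w p)]
    nlinarith
  have hS : 0 ≤ ∑ i ∈ range j, (if ‖w - 1‖ < (1 / 2) ^ i then (1 : ℝ) else 0) :=
    sum_nonneg fun i _ => by split_ifs <;> norm_num
  have hW : (j : ℝ) + 1 ≤ W j := by exact_mod_cast le_W j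
  have hj0 : (0 : ℝ) ≤ j := Nat.cast_nonneg _
  have hd : Real.exp (-12291) ≤ 1 / 12291 := by
    rw [Real.exp_neg, one_div]
    gcongr
    linarith [Real.add_one_le_exp (12291 : ℝ)]
  by_cases hJ : ‖w - 1‖ < 2 * ell j
  · have g3 : Real.exp (lam A j w) ≤ beta K (j + 1) / 49164 := by
      have h1 : (W (j + 1 + 1) : ℝ) ≤ 64 * W j := by exact_mod_cast W_add_two j
      rw [le_div_iff₀ (by norm_num), beta, hKA, ← Real.exp_add]
      have h2 : (49164 : ℝ) ≤ Real.exp 49164 := by linarith [Real.add_one_le_exp (49164 : ℝ)]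
      refine (mul_le_mul_of_nonneg_left h2 (Real.exp_pos _).le).trans ?_
      rw [← Real.exp_add, Real.exp_le_exp, lam, if_pos hJ]
      linarith
    have g4 : ∀ p, 1 / 2 ≤ cc j μ w p → Real.exp (lam A j w) * ‖v‖ ≤ ‖v'‖ := fun p hp =>
      (mul_le_mul_of_nonneg_right g3 (norm_nonneg _)).trans (g2 p hp)
    by_cases hμ : μ ≤ 1 / 2
    · obtain ⟨k, hk⟩ := exists_wr hw hJ.le
      refine g4 (bank j, k) ?_
      have := wr_nonneg (j + 1) k w
      simp only [cc, if_true, hk]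
      split_ifs <;> nlinarith
    · by_cases hJ' : ‖w - 1‖ ≤ 2 * ell (j + 1)
      · obtain ⟨k, hk⟩ := exists_wr hw hJ'
        refine g4 (bank (j + 1), k) ?_
        have := wr_nonneg j k w
        simp only [cc, if_true, hk]
        split_ifs <;> nlinarith
      · refine le_trans (mul_le_mul_of_nonneg_right ?_ (norm_nonneg _)) g1
        push Not at hJ' hμ
        have e1 : er (j + 1) w = 0 := bp_eq_zero (ell_pos _) hJ'.le
        have e2 : er j w ≤ 1 := bp_le_one _ _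
        have e3 : Real.exp (-(j : ℝ)) ≤ ‖w - 1‖ / 2 := by
          rw [ell_succ_le, ell] at hJ'
          have : Real.exp (-(j : ℝ)) ≤ 1 / 2 ^ j := by
            rw [← mul_neg_one, Real.exp_nat_mul, one_div, ← inv_pow, Real.exp_neg]
            gcongr
            linarith [Real.add_one_le_exp (1 : ℝ)]
          have h2 : (4 : ℝ) / 2 ^ j = 4 * (1 / 2 ^ j) := by ring
          have h3 : (0 : ℝ) < 1 / 2 ^ j := by positivity
          linarith
        have e4 : Real.exp (lam A j w) ≤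
            K * Real.exp (-12291) * (Real.exp (-(j : ℝ)) * Real.exp (-(j : ℝ))) := by
          rw [hKA]
          simp only [← Real.exp_add]
          rw [Real.exp_le_exp, lam, if_pos hJ]
          linarith
        have e5 : aa K w / 2 ≤ kk K j μ w := by
          have : 0 ≤ aa K w := by unfold aa; positivity
          have h1 : 1 / 2 ≤ 1 - (1 - μ) * er j w - μ * er (j + 1) w := by rw [e1]; nlinarith
          unfold kk; nlinarith
        refine e4.trans ?_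
        calc _ ≤ K * (1 / 12291) * (‖w - 1‖ / 2 * (‖w - 1‖ / 2)) := by gcongr
          _ = aa K w / 2 / 12291 / 2 := by unfold aa; ring
          _ ≤ _ := by linarith
  · refine le_trans (mul_le_mul_of_nonneg_right ?_ (norm_nonneg _)) g1
    have hJ' := not_lt.1 hJ
    have e1 : er j w = 0 := bp_eq_zero (ell_pos _) hJ'
    have e2 : er (j + 1) w = 0 :=
      bp_eq_zero (ell_pos _) (by linarith [ell_succ_le j, ell_pos j])
    set S := ∑ i ∈ range j, (if ‖w - 1‖ < (1 / 2) ^ i then (1 : ℝ) else 0)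
    have e3 : Real.exp (-S) ≤ ‖w - 1‖ := by
      rcases dyadic j (x := ‖w - 1‖) (le_trans (by
        rw [ell, one_div, inv_pow]
        have : (0 : ℝ) < (2 ^ j)⁻¹ := by positivity
        rw [div_eq_mul_inv]; linarith) hJ') with h | h
      · exact h
      · exact (Real.exp_le_one_iff.2 (by linarith)).trans h
    have e4 : Real.exp (lam A j w) = K * Real.exp (-12291) * (Real.exp (-S) * Real.exp (-S)) := by
      rw [hKA]
      simp only [← Real.exp_add]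
      rw [lam, if_neg hJ]
      congr 1; ring
    rw [e4]
    calc _ ≤ K * (1 / 12291) * (‖w - 1‖ * ‖w - 1‖) := by gcongr
      _ = _ := by simp only [kk, aa, e1, e2]; ring

lemma lam_ge {A : ℝ} (hA : 0 ≤ A) (j : ℕ) (w : ℂ) : -(6000000 * (W j : ℝ)) ≤ lam A j w := by
  have hW : (j : ℝ) + 1 ≤ W j := by exact_mod_cast le_W j
  have hj0 : (0 : ℝ) ≤ j := Nat.cast_nonneg _
  have h1 : ∑ i ∈ range j, (if ‖w - 1‖ < (1 / 2) ^ i then (1 : ℝ) else 0) ≤ ∑ _i ∈ range j, 1 :=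
    sum_le_sum fun i _ => by split_ifs <;> norm_num
  rw [sum_const, card_range, nsmul_eq_mul, mul_one] at h1
  unfold lam
  split_ifs <;> linarith

lemma lam_sum (j : ℕ) {w : ℂ} (hw : ‖w‖ = 1) {n : ℕ} (h1 : W j ≤ n) (h2 : n ≤ 2 * W j) :
    1 ≤ ∑ t ∈ range n, lam 6000000000 j (w * w0 ^ t) := by
  have h1' : (W j : ℝ) ≤ n := by exact_mod_cast h1
  have h2' : (n : ℝ) ≤ 2 * W j := by exact_mod_cast h2
  have hW : (j : ℝ) + 1 ≤ W j := by exact_mod_cast le_W j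
  have hj0 : (0 : ℝ) ≤ j := Nat.cast_nonneg _
  simp only [lam, sum_sub_distrib, sum_const, card_range, nsmul_eq_mul, ← mul_sum]
  rw [sum_comm]
  have a1 : ∑ t ∈ range n, (if ‖w * w0 ^ t - 1‖ < 2 * ell j then 5000000 * (W j : ℝ) else 0) ≤
      1026 * (5000000 * W j) := by
    rw [← sum_filter, sum_const, nsmul_eq_mul]
    refine mul_le_mul_of_nonneg_right ((w0_count hw n (by have := ell_pos j; positivity)).trans ?_)
      (by positivity)
    have : ell j * W j ≤ 64 := by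
      unfold ell W
      split_ifs with h
      · subst h; norm_num
      · push_cast; field_simp; norm_num
    nlinarith [ell_pos j]
  have a2 : ∑ i ∈ range j, ∑ t ∈ range n, (if ‖w * w0 ^ t - 1‖ < (1 / 2) ^ i then (1 : ℝ) else 0) ≤
      ∑ i ∈ range j, (4 * (n : ℝ) * (1 / 2) ^ i + 2) := by
    refine sum_le_sum fun i _ => ?_
    rw [← sum_filter, sum_const, nsmul_eq_mul, mul_one]
    exact (w0_count hw n (by positivity)).trans (le_of_eq (by ring))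
  rw [sum_add_distrib, ← mul_sum, sum_const, card_range, nsmul_eq_mul] at a2
  have a3 := sum_geometric_two_le j
  have a4 : 4 * (n : ℝ) * ∑ i ∈ range j, (1 / 2 : ℝ) ^ i ≤ 4 * n * 2 := by gcongr
  linarith

end Vale.Agent.P103
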